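import Vale.Agent.Lib.P230.FpRank

/-!
# P230, module Bonf: the matroid Bonferroni inequality
-/

open MeasureTheory ProbabilityTheory Set
open scoped ENNReal Pointwise

namespace Vale.P230

open Classical in
/-- pointwise Bonferroni inequality with a correction for dependent sets -/
theorem bonf_pt {α : Type*} (I : Finset α → Prop) (Sp : α → Finset α → Prop)
    (hI0 : I ∅) (hmono : ∀ J K : Finset α, J ⊆ K → I K → I J)
    (hext : ∀ (J : Finset α) (z : α), I J → z ∉ J → ¬ I (insert z J) → Sp z J)
    (S H : Finset α) (hHS : H ⊆ S) (m : ℕ) (hm : Even m) :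
    (if H = ∅ then (1 : ℤ) else 0) ≤
      ∑ j ∈ Finset.range (m + 1), (-1 : ℤ) ^ j * (((H.powersetCard j).filter I).card : ℤ) +
      ∑ s ∈ Finset.range (2 * m), (2 : ℤ) ^ s *
        (((H.powersetCard s).filter (fun J => I J ∧ ∃ z ∈ S, z ∉ J ∧ Sp z J)).card : ℤ) := by
  have hX : (0 : ℤ) ≤ ∑ s ∈ Finset.range (2 * m), (2 : ℤ) ^ s *
        (((H.powersetCard s).filter (fun J => I J ∧ ∃ z ∈ S, z ∉ J ∧ Sp z J)).card : ℤ) := by
    positivity
  by_cases hall : ∀ J ⊆ H, J.card ≤ m → I J
  · have hY : ∀ j ∈ Finset.range (m + 1),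
        (-1 : ℤ) ^ j * (((H.powersetCard j).filter I).card : ℤ) =
          (-1 : ℤ) ^ j * (H.card.choose j : ℤ) := by
      intro j hj
      rw [Finset.filter_true_of_mem, Finset.card_powersetCard]
      intro J hJ
      rw [Finset.mem_powersetCard] at hJ
      exact hall J hJ.1 (by rw [hJ.2]; exact Nat.lt_succ_iff.1 (Finset.mem_range.1 hj))
    rw [Finset.sum_congr rfl hY]
    have h1 : (if H = ∅ then (1 : ℤ) else 0) ≤
        ∑ j ∈ Finset.range (m + 1), (-1 : ℤ) ^ j * (H.card.choose j : ℤ) := by
      rcases Nat.eq_zero_or_pos H.card with h0 | h0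
      · rw [h0, if_pos (Finset.card_eq_zero.1 h0), Finset.sum_range_succ']
        simp
      · obtain ⟨h, hh⟩ := Nat.exists_eq_succ_of_ne_zero h0.ne'
        rw [hh, if_neg (by
          intro h2
          rw [h2] at h0
          simp at h0), Nat.succ_eq_add_one, Int.alternating_sum_range_choose_eq_choose, hm.neg_one_pow]
        positivity
    linarith
  · push Not at hall
    obtain ⟨C, hCH, hCm, hC⟩ := hall
    have hHne : H ≠ ∅ := by
      rintro rfl
      rw [Finset.subset_empty] at hCH
      rw [hCH] at hC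
      exact hC hI0
    rw [if_neg hHne]
    -- all independent sets of size at most m
    set A : Finset (Finset α) := (Finset.range (m + 1)).biUnion
      (fun j => (H.powersetCard j).filter I) with hA
    set B : Finset (Finset α) := (Finset.range (2 * m)).biUnion
      (fun s => (H.powersetCard s).filter (fun J => I J ∧ ∃ z ∈ S, z ∉ J ∧ Sp z J)) with hB
    have hAB : A ⊆ B.biUnion (fun J => J.powerset) := by
      intro J hJ
      rw [hA, Finset.mem_biUnion] at hJ
      obtain ⟨j, hj, hJ⟩ := hJ
      rw [Finset.mem_filter, Finset.mem_powersetCard] at hJ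
      obtain ⟨⟨hJH, hJj⟩, hJI⟩ := hJ
      have hjm : j ≤ m := Nat.lt_succ_iff.1 (Finset.mem_range.1 hj)
      -- maximal independent set between J and J ∪ C
      obtain ⟨K, hK, hKmax⟩ := Finset.exists_max_image
        ((J ∪ C).powerset.filter (fun K => J ⊆ K ∧ I K)) Finset.card
        ⟨J, by
          rw [Finset.mem_filter, Finset.mem_powerset]
          exact ⟨Finset.subset_union_left, Finset.Subset.refl _, hJI⟩⟩
      rw [Finset.mem_filter, Finset.mem_powerset] at hK
      obtain ⟨hKJC, hJK, hKI⟩ := hK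
      have hKne : K ≠ J ∪ C := by
        rintro rfl
        exact hC (hmono C (J ∪ C) Finset.subset_union_right hKI)
      obtain ⟨z, hz, hzK⟩ := Finset.exists_of_ssubset (hKJC.ssubset_of_ne hKne)
      have hzI : ¬ I (insert z K) := by
        intro h
        have h1 := hKmax (insert z K) (by
          rw [Finset.mem_filter, Finset.mem_powerset]
          exact ⟨Finset.insert_subset hz hKJC, hJK.trans (Finset.subset_insert _ _), h⟩)
        rw [Finset.card_insert_of_notMem hzK] at h1
        omega
      have hJCH : J ∪ C ⊆ H := Finset.union_subset hJH hCH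
      have hcard : K.card < 2 * m := by
        have h1 := Finset.card_lt_card (hKJC.ssubset_of_ne hKne)
        have h2 := Finset.card_union_le J C
        omega
      rw [Finset.mem_biUnion]
      refine ⟨K, ?_, Finset.mem_powerset.2 hJK⟩
      rw [hB, Finset.mem_biUnion]
      refine ⟨K.card, Finset.mem_range.2 hcard, ?_⟩
      rw [Finset.mem_filter, Finset.mem_powersetCard]
      exact ⟨⟨hKJC.trans hJCH, rfl⟩, hKI, z, hHS (hJCH hz), hzK, hext K z hKI hzK hzI⟩
    have hAcard : (A.card : ℤ) = ∑ j ∈ Finset.range (m + 1),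
        (((H.powersetCard j).filter I).card : ℤ) := by
      rw [hA, Finset.card_biUnion]
      · push_cast; rfl
      · intro j _ j' _ hjj
        simp only [Function.onFun]
        rw [Finset.disjoint_left]
        intro J hJ hJ'
        rw [Finset.mem_filter, Finset.mem_powersetCard] at hJ hJ'
        exact hjj (hJ.1.2.symm.trans hJ'.1.2)
    have hBcard : ((B.biUnion (fun J => J.powerset)).card : ℤ) ≤
        ∑ s ∈ Finset.range (2 * m), (2 : ℤ) ^ s *
        (((H.powersetCard s).filter (fun J => I J ∧ ∃ z ∈ S, z ∉ J ∧ Sp z J)).card : ℤ) := by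
      have h1 : (B.biUnion (fun J => J.powerset)).card ≤ ∑ J ∈ B, 2 ^ J.card := by
        refine Finset.card_biUnion_le.trans ?_
        simp
      have h2 : ∑ J ∈ B, 2 ^ J.card = ∑ s ∈ Finset.range (2 * m), 2 ^ s *
        ((H.powersetCard s).filter (fun J => I J ∧ ∃ z ∈ S, z ∉ J ∧ Sp z J)).card := by
        rw [hB, Finset.sum_biUnion]
        · apply Finset.sum_congr rfl
          intro s _
          have h3 : ∀ J ∈ (H.powersetCard s).filter (fun J => I J ∧ ∃ z ∈ S, z ∉ J ∧ Sp z J),
              2 ^ J.card = 2 ^ s := by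
            intro J hJ
            rw [Finset.mem_filter, Finset.mem_powersetCard] at hJ
            rw [hJ.1.2]
          rw [Finset.sum_congr rfl h3, Finset.sum_const, smul_eq_mul, mul_comm]
        · intro j _ j' _ hjj
          simp only [Function.onFun]
          rw [Finset.disjoint_left]
          intro J hJ hJ'
          rw [Finset.mem_filter, Finset.mem_powersetCard] at hJ hJ'
          exact hjj (hJ.1.2.symm.trans hJ'.1.2)
      rw [h2] at h1
      exact_mod_cast h1
    have hAB' : (A.card : ℤ) ≤ ((B.biUnion (fun J => J.powerset)).card : ℤ) := by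
      exact_mod_cast Finset.card_le_card hAB
    have hneg : -(∑ j ∈ Finset.range (m + 1), (((H.powersetCard j).filter I).card : ℤ)) ≤
        ∑ j ∈ Finset.range (m + 1), (-1 : ℤ) ^ j * (((H.powersetCard j).filter I).card : ℤ) := by
      rw [← Finset.sum_neg_distrib]
      apply Finset.sum_le_sum
      intro j _
      rcases neg_one_pow_eq_or ℤ j with h | h
      · rw [h]
        have : (0 : ℤ) ≤ (((H.powersetCard j).filter I).card : ℤ) := by positivity
        linarith
      · rw [h]
        linarith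
    linarith

theorem indep_empty {α : Type*} {N p : ℕ} (v : α → Fin N → ZMod p) : Indep v (∅ : Finset α) := by
  unfold Indep
  have : IsEmpty {z // z ∈ (∅ : Finset α)} := ⟨fun z => Finset.notMem_empty _ z.2⟩
  exact linearIndependent_empty_type

theorem indep_iff {α : Type*} {N p : ℕ} (v : α → Fin N → ZMod p) (J : Finset α) :
    Indep v J ↔ LinearIndepOn (ZMod p) (lft v) (J : Set α) := Iff.rfl

theorem indep_mono {α : Type*} {N p : ℕ} (v : α → Fin N → ZMod p) (J K : Finset α)
    (h : J ⊆ K) (hK : Indep v K) : Indep v J := by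
  rw [indep_iff] at hK ⊢
  exact hK.mono (by exact_mod_cast h)

open Classical in
theorem indep_ext {α : Type*} {N p : ℕ} [Fact p.Prime] (v : α → Fin N → ZMod p) (J : Finset α)
    (z : α) (hJ : Indep v J) (hz : z ∉ J) (h : ¬ Indep v (insert z J)) :
    lft v z ∈ Submodule.span (ZMod p) ((lft v) '' (J : Set α)) := by
  by_contra hn
  apply h
  rw [indep_iff, Finset.coe_insert, linearIndepOn_insert (by exact_mod_cast hz)]
  exact ⟨hJ, hn⟩

open Classical in
/-- MODULE Bonf (file Bonf.lean): matroid Bonferroni inequality. -/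
theorem bonf {α : Type*} {N d p m : ℕ} [Fact p.Prime] (v : α → Fin N → ZMod p)
    (S : Finset α) (hm : Even m) (hm0 : 0 < m) :
    (uncCount d v (S : Set α) : ℝ) / (p : ℝ) ^ (d * (N + 1)) ≤
      ∑ j ∈ Finset.range (m + 1), (-1 : ℝ) ^ j * (indepCount v S j : ℝ) / (p : ℝ) ^ (d * j)
      + ∑ s ∈ Finset.range (2 * m), (2 : ℝ) ^ s * (extCount v S s : ℝ) / (p : ℝ) ^ (d * s) := by
  have hp : 0 < p := (Fact.out : p.Prime).pos
  have hP : (0 : ℝ) < (p : ℝ) ^ (d * (N + 1)) := by positivity
  set E := Matrix (Fin d) (Fin N) (ZMod p) × (Fin d → ZMod p) with hE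
  set H : E → Finset α := fun q => S.filter (fun z => q.1.mulVec (v z) = q.2) with hH
  set P : Finset α → Prop := fun J => ∃ z ∈ S, z ∉ J ∧
    lft v z ∈ Submodule.span (ZMod p) ((lft v) '' (J : Set α)) with hPdef
  -- summation over q
  have hsum : ∀ (𝒥 : Finset (Finset α)) (j : ℕ), (∀ J ∈ 𝒥, J ⊆ S ∧ J.card = j ∧ Indep v J) →
      ∑ q : E, (((𝒥.filter (fun J => J ⊆ H q)).card : ℝ)) =
        (𝒥.card : ℝ) * ((p : ℝ) ^ (d * (N + 1)) / (p : ℝ) ^ (d * j)) := by
    intro 𝒥 j h𝒥
    have h1 : ∀ q : E, ((𝒥.filter (fun J => J ⊆ H q)).card : ℝ) =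
        ∑ J ∈ 𝒥, if J ⊆ H q then (1 : ℝ) else 0 := by
      intro q
      rw [Finset.sum_boole]
    simp only [h1]
    rw [Finset.sum_comm]
    rw [← nsmul_eq_mul, ← Finset.sum_const]
    apply Finset.sum_congr rfl
    intro J hJ
    obtain ⟨hJS, hJj, hJI⟩ := h𝒥 J hJ
    rw [Finset.sum_boole, ← hJj, ← card_solutions v J hJI]
    have h2 : {q : Matrix (Fin d) (Fin N) (ZMod p) × (Fin d → ZMod p) |
        ∀ z ∈ J, q.1.mulVec (v z) = q.2} =
        ((Finset.univ.filter (fun q : E => J ⊆ H q) : Finset E) : Set E) := by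
      ext q
      simp only [Set.mem_ofPred_eq, Finset.coe_filter, Finset.mem_univ, true_and, hH]
      constructor
      · intro h z hz
        exact Finset.mem_filter.2 ⟨hJS hz, h z hz⟩
      · intro h z hz
        exact (Finset.mem_filter.1 (h hz)).2
    rw [h2, Set.ncard_coe_finset]
  -- identification of the filtered powersets
  have hpow : ∀ (q : E) (j : ℕ) (R : Finset α → Prop) [DecidablePred R],
      ((H q).powersetCard j).filter R =
        ((S.powersetCard j).filter R).filter (fun J => J ⊆ H q) := by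
    intro q j R _
    ext J
    simp only [Finset.mem_filter, Finset.mem_powersetCard]
    constructor
    · rintro ⟨⟨h1, h2⟩, h3⟩
      exact ⟨⟨⟨h1.trans (Finset.filter_subset _ _), h2⟩, h3⟩, h1⟩
    · rintro ⟨⟨⟨_, h2⟩, h3⟩, h4⟩
      exact ⟨⟨h4, h2⟩, h3⟩
  have hpt : ∀ q : E, (if H q = ∅ then (1 : ℝ) else 0) ≤
      ∑ j ∈ Finset.range (m + 1), (-1 : ℝ) ^ j *
        (((((S.powersetCard j).filter (Indep v)).filter (fun J => J ⊆ H q)).card : ℝ)) +
      ∑ s ∈ Finset.range (2 * m), (2 : ℝ) ^ s *
        ((((S.powersetCard s).filter (fun J => Indep v J ∧ P J)).filter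
          (fun J => J ⊆ H q)).card : ℝ) := by
    intro q
    have h := bonf_pt (Indep v) (fun z J => lft v z ∈ Submodule.span (ZMod p)
      ((lft v) '' (J : Set α))) (indep_empty v) (indep_mono v) (indep_ext v) S (H q)
      (Finset.filter_subset _ _) m hm
    simp only [hpow] at h
    have h' : (((if H q = ∅ then (1 : ℤ) else 0 : ℤ)) : ℝ) ≤ ((∑ j ∈ Finset.range (m + 1),
      (-1 : ℤ) ^ j * (((((S.powersetCard j).filter (Indep v)).filter
        (fun J => J ⊆ H q)).card : ℤ)) + ∑ s ∈ Finset.range (2 * m), (2 : ℤ) ^ s *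
        ((((S.powersetCard s).filter (fun J => Indep v J ∧ P J)).filter
          (fun J => J ⊆ H q)).card : ℤ) : ℤ) : ℝ) := Int.cast_le.2 h
    push_cast at h'
    exact h'
  have hunc : (uncCount d v (S : Set α) : ℝ) = ∑ q : E, (if H q = ∅ then (1 : ℝ) else 0) := by
    rw [Finset.sum_boole]
    unfold uncCount
    have h2 : {q : Matrix (Fin d) (Fin N) (ZMod p) × (Fin d → ZMod p) |
        ∀ z ∈ (S : Set α), q.1.mulVec (v z) ≠ q.2} =
        ((Finset.univ.filter (fun q : E => H q = ∅) : Finset E) : Set E) := by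
      ext q
      simp only [Set.mem_ofPred_eq, Finset.coe_filter, Finset.mem_univ, true_and, hH,
        Finset.mem_coe]
      exact (Finset.filter_eq_empty_iff).symm
    rw [h2, Set.ncard_coe_finset]
  have htot := Finset.sum_le_sum (fun q (_ : q ∈ (Finset.univ : Finset E)) => hpt q)
  rw [← hunc, Finset.sum_add_distrib, Finset.sum_comm, Finset.sum_comm (s := Finset.univ)
    (t := Finset.range (2 * m))] at htot
  simp only [← Finset.mul_sum] at htot
  rw [div_le_iff₀ hP, add_mul, Finset.sum_mul, Finset.sum_mul]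
  refine htot.trans (le_of_eq ?_)
  congr 1
  · apply Finset.sum_congr rfl
    intro j _
    rw [hsum _ j (fun J hJ => by
      rw [Finset.mem_filter, Finset.mem_powersetCard] at hJ
      exact ⟨hJ.1.1, hJ.1.2, hJ.2⟩)]
    unfold indepCount
    ring
  · apply Finset.sum_congr rfl
    intro s _
    rw [hsum _ s (fun J hJ => by
      rw [Finset.mem_filter, Finset.mem_powersetCard] at hJ
      exact ⟨hJ.1.1, hJ.1.2, hJ.2.1⟩)]
    unfold extCount
    ring

end Vale.P230
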