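import Mathlib

/-!
# P230: lattice coverings by convex bodies.  Shared definitions.
-/

open MeasureTheory ProbabilityTheory Set
open scoped ENNReal Pointwise

namespace Vale.P230

/-- The set of all densities `vol K / det Λ` of lattice coverings of `ℝⁿ` by translates of `K`:
`Λ` runs over all full-rank lattices of `ℝⁿ` with `K + Λ = ℝⁿ`. -/
def latticeCoveringDensities {n : ℕ} (K : Set (Fin n → ℝ)) : Set ℝ :=
  {θ | ∃ (Λ : Submodule ℤ (Fin n → ℝ)) (_ : DiscreteTopology Λ) (_ : IsZLattice ℝ Λ),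
    K + (Λ : Set (Fin n → ℝ)) = Set.univ ∧ θ = (volume K).toReal / ZLattice.covolume Λ}

/-- The lattice covering density `θ_L(K)`. -/
noncomputable def thetaL {n : ℕ} (K : Set (Fin n → ℝ)) : ℝ := sInf (latticeCoveringDensities K)

/-- `A` contains a translate of the cube `[0,r]^N`. -/
def HasCube {N : ℕ} (r : ℝ) (A : Set (Fin N → ℝ)) : Prop :=
  ∃ q : Fin N → ℝ, ∀ u : Fin N → ℝ, (∀ i, 0 ≤ u i ∧ u i ≤ r) → q + u ∈ A

/-- integer points of `A` -/
def zpts {N : ℕ} (A : Set (Fin N → ℝ)) : Set (Fin N → ℤ) := {z | (fun i => (z i : ℝ)) ∈ A}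

/-- reduction mod `p` -/
def red {N : ℕ} (p : ℕ) (z : Fin N → ℤ) : Fin N → ZMod p := fun i => (z i : ZMod p)

/-- section of a set `Q ⊆ ℝ^N × ℝ^T` at height `y` -/
def sec {N T : ℕ} (Q : Set ((Fin N → ℝ) × (Fin T → ℝ))) (y : Fin T → ℝ) : Set (Fin N → ℝ) :=
  {x | (x, y) ∈ Q}

/-- the affine lift `(v z, 1)` -/
def lft {α : Type*} {N p : ℕ} (v : α → Fin N → ZMod p) (z : α) : (Fin N → ZMod p) × ZMod p :=
  (v z, 1)

/-- affine independence (mod `p`) of a finite set of points -/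
def Indep {α : Type*} {N p : ℕ} (v : α → Fin N → ZMod p) (J : Finset α) : Prop :=
  LinearIndependent (ZMod p) (fun z : J => lft v (z : α))

open Classical in
/-- number of independent `j`-subsets of `S` -/
noncomputable def indepCount {α : Type*} {N p : ℕ} (v : α → Fin N → ZMod p) (S : Finset α)
    (j : ℕ) : ℕ := ((S.powersetCard j).filter (fun J => Indep v J)).card

open Classical in
/-- number of independent `s`-subsets of `S` whose affine span contains a further point of `S` -/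
noncomputable def extCount {α : Type*} {N p : ℕ} (v : α → Fin N → ZMod p) (S : Finset α)
    (s : ℕ) : ℕ :=
  ((S.powersetCard s).filter (fun J => Indep v J ∧
    ∃ z ∈ S, z ∉ J ∧ lft v z ∈ Submodule.span (ZMod p) ((lft v) '' (J : Set α)))).card

open Classical in
/-- number of `s`-tuples in `S` whose affine span contains a further point of `S` -/
noncomputable def badTuples {α : Type*} {N p : ℕ} (v : α → Fin N → ZMod p) (S : Finset α)
    (s : ℕ) : ℕ :=
  ((Fintype.piFinset (fun _ : Fin s => S)).filter (fun f =>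
    ∃ z ∈ S, (∀ i, z ≠ f i) ∧
      lft v z ∈ Submodule.span (ZMod p) (Set.range (fun i => lft v (f i))))).card

/-- number of pairs `(W, c)` such that no point `z` of `S` satisfies `W z = c` -/
noncomputable def uncCount {α : Type*} {N p : ℕ} (d : ℕ) (v : α → Fin N → ZMod p)
    (S : Set α) : ℕ :=
  ({q : Matrix (Fin d) (Fin N) (ZMod p) × (Fin d → ZMod p) |
    ∀ z ∈ S, q.1.mulVec (v z) ≠ q.2}).ncard

/-- The properties of the finite set `S ⊆ ℤ^N` used in Step A. -/
structure GoodSet (N : ℕ) (S : Finset (Fin N → ℤ)) (p t₀ : ℕ) (ρ : ℝ) : Prop where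
  ne : S.Nonempty
  diam : ∀ z ∈ S, ∀ z' ∈ S, ∀ i, 16 * (z i - z' i) ^ 2 < p
  cls : ∀ t : ℕ, 2 ≤ t → ∀ b : Fin N → ℤ,
    ((S.filter (fun z => ∀ i, z i ≡ b i [ZMOD t])).card : ℝ) * (min t t₀ : ℕ) ^ N ≤ 8 * S.card
  pair : ∀ w : Fin N → ℤ,
    (((S ×ˢ S).filter (fun q => q.1 + q.2 + w ∈ S)).card : ℝ) ≤ 8 * ρ ^ N * (S.card : ℝ) ^ 2

/-- standard Gaussian measure on `Fin n → ℝ` -/
noncomputable def gam (n : ℕ) : Measure (Fin n → ℝ) :=
  Measure.pi (fun _ : Fin n => gaussianReal 0 1)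

end Vale.P230
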