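import Vale.Agent.Lib.P230.Defs

/-!
# P230, module Double: deterministic dimension-lifting doubling
-/

open Set

namespace Vale.P230

namespace Dbl

variable {G : Type*} [AddCommGroup G] [Fintype G] [DecidableEq G]

theorem sum_card (U₁ U₂ : Finset G) :
    ∑ a : G, ((U₁.filter (fun c => c - a ∈ U₂)).card : ℝ) = (U₁.card : ℝ) * U₂.card := by
  have h1 : ∀ a : G, ((U₁.filter (fun c => c - a ∈ U₂)).card : ℝ) =
      ∑ c ∈ U₁, if c - a ∈ U₂ then (1 : ℝ) else 0 := by
    intro a
    rw [Finset.card_filter]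
    push_cast
    rfl
  simp only [h1]
  rw [Finset.sum_comm]
  have h2 : ∀ c ∈ U₁, ∑ a : G, (if c - a ∈ U₂ then (1 : ℝ) else 0) = U₂.card := by
    intro c _
    rw [Fintype.sum_equiv (Equiv.subLeft c) (fun a => if c - a ∈ U₂ then (1 : ℝ) else 0)
      (fun b => if b ∈ U₂ then (1 : ℝ) else 0) (fun a => rfl)]
    simp
  rw [Finset.sum_congr rfl h2, Finset.sum_const, nsmul_eq_mul]

theorem exists_good {ι : Type*} [Fintype ι] (U₁ U₂ : ι → Finset G) (B : ℝ) (hB0 : 0 < B)
    (hB : (Fintype.card ι : ℝ) < B) :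
    ∃ a : G, ∀ i, (((U₁ i).filter (fun c => c - a ∈ U₂ i)).card : ℝ) ≤
      B * (((U₁ i).card : ℝ) * (U₂ i).card) / Fintype.card G := by
  classical
  by_contra hcon
  push Not at hcon
  have hG : (0 : ℝ) < Fintype.card G := by exact_mod_cast Fintype.card_pos
  -- the bad sets
  let bad : ι → Finset G := fun i => Finset.univ.filter (fun a =>
    B * (((U₁ i).card : ℝ) * (U₂ i).card) / Fintype.card G <
      (((U₁ i).filter (fun c => c - a ∈ U₂ i)).card : ℝ))
  have hcover : (Finset.univ : Finset G) ⊆ Finset.univ.biUnion bad := by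
    intro a _
    obtain ⟨i, hi⟩ := hcon a
    rw [Finset.mem_biUnion]
    exact ⟨i, Finset.mem_univ _, by simpa [bad] using hi⟩
  have hbad : ∀ i, ((bad i).card : ℝ) * B ≤ Fintype.card G := by
    intro i
    set P : ℝ := ((U₁ i).card : ℝ) * (U₂ i).card with hP
    have hP0 : 0 ≤ P := by positivity
    have hsum := sum_card (U₁ i) (U₂ i)
    rw [← hP] at hsum
    have hle : ((bad i).card : ℝ) * (B * P / Fintype.card G) ≤ P := by
      refine le_trans ?_ hsum.le
      calc ((bad i).card : ℝ) * (B * P / Fintype.card G)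
          = ∑ _a ∈ bad i, (B * P / Fintype.card G) := by
            rw [Finset.sum_const, nsmul_eq_mul]
        _ ≤ ∑ a ∈ bad i, (((U₁ i).filter (fun c => c - a ∈ U₂ i)).card : ℝ) := by
            apply Finset.sum_le_sum
            intro a ha
            exact (Finset.mem_filter.1 ha).2.le
        _ ≤ ∑ a : G, (((U₁ i).filter (fun c => c - a ∈ U₂ i)).card : ℝ) :=
            Finset.sum_le_sum_of_subset_of_nonneg (Finset.subset_univ _)
              (fun _ _ _ => Nat.cast_nonneg _)
    rcases hP0.eq_or_lt with h0 | h0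
    · -- no bad element
      have : bad i = ∅ := by
        rw [Finset.eq_empty_iff_forall_notMem]
        intro a ha
        have ha2 := (Finset.mem_filter.1 ha).2
        rw [← hP, ← h0] at ha2
        simp only [mul_zero, zero_div] at ha2
        have h3 : (((U₁ i).filter (fun c => c - a ∈ U₂ i)).card : ℝ) ≤
            ∑ a : G, (((U₁ i).filter (fun c => c - a ∈ U₂ i)).card : ℝ) :=
          Finset.single_le_sum (f := fun a => (((U₁ i).filter (fun c => c - a ∈ U₂ i)).card : ℝ))
            (fun _ _ => Nat.cast_nonneg _) (Finset.mem_univ a)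
        rw [hsum, ← h0] at h3
        linarith
      rw [this]
      simp
    · have h4 : ((bad i).card : ℝ) * (B * P / Fintype.card G) =
          (((bad i).card : ℝ) * B / Fintype.card G) * P := by ring
      rw [h4] at hle
      have h5 : ((bad i).card : ℝ) * B / Fintype.card G ≤ 1 := by
        by_contra h6
        push Not at h6
        nlinarith
      rwa [div_le_one hG] at h5
  have hcard : (Fintype.card G : ℝ) ≤ ∑ i, ((bad i).card : ℝ) := by
    have h1 := Finset.card_le_card hcover
    have h2 := h1.trans Finset.card_biUnion_le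
    rw [Finset.card_univ] at h2
    exact_mod_cast h2
  have h7 : (Fintype.card G : ℝ) * B ≤ Fintype.card ι * Fintype.card G := by
    calc (Fintype.card G : ℝ) * B ≤ (∑ i, ((bad i).card : ℝ)) * B :=
          mul_le_mul_of_nonneg_right hcard hB0.le
      _ = ∑ i, ((bad i).card : ℝ) * B := by rw [Finset.sum_mul]
      _ ≤ ∑ _i : ι, (Fintype.card G : ℝ) := Finset.sum_le_sum (fun i _ => hbad i)
      _ = _ := by rw [Finset.sum_const, Finset.card_univ, nsmul_eq_mul]
  nlinarith

theorem prod_cons {T : ℕ} (f : (Fin (T + 1) → Fin 2) → ℝ) :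
    ∏ v, f v = ∏ v' : Fin T → Fin 2, f (Fin.cons 0 v') * f (Fin.cons 1 v') := by
  rw [← Fintype.prod_equiv (Fin.consEquiv (fun _ => Fin 2)) (fun p => f (Fin.cons p.1 p.2)) f
    (fun p => rfl), Fintype.prod_prod_type, Fin.prod_univ_two, ← Finset.prod_mul_distrib]

theorem aux (M : ℕ) (hM : 0 < M) : ∀ (T : ℕ) (J : Type) [Fintype J]
    (U : J → (Fin T → ℤ) → Finset G) (B : ℝ), 1 ≤ B →
    (Fintype.card J : ℝ) * (2 * (M : ℝ)) ^ T ≤ B →
    (∀ j, ∀ y : Fin T → ℤ, (∀ i, 0 ≤ y i ∧ y i < M) → B ^ (2 ^ T - 1) *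
      (∏ v : Fin T → Fin 2, ((U j (fun i => y i - M * (v i : ℕ))).card : ℝ) / Fintype.card G) *
        Fintype.card G < 1) →
    ∃ a : Fin T → G, ∀ j, ∀ y : Fin T → ℤ, (∀ i, 0 ≤ y i ∧ y i < M) → ∀ c : G,
      ∃ v : Fin T → Fin 2, c - ∑ i, ((v i : ℕ) : ℤ) • a i ∉ U j (fun i => y i - M * (v i : ℕ)) := by
  intro T
  induction T with
  | zero =>
    intro J _ U B hB1 hB h
    refine ⟨fun i => i.elim0, fun j y hy c => ⟨fun i => i.elim0, ?_⟩⟩
    have h1 := h j y hy
    have hG : (0 : ℝ) < Fintype.card G := by exact_mod_cast Fintype.card_pos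
    rw [Fintype.prod_subsingleton _ (fun i => i.elim0 : Fin 0 → Fin 2)] at h1
    simp only [pow_zero, Nat.sub_self, one_mul] at h1
    rw [div_mul_cancel₀ _ hG.ne'] at h1
    have h3 : (U j (fun i => y i - M * (((fun i => i.elim0 : Fin 0 → Fin 2) i : Fin 2) : ℕ))).card
        < 1 := by
      exact_mod_cast h1
    have h2 : (U j (fun i => y i - M * (((fun i => i.elim0 : Fin 0 → Fin 2) i : Fin 2) : ℕ))).card
        = 0 := by
      omega
    rw [Finset.card_eq_zero] at h2
    rw [h2]
    exact Finset.notMem_empty _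
  | succ T ih =>
    intro J _ U B hB1 hB h
    have hB0 : 0 < B := by linarith
    have hM1 : (1 : ℝ) ≤ M := by exact_mod_cast hM
    -- choose the first translation
    let ι := J × Fin M × (Fin T → Fin (2 * M))
    let Y : (Fin T → Fin (2 * M)) → (Fin T → ℤ) := fun k i => ((k i : ℕ) : ℤ) - M
    let U₁ : ι → Finset G := fun q => U q.1 (Fin.cons ((q.2.1 : ℕ) : ℤ) (Y q.2.2))
    let U₂ : ι → Finset G := fun q => U q.1 (Fin.cons (((q.2.1 : ℕ) : ℤ) - M) (Y q.2.2))
    have hcardι : (Fintype.card ι : ℝ) < B ∨ Fintype.card J = 0 := by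
      by_cases hJ : Fintype.card J = 0
      · exact Or.inr hJ
      · left
        have hJ1 : (1 : ℝ) ≤ Fintype.card J := by
          exact_mod_cast Nat.one_le_iff_ne_zero.2 hJ
        have e : (Fintype.card ι : ℝ) = Fintype.card J * (M * (2 * (M : ℝ)) ^ T) := by
          simp only [ι, Fintype.card_prod, Fintype.card_fin, Fintype.card_fun]
          push_cast
          ring
        rw [e]
        have h1 : (0 : ℝ) < Fintype.card J * (M * (2 * (M : ℝ)) ^ T) := by positivity
        have h2 : (Fintype.card J : ℝ) * (2 * (M : ℝ)) ^ (T + 1) =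
            2 * (Fintype.card J * (M * (2 * (M : ℝ)) ^ T)) := by
          rw [pow_succ]
          ring
        rw [h2] at hB
        linarith
    rcases hcardι with hcardι | hJ0
    · obtain ⟨a₀, ha₀⟩ := exists_good U₁ U₂ B hB0 hcardι
      let U' : J × Fin M → (Fin T → ℤ) → Finset G := fun q y' =>
        (U q.1 (Fin.cons ((q.2 : ℕ) : ℤ) y')).filter
          (fun c => c - a₀ ∈ U q.1 (Fin.cons (((q.2 : ℕ) : ℤ) - M) y'))
      have hG : (0 : ℝ) < Fintype.card G := by exact_mod_cast Fintype.card_pos
      have hU' : ∀ q : J × Fin M, ∀ y' : Fin T → ℤ, (∀ i, -(M : ℤ) ≤ y' i ∧ y' i < M) →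
          ((U' q y').card : ℝ) / Fintype.card G ≤
            B * (((U q.1 (Fin.cons ((q.2 : ℕ) : ℤ) y')).card : ℝ) / Fintype.card G *
              (((U q.1 (Fin.cons (((q.2 : ℕ) : ℤ) - M) y')).card : ℝ) / Fintype.card G)) := by
        intro q y' hy'
        let k : Fin T → Fin (2 * M) := fun i => ⟨(y' i + M).toNat, by
          have := hy' i
          omega⟩
        have hk : Y k = y' := by
          funext i
          simp only [Y, k]
          have := hy' i
          omega
        have h1 := ha₀ (q.1, q.2, k)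
        simp only [U₁, U₂, hk] at h1
        have h2 : ((U' q y').card : ℝ) ≤ B * (((U q.1 (Fin.cons ((q.2 : ℕ) : ℤ) y')).card : ℝ) *
            ((U q.1 (Fin.cons (((q.2 : ℕ) : ℤ) - M) y')).card : ℝ)) / Fintype.card G := h1
        rw [div_le_iff₀ hG]
        refine h2.trans (le_of_eq ?_)
        field_simp
      obtain ⟨a', ha'⟩ := ih (J × Fin M) U' B hB1 (by
        rw [Fintype.card_prod, Fintype.card_fin]
        push_cast
        have h2 : (Fintype.card J : ℝ) * (2 * (M : ℝ)) ^ (T + 1) =
            2 * (Fintype.card J * M * (2 * (M : ℝ)) ^ T) := by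
          rw [pow_succ]
          ring
        rw [h2] at hB
        have h3 : (0 : ℝ) ≤ Fintype.card J * M * (2 * (M : ℝ)) ^ T := by positivity
        linarith) (by
        intro q y' hy'
        have hy : ∀ i, 0 ≤ (Fin.cons ((q.2 : ℕ) : ℤ) y' : Fin (T + 1) → ℤ) i ∧
            (Fin.cons ((q.2 : ℕ) : ℤ) y' : Fin (T + 1) → ℤ) i < M := by
          intro i
          refine Fin.cases ?_ (fun i => ?_) i
          · simp only [Fin.cons_zero]
            have := q.2.2
            omega
          · simp only [Fin.cons_succ]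
            exact hy' i
        have h1 := h q.1 (Fin.cons ((q.2 : ℕ) : ℤ) y') hy
        refine lt_of_le_of_lt ?_ h1
        rw [prod_cons]
        have hc0 : ∀ v' : Fin T → Fin 2,
            (fun i => (Fin.cons ((q.2 : ℕ) : ℤ) y' : Fin (T + 1) → ℤ) i -
              (M : ℤ) * (((Fin.cons 0 v' : Fin (T + 1) → Fin 2) i : Fin 2) : ℕ)) =
            (Fin.cons ((q.2 : ℕ) : ℤ) (fun i => y' i - M * (v' i : ℕ)) : Fin (T + 1) → ℤ) := by
          intro v'
          funext i
          refine Fin.cases ?_ (fun i => ?_) i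
          · simp
          · simp
        have hc1 : ∀ v' : Fin T → Fin 2,
            (fun i => (Fin.cons ((q.2 : ℕ) : ℤ) y' : Fin (T + 1) → ℤ) i -
              (M : ℤ) * (((Fin.cons 1 v' : Fin (T + 1) → Fin 2) i : Fin 2) : ℕ)) =
            (Fin.cons (((q.2 : ℕ) : ℤ) - M) (fun i => y' i - M * (v' i : ℕ)) :
              Fin (T + 1) → ℤ) := by
          intro v'
          funext i
          refine Fin.cases ?_ (fun i => ?_) i
          · simp
          · simp
        simp only [hc0, hc1]
        have hprod : ∏ v' : Fin T → Fin 2, ((U' q (fun i => y' i - M * (v' i : ℕ))).card : ℝ) /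
            Fintype.card G ≤ ∏ v' : Fin T → Fin 2, (B *
              (((U q.1 (Fin.cons ((q.2 : ℕ) : ℤ) (fun i => y' i - M * (v' i : ℕ)))).card : ℝ) /
                Fintype.card G *
              (((U q.1 (Fin.cons (((q.2 : ℕ) : ℤ) - M) (fun i => y' i - M * (v' i : ℕ)))).card
                : ℝ) / Fintype.card G))) := by
          apply Finset.prod_le_prod
          · intro v' _
            positivity
          · intro v' _
            apply hU'
            intro i
            have h3 := hy' i
            have h4 := (v' i).2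
            have h5 : ((v' i : ℕ) : ℤ) = 0 ∨ ((v' i : ℕ) : ℤ) = 1 := by omega
            rcases h5 with h5 | h5
            · rw [h5]; omega
            · rw [h5]; omega
        rw [Finset.prod_mul_distrib, Finset.prod_const, Finset.card_univ, Fintype.card_fun,
          Fintype.card_fin, Fintype.card_fin] at hprod
        have hpow : B ^ (2 ^ T - 1) * B ^ (2 ^ T) = B ^ (2 ^ (T + 1) - 1) := by
          rw [← pow_add]
          congr 1
          have : 1 ≤ 2 ^ T := Nat.one_le_two_pow
          rw [pow_succ]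
          omega
        calc B ^ (2 ^ T - 1) * (∏ v' : Fin T → Fin 2,
              ((U' q (fun i => y' i - M * (v' i : ℕ))).card : ℝ) / Fintype.card G) *
                Fintype.card G
            ≤ B ^ (2 ^ T - 1) * (B ^ (2 ^ T) * ∏ v' : Fin T → Fin 2,
              (((U q.1 (Fin.cons ((q.2 : ℕ) : ℤ) (fun i => y' i - M * (v' i : ℕ)))).card : ℝ) /
                Fintype.card G *
              (((U q.1 (Fin.cons (((q.2 : ℕ) : ℤ) - M) (fun i => y' i - M * (v' i : ℕ)))).card
                : ℝ) / Fintype.card G))) * Fintype.card G := by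
              apply mul_le_mul_of_nonneg_right _ hG.le
              exact mul_le_mul_of_nonneg_left hprod (by positivity)
          _ = _ := by
              rw [← mul_assoc (B ^ (2 ^ T - 1)), hpow])
      refine ⟨Fin.cons a₀ a', fun j y hy c => ?_⟩
      have hy0 := hy 0
      let y0 : Fin M := ⟨(y 0).toNat, by omega⟩
      have hy0' : ((y0 : ℕ) : ℤ) = y 0 := by
        simp only [y0]
        omega
      obtain ⟨v', hv'⟩ := ha' (j, y0) (fun i => y i.succ) (fun i => hy i.succ) c
      simp only [U', Finset.mem_filter, not_and_or, hy0'] at hv'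
      rcases hv' with hv' | hv'
      · refine ⟨Fin.cons 0 v', ?_⟩
        have e1 : (fun i => y i - (M : ℤ) * (((Fin.cons 0 v' : Fin (T + 1) → Fin 2) i : Fin 2) : ℕ))
            = (Fin.cons (y 0) (fun i => y i.succ - M * (v' i : ℕ)) : Fin (T + 1) → ℤ) := by
          funext i
          refine Fin.cases ?_ (fun i => ?_) i
          · simp
          · simp
        rw [e1, Fin.sum_univ_succ]
        simpa using hv'
      · refine ⟨Fin.cons 1 v', ?_⟩
        have e1 : (fun i => y i - (M : ℤ) * (((Fin.cons 1 v' : Fin (T + 1) → Fin 2) i : Fin 2) : ℕ))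
            = (Fin.cons (y 0 - M) (fun i => y i.succ - M * (v' i : ℕ)) : Fin (T + 1) → ℤ) := by
          funext i
          refine Fin.cases ?_ (fun i => ?_) i
          · simp
          · simp
        rw [e1, Fin.sum_univ_succ]
        have e2 : c - ∑ i, ((v' i : ℕ) : ℤ) • a' i - a₀ =
            c - (a₀ + ∑ i, ((v' i : ℕ) : ℤ) • a' i) := by abel
        rw [e2] at hv'
        simpa using hv'
    · -- no index at all
      exact ⟨fun _ => 0, fun j => ((Fintype.card_eq_zero_iff.1 hJ0).elim j)⟩

end Dbl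

/-- MODULE Double (file Double.lean): deterministic dimension-lifting doubling. -/
theorem doubling {G : Type*} [AddCommGroup G] [Fintype G] [DecidableEq G] (T M : ℕ) (hM : 0 < M)
    (U : (Fin T → ℤ) → Finset G)
    (h : ∀ y : Fin T → ℤ, (∀ i, 0 ≤ y i ∧ y i < M) →
      (((2 * M : ℕ) : ℝ) ^ T) ^ (2 ^ T) *
        (∏ v : Fin T → Fin 2, ((U (fun i => y i - M * (v i : ℕ))).card : ℝ) / Fintype.card G)
          * Fintype.card G < 1) :
    ∃ a : Fin T → G, ∀ y : Fin T → ℤ, (∀ i, 0 ≤ y i ∧ y i < M) → ∀ c : G,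
      ∃ v : Fin T → Fin 2, c - ∑ i, ((v i : ℕ) : ℤ) • a i ∉ U (fun i => y i - M * (v i : ℕ)) := by
  have hM1 : (1 : ℝ) ≤ M := by exact_mod_cast hM
  have hB1 : (1 : ℝ) ≤ (2 * (M : ℝ)) ^ T := one_le_pow₀ (by linarith)
  obtain ⟨a, ha⟩ := Dbl.aux (G := G) M hM T Unit (fun _ => U) ((2 * (M : ℝ)) ^ T) hB1
    (by simp) (by
      intro _ y hy
      refine lt_of_le_of_lt ?_ (h y hy)
      apply mul_le_mul_of_nonneg_right _ (Nat.cast_nonneg _)
      apply mul_le_mul_of_nonneg_right _ (Finset.prod_nonneg (fun v _ => by positivity))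
      have e : (((2 * M : ℕ) : ℝ) ^ T) = (2 * (M : ℝ)) ^ T := by push_cast; rfl
      rw [e]
      exact pow_le_pow_right₀ hB1 (Nat.sub_le _ _))
  exact ⟨a, fun y hy c => ha () y hy c⟩

end Vale.P230
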