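import Vale.Agent.Lib.P230.Defs

/-!
# P230, module FpRank: solutions of a linear system for an affinely independent set
-/

open MeasureTheory ProbabilityTheory Set
open scoped ENNReal Pointwise

namespace Vale.P230

/-- the evaluation map `(W, c) ↦ (z ↦ W (v z) - c)` -/
noncomputable def evalMap {α : Type*} {N d p : ℕ} (v : α → Fin N → ZMod p) (J : Finset α) :
    (Matrix (Fin d) (Fin N) (ZMod p) × (Fin d → ZMod p)) →ₗ[ZMod p] (J → Fin d → ZMod p) where
  toFun q := fun z => q.1.mulVec (v z) - q.2
  map_add' q q' := by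
    ext z i
    simp [Matrix.add_mulVec]
    ring
  map_smul' a q := by
    ext z i
    simp [Matrix.smul_mulVec]
    ring

theorem evalMap_surj {α : Type*} {N d p : ℕ} [Fact p.Prime] (v : α → Fin N → ZMod p)
    (J : Finset α) (hJ : Indep v J) : Function.Surjective (evalMap (d := d) v J) := by
  intro t
  unfold Indep at hJ
  -- linear functional with prescribed values
  obtain ⟨f, hf⟩ : ∃ f : (Fin N → ZMod p) × ZMod p →ₗ[ZMod p] (Fin d → ZMod p),
      ∀ z : J, f (lft v (z : α)) = t z := by
    let b := Module.Basis.span hJ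
    obtain ⟨g, hg⟩ := LinearMap.exists_extend (b.constr (ZMod p) t)
    refine ⟨g, fun z => ?_⟩
    have h1 : ((b z : Submodule.span (ZMod p) (Set.range fun z : J => lft v (z : α))) :
        (Fin N → ZMod p) × ZMod p) = lft v (z : α) := by
      exact congrArg Subtype.val (Module.Basis.span_apply hJ z)
    have h2 := LinearMap.congr_fun hg (b z)
    rw [LinearMap.comp_apply, Submodule.subtype_apply, h1, Module.Basis.constr_basis] at h2
    exact h2
  refine ⟨(LinearMap.toMatrix' (f.comp (LinearMap.inl (ZMod p) (Fin N → ZMod p) (ZMod p))),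
    -(f (0, 1))), ?_⟩
  ext z i
  have h3 : f (lft v (z : α)) = f (v z, 0) + f (0, 1) := by
    rw [← map_add]
    simp [lft]
  have h4 : (LinearMap.toMatrix' (f.comp (LinearMap.inl (ZMod p) (Fin N → ZMod p) (ZMod p)))).mulVec
      (v z) = f (v z, 0) := by
    rw [← Matrix.toLin'_apply, Matrix.toLin'_toMatrix']
    rfl
  simp only [evalMap, LinearMap.coe_mk, AddHom.coe_mk]
  rw [h4, ← hf z, h3]
  simp

/-- MODULE FpRank (file FpRank.lean): solutions of a linear system for an independent set. -/
theorem card_solutions {α : Type*} {N d p : ℕ} [Fact p.Prime] (v : α → Fin N → ZMod p)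
    (J : Finset α) (hJ : Indep v J) :
    (({q : Matrix (Fin d) (Fin N) (ZMod p) × (Fin d → ZMod p) |
      ∀ z ∈ J, q.1.mulVec (v z) = q.2}).ncard : ℝ) =
      (p : ℝ) ^ (d * (N + 1)) / (p : ℝ) ^ (d * J.card) := by
  have hp : 0 < p := (Fact.out : p.Prime).pos
  have hset : {q : Matrix (Fin d) (Fin N) (ZMod p) × (Fin d → ZMod p) |
      ∀ z ∈ J, q.1.mulVec (v z) = q.2} = (LinearMap.ker (evalMap (d := d) v J) :
        Set (Matrix (Fin d) (Fin N) (ZMod p) × (Fin d → ZMod p))) := by
    ext q
    simp only [Set.mem_ofPred_eq, SetLike.mem_coe, LinearMap.mem_ker]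
    constructor
    · intro h
      ext z i
      simp only [evalMap, LinearMap.coe_mk, AddHom.coe_mk, Pi.sub_apply, Pi.zero_apply]
      rw [h z z.2]
      simp
    · intro h z hz
      have := congrFun h ⟨z, hz⟩
      simp only [evalMap, LinearMap.coe_mk, AddHom.coe_mk, Pi.zero_apply] at this
      exact sub_eq_zero.1 this
  rw [hset]
  have h1 := Submodule.card_eq_card_quotient_mul_card (LinearMap.ker (evalMap (d := d) v J))
  have h2 : Nat.card ((Matrix (Fin d) (Fin N) (ZMod p) × (Fin d → ZMod p)) ⧸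
      LinearMap.ker (evalMap (d := d) v J)) = Nat.card (J → Fin d → ZMod p) :=
    Nat.card_congr ((evalMap (d := d) v J).quotKerEquivOfSurjective (evalMap_surj v J hJ)).toEquiv
  have h3 : Nat.card (J → Fin d → ZMod p) = p ^ (d * J.card) := by
    rw [Nat.card_fun, Nat.card_fun]
    simp [← pow_mul]
  have h4 : Nat.card (Matrix (Fin d) (Fin N) (ZMod p) × (Fin d → ZMod p)) = p ^ (d * (N + 1)) := by
    rw [Nat.card_prod]
    have : Nat.card (Matrix (Fin d) (Fin N) (ZMod p)) = p ^ (d * N) := by
      unfold Matrix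
      rw [Nat.card_fun, Nat.card_fun]
      simp [← pow_mul, mul_comm]
    rw [this, Nat.card_fun]
    simp only [Nat.card_eq_fintype_card, Fintype.card_fin, ZMod.card]
    rw [← pow_add, mul_add, mul_one]
  rw [h2, h3, h4] at h1
  have h5 : ((LinearMap.ker (evalMap (d := d) v J) :
        Set (Matrix (Fin d) (Fin N) (ZMod p) × (Fin d → ZMod p)))).ncard =
      Nat.card (LinearMap.ker (evalMap (d := d) v J)) := rfl
  rw [h5, eq_div_iff (by positivity)]
  rw [← Nat.cast_pow, ← Nat.cast_pow, ← Nat.cast_mul, h1]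

end Vale.P230
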