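import Vale.Agent.Lib.P230.Defs
import Vale.Agent.Lib.P309.Gauss

/-!
# P230, module GaussPair
-/

open MeasureTheory ProbabilityTheory Set
open scoped ENNReal Pointwise RealInnerProductSpace NNReal

namespace Vale.P230

namespace GP

variable {H : Type} [NormedAddCommGroup H] [InnerProductSpace ℝ H] [FiniteDimensional ℝ H]
  [MeasurableSpace H] [BorelSpace H]

/-- law of a linear functional -/
theorem map_inner (y : H) : (stdGaussian H).map (fun ξ => ⟪ξ, y⟫) =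
    gaussianReal 0 (‖y‖₊ ^ 2) := by
  have h := IsGaussian.map_eq_gaussianReal (μ := stdGaussian H) (innerSL ℝ y)
  have h1 : (fun ξ : H => ⟪ξ, y⟫) = (innerSL ℝ y : H → ℝ) := by
    funext ξ
    rw [innerSL_apply_apply, real_inner_comm]
  rw [h1, h, integral_strongDual_stdGaussian, variance_dual_stdGaussian]
  congr 1
  ext
  simp [innerSL_apply_norm]

/-- real inequality between the two exponents -/
theorem exp_ineq {q ζ s : ℝ} (hq : |q| ≤ 1 / 2) (hζ : |ζ| ≤ 4) (hs : |s| ≤ 4) :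
    -(s - ζ * q) ^ 2 / (2 * (1 - q ^ 2)) + s ^ 2 / 2 ≤ 16 * |q| := by
  have hq2 : q ^ 2 ≤ 1 / 4 := by
    have := sq_abs q
    nlinarith [abs_nonneg q]
  have hpos : 0 < 1 - q ^ 2 := by linarith
  have e : -(s - ζ * q) ^ 2 / (2 * (1 - q ^ 2)) + s ^ 2 / 2 =
      (2 * q * (s * ζ) - q ^ 2 * (ζ ^ 2 + s ^ 2)) / (2 * (1 - q ^ 2)) := by
    field_simp
    ring
  rw [e, div_le_iff₀ (by positivity)]
  have h1 : 2 * q * (s * ζ) ≤ 2 * |q| * |s * ζ| := by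
    have := le_abs_self (2 * q * (s * ζ))
    rw [abs_mul, abs_mul, abs_two] at this
    exact this
  have h2 : 2 * |s * ζ| ≤ ζ ^ 2 + s ^ 2 := by
    rw [abs_mul]
    nlinarith [sq_nonneg (|s| - |ζ|), sq_abs s, sq_abs ζ]
  have h3 : |s * ζ| ≤ 16 := by
    rw [abs_mul]
    nlinarith [abs_nonneg s, abs_nonneg ζ]
  have hqa : q ^ 2 = |q| ^ 2 := (sq_abs q).symm
  have hq0 := abs_nonneg q
  have h4 : q ^ 2 * (2 * |s * ζ|) ≤ q ^ 2 * (ζ ^ 2 + s ^ 2) :=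
    mul_le_mul_of_nonneg_left h2 (sq_nonneg q)
  have h5 : 2 * |q| * |s * ζ| - q ^ 2 * (2 * |s * ζ|) = (2 * |q| * (1 - |q|)) * |s * ζ| := by
    rw [hqa]; ring
  have h6 : (2 * |q| * (1 - |q|)) * |s * ζ| ≤ (2 * |q| * (1 - |q|)) * 16 := by
    apply mul_le_mul_of_nonneg_left h3
    have : 0 ≤ 1 - |q| := by linarith
    positivity
  have h7 : (2 * |q| * (1 - |q|)) * 16 ≤ 16 * |q| * (2 * (1 - q ^ 2)) := by
    rw [hqa]
    nlinarith [mul_nonneg hq0 hq0, mul_nonneg hq0 (mul_nonneg hq0 (by linarith : (0:ℝ) ≤ 1 - |q|))]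
  linarith

theorem pref_ineq {q : ℝ} (hq : |q| ≤ 1 / 2) : (Real.sqrt (1 - q ^ 2))⁻¹ ≤ Real.exp |q| := by
  have hq0 := abs_nonneg q
  have hqa : q ^ 2 = |q| ^ 2 := (sq_abs q).symm
  have hq2 : q ^ 2 ≤ 1 / 4 := by nlinarith
  have hpos : 0 < 1 - q ^ 2 := by linarith
  have h1 : Real.exp (-(2 * q ^ 2)) ≤ 1 - q ^ 2 := by
    rw [Real.exp_neg]
    have h2 : 1 + 2 * q ^ 2 ≤ Real.exp (2 * q ^ 2) := by
      have := Real.add_one_le_exp (2 * q ^ 2)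
      linarith
    calc (Real.exp (2 * q ^ 2))⁻¹ ≤ (1 + 2 * q ^ 2)⁻¹ :=
          inv_anti₀ (by positivity) h2
      _ ≤ 1 - q ^ 2 := by
          rw [inv_le_iff_one_le_mul₀ (by positivity)]
          nlinarith [sq_nonneg q, mul_nonneg (sq_nonneg q) (by linarith : (0:ℝ) ≤ 1/4 - q^2)]
  have h2 : Real.exp (-(q ^ 2)) ≤ Real.sqrt (1 - q ^ 2) := by
    apply Real.le_sqrt_of_sq_le
    rw [← Real.exp_nat_mul]
    refine le_trans (le_of_eq ?_) h1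
    congr 1
    push_cast
    ring
  calc (Real.sqrt (1 - q ^ 2))⁻¹ ≤ (Real.exp (-(q ^ 2)))⁻¹ := inv_anti₀ (Real.exp_pos _) h2
    _ = Real.exp (q ^ 2) := by rw [Real.exp_neg, inv_inv]
    _ ≤ Real.exp |q| := Real.exp_le_exp.2 (by rw [hqa]; nlinarith)

/-- comparison of the densities -/
theorem pdf_cmp {q ζ t N : ℝ} (hN : 0 < N) (hq : |q| ≤ 1 / 2) (hζ : |ζ| ≤ 4) (ht : |t| ≤ 4 * N)
    (v v' : ℝ≥0) (hv : (v : ℝ) = N ^ 2 * (1 - q ^ 2)) (hv' : (v' : ℝ) = N ^ 2) :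
    gaussianPDFReal (ζ * q * N) v t ≤ Real.exp (17 * |q|) * gaussianPDFReal 0 v' t := by
  have hq0 := abs_nonneg q
  have hqa : q ^ 2 = |q| ^ 2 := (sq_abs q).symm
  have hq2 : q ^ 2 ≤ 1 / 4 := by nlinarith
  have hpos : 0 < 1 - q ^ 2 := by linarith
  rw [gaussianPDFReal, gaussianPDFReal, hv, hv']
  have hs : |t / N| ≤ 4 := by
    rw [abs_div, abs_of_pos hN, div_le_iff₀ hN]
    exact ht
  have e1 : Real.sqrt (2 * Real.pi * (N ^ 2 * (1 - q ^ 2))) =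
      Real.sqrt (2 * Real.pi * N ^ 2) * Real.sqrt (1 - q ^ 2) := by
    rw [← Real.sqrt_mul (by positivity)]
    congr 1
    ring
  have h1 := exp_ineq hq hζ hs
  have h2 := pref_ineq hq
  have e2 : -(t - ζ * q * N) ^ 2 / (2 * (N ^ 2 * (1 - q ^ 2))) =
      -(t / N - ζ * q) ^ 2 / (2 * (1 - q ^ 2)) := by
    field_simp
  have e3 : -(t - 0) ^ 2 / (2 * N ^ 2) = -((t / N) ^ 2 / 2) := by
    rw [sub_zero]
    field_simp
  rw [e1, e2, e3, mul_inv]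
  have h3 : Real.exp (-(t / N - ζ * q) ^ 2 / (2 * (1 - q ^ 2))) ≤
      Real.exp (16 * |q|) * Real.exp (-((t / N) ^ 2 / 2)) := by
    rw [← Real.exp_add]
    apply Real.exp_le_exp.2
    linarith
  have e4 : Real.exp (17 * |q|) = Real.exp |q| * Real.exp (16 * |q|) := by
    rw [← Real.exp_add]
    congr 1
    ring
  rw [e4]
  have hA : 0 ≤ (Real.sqrt (2 * Real.pi * N ^ 2))⁻¹ := by positivity
  calc (Real.sqrt (2 * Real.pi * N ^ 2))⁻¹ * (Real.sqrt (1 - q ^ 2))⁻¹ *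
        Real.exp (-(t / N - ζ * q) ^ 2 / (2 * (1 - q ^ 2)))
      ≤ (Real.sqrt (2 * Real.pi * N ^ 2))⁻¹ * Real.exp |q| *
        (Real.exp (16 * |q|) * Real.exp (-((t / N) ^ 2 / 2))) := by
        apply mul_le_mul
        · exact mul_le_mul_of_nonneg_left h2 hA
        · exact h3
        · positivity
        · positivity
    _ = _ := by ring

theorem meas_cmp {q ζ N : ℝ} (hN : 0 < N) (hq : |q| ≤ 1 / 2) (hζ : |ζ| ≤ 4) {J : Set ℝ}
    (hJm : MeasurableSet J) (hJ : ∀ t ∈ J, |t| ≤ 4 * N)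
    (v v' : ℝ≥0) (hv : (v : ℝ) = N ^ 2 * (1 - q ^ 2)) (hv' : (v' : ℝ) = N ^ 2) :
    gaussianReal (ζ * q * N) v J ≤ ENNReal.ofReal (Real.exp (17 * |q|)) * gaussianReal 0 v' J := by
  have hq0 := abs_nonneg q
  have hqa : q ^ 2 = |q| ^ 2 := (sq_abs q).symm
  have hq2 : q ^ 2 ≤ 1 / 4 := by nlinarith
  have hpos : 0 < 1 - q ^ 2 := by linarith
  have hv0 : v ≠ 0 := by
    intro h
    rw [h] at hv
    have : 0 < N ^ 2 * (1 - q ^ 2) := by positivity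
    simp only [NNReal.coe_zero] at hv
    linarith
  have hv0' : v' ≠ 0 := by
    intro h
    rw [h] at hv'
    have : 0 < N ^ 2 := by positivity
    simp only [NNReal.coe_zero] at hv'
    linarith
  rw [gaussianReal_apply _ hv0, gaussianReal_apply _ hv0', ← lintegral_const_mul _
    (measurable_gaussianPDF _ _)]
  apply setLIntegral_mono (by exact (measurable_gaussianPDF _ _).const_mul _)
  intro t ht
  rw [gaussianPDF, gaussianPDF, ← ENNReal.ofReal_mul (Real.exp_pos _).le]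
  exact ENNReal.ofReal_le_ofReal (pdf_cmp hN hq hζ (hJ t ht) v v' hv hv')

theorem inner_mem (y : H) (c : ℝ) {J : Set ℝ} (hJm : MeasurableSet J) :
    (stdGaussian H) {ξ | ⟪ξ, y⟫ + c ∈ J} = gaussianReal c (‖y‖₊ ^ 2) J := by
  have h1 : (stdGaussian H).map (fun ξ => ⟪ξ, y⟫ + c) = gaussianReal c (‖y‖₊ ^ 2) := by
    have : (fun ξ : H => ⟪ξ, y⟫ + c) = (fun t : ℝ => t + c) ∘ (fun ξ : H => ⟪ξ, y⟫) := rfl
    rw [this, ← Measure.map_map (by fun_prop) (by fun_prop), map_inner,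
      gaussianReal_map_add_const, zero_add]
  rw [← h1, Measure.map_apply (by fun_prop) hJm]
  rfl

theorem scale_mem (N : ℝ) {J : Set ℝ} (hJm : MeasurableSet J) (X : H) (hX : ‖X‖ = N) :
    (gaussianReal 0 1) {ζ | ζ * N ∈ J} = (stdGaussian H) {ξ | ⟪ξ, X⟫ ∈ J} := by
  have h1 := inner_mem X 0 hJm
  simp only [add_zero] at h1
  rw [h1]
  have h2 : (gaussianReal 0 1).map (fun ζ : ℝ => ζ * N) = gaussianReal 0 (‖X‖₊ ^ 2) := by
    have := gaussianReal_map_mul_const (μ := 0) (v := 1) N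
    rw [this, mul_zero]
    congr 1
    ext
    simp [← hX]
  rw [← h2, Measure.map_apply (by fun_prop) hJm]
  rfl

theorem pairH (X X' : H) (ρ r : ℝ) {J : Set ℝ} (hJm : MeasurableSet J) (hρ0 : 0 ≤ ρ)
    (hρ : ρ ≤ 1 / 2) (hr : 0 < r) (hX : r ≤ ‖X‖) (hX' : r ≤ ‖X'‖)
    (hin : |⟪X, X'⟫| ≤ ρ * ‖X‖ * ‖X'‖) (hJ : ∀ t ∈ J, |t| ≤ 4 * r) :
    (stdGaussian H) {ξ | ⟪ξ, X⟫ ∈ J ∧ ⟪ξ, X'⟫ ∈ J} ≤
      ENNReal.ofReal (Real.exp (20 * ρ)) * (stdGaussian H) {ξ | ⟪ξ, X⟫ ∈ J} *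
        (stdGaussian H) {ξ | ⟪ξ, X'⟫ ∈ J} := by
  have hN : 0 < ‖X‖ := lt_of_lt_of_le hr hX
  have hN' : 0 < ‖X'‖ := lt_of_lt_of_le hr hX'
  set u : H := ‖X‖⁻¹ • X with hu
  have hu1 : ‖u‖ = 1 := by
    rw [hu, norm_smul, norm_inv, norm_norm, inv_mul_cancel₀ hN.ne']
  have hXu : X = ‖X‖ • u := by
    rw [hu, smul_smul, mul_inv_cancel₀ hN.ne', one_smul]
  set q : ℝ := ⟪u, X'⟫ / ‖X'‖ with hq
  have hqN : ⟪u, X'⟫ = q * ‖X'‖ := by
    rw [hq, div_mul_cancel₀ _ hN'.ne']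
  have hqa : |q| ≤ ρ := by
    have h1 : ⟪X, X'⟫ = ‖X‖ * ⟪u, X'⟫ := by
      conv_lhs => rw [hXu]
      rw [real_inner_smul_left]
    rw [h1, hqN, abs_mul, abs_mul, abs_of_pos hN, abs_of_pos hN'] at hin
    have h2 : (‖X‖ * ‖X'‖) * |q| ≤ (‖X‖ * ‖X'‖) * ρ := by nlinarith
    exact le_of_mul_le_mul_left h2 (by positivity)
  have hq12 : |q| ≤ 1 / 2 := hqa.trans hρ
  set y : H := X' - (q * ‖X'‖) • u with hy
  have hyn : ‖y‖ ^ 2 = ‖X'‖ ^ 2 * (1 - q ^ 2) := by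
    rw [hy, norm_sub_sq_real, real_inner_smul_right, real_inner_comm, hqN, norm_smul, hu1,
      Real.norm_eq_abs, mul_one, sq_abs]
    ring
  have hS : MeasurableSet {ξ : H | ⟪ξ, X⟫ ∈ J ∧ ⟪ξ, X'⟫ ∈ J} := by
    apply MeasurableSet.inter
    · exact (by fun_prop : Measurable (fun ξ : H => ⟪ξ, X⟫)) hJm
    · exact (by fun_prop : Measurable (fun ξ : H => ⟪ξ, X'⟫)) hJm
  have hmap := Vale.Agent.P309.resample (H := H) u hu1
  have hφ : Measurable (fun p : H × ℝ => p.1 + (p.2 - ⟪p.1, u⟫) • u) := by fun_prop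
  have h1 : (stdGaussian H) {ξ | ⟪ξ, X⟫ ∈ J ∧ ⟪ξ, X'⟫ ∈ J} =
      ((stdGaussian H).prod (gaussianReal 0 1))
        {p : H × ℝ | p.2 * ‖X‖ ∈ J ∧ ⟪p.1, y⟫ + p.2 * q * ‖X'‖ ∈ J} := by
    conv_lhs => rw [← hmap]
    rw [Measure.map_apply hφ hS]
    congr 1
    ext p
    have e1 : ⟪p.1 + (p.2 - ⟪p.1, u⟫) • u, X⟫ = p.2 * ‖X‖ := by
      have : ⟪p.1, X⟫ = ‖X‖ * ⟪p.1, u⟫ := by
        conv_lhs => rw [hXu]
        rw [real_inner_smul_right]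
      have h2 : ⟪u, X⟫ = ‖X‖ := by
        conv_lhs => rw [hXu]
        rw [real_inner_smul_right, real_inner_self_eq_norm_sq, hu1]
        ring
      rw [inner_add_left, real_inner_smul_left, this, h2]
      ring
    have e2 : ⟪p.1 + (p.2 - ⟪p.1, u⟫) • u, X'⟫ = ⟪p.1, y⟫ + p.2 * q * ‖X'‖ := by
      have h3 : ⟪p.1, (q * ‖X'‖) • u⟫ = (q * ‖X'‖) * ⟪p.1, u⟫ := real_inner_smul_right _ _ _
      rw [inner_add_left, real_inner_smul_left, hqN, hy, inner_sub_right, h3]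
      ring
    simp only [Set.mem_preimage, Set.mem_ofPred_eq, e1, e2]
  have hS2 : MeasurableSet {p : H × ℝ | p.2 * ‖X‖ ∈ J ∧ ⟪p.1, y⟫ + p.2 * q * ‖X'‖ ∈ J} := by
    apply MeasurableSet.inter
    · exact (by fun_prop : Measurable (fun p : H × ℝ => p.2 * ‖X‖)) hJm
    · exact (by fun_prop : Measurable (fun p : H × ℝ => ⟪p.1, y⟫ + p.2 * q * ‖X'‖)) hJm
  rw [h1, Measure.prod_apply_symm hS2]
  have hJ1 : MeasurableSet {ζ : ℝ | ζ * ‖X‖ ∈ J} :=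
    (by fun_prop : Measurable (fun ζ : ℝ => ζ * ‖X‖)) hJm
  have h2 : ∀ ζ : ℝ, (stdGaussian H) ((fun x : H => (x, ζ)) ⁻¹'
      {p : H × ℝ | p.2 * ‖X‖ ∈ J ∧ ⟪p.1, y⟫ + p.2 * q * ‖X'‖ ∈ J}) ≤
      ({ζ : ℝ | ζ * ‖X‖ ∈ J}).indicator (fun _ => ENNReal.ofReal (Real.exp (20 * ρ)) *
        (stdGaussian H) {ξ | ⟪ξ, X'⟫ ∈ J}) ζ := by
    intro ζ
    by_cases hζ : ζ * ‖X‖ ∈ J
    · rw [Set.indicator_of_mem (by exact hζ)]
      have e3 : ((fun x : H => (x, ζ)) ⁻¹'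
        {p : H × ℝ | p.2 * ‖X‖ ∈ J ∧ ⟪p.1, y⟫ + p.2 * q * ‖X'‖ ∈ J}) =
          {ξ : H | ⟪ξ, y⟫ + ζ * q * ‖X'‖ ∈ J} := by
        ext ξ
        simp only [Set.mem_preimage, Set.mem_ofPred_eq]
        exact ⟨fun h => h.2, fun h => ⟨hζ, h⟩⟩
      rw [e3, inner_mem y _ hJm]
      have h4 := inner_mem X' 0 hJm
      simp only [add_zero] at h4
      rw [h4]
      have hζ4 : |ζ| ≤ 4 := by
        have := hJ _ hζ
        rw [abs_mul, abs_of_pos hN] at this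
        have h5 : |ζ| * ‖X‖ ≤ 4 * ‖X‖ := by linarith
        exact le_of_mul_le_mul_right h5 hN
      refine (meas_cmp hN' hq12 hζ4 hJm (fun t ht => (hJ t ht).trans (by linarith)) _
        (‖X'‖₊ ^ 2) (by push_cast; exact hyn) (by push_cast; rfl)).trans ?_
      gcongr
      linarith
    · rw [Set.indicator_of_notMem (by exact hζ)]
      have e3 : ((fun x : H => (x, ζ)) ⁻¹'
        {p : H × ℝ | p.2 * ‖X‖ ∈ J ∧ ⟪p.1, y⟫ + p.2 * q * ‖X'‖ ∈ J}) = ∅ := by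
        ext ξ
        simp only [Set.mem_preimage, Set.mem_ofPred_eq, Set.mem_empty_iff_false, iff_false]
        exact fun h => hζ h.1
      rw [e3, measure_empty]
  refine (lintegral_mono h2).trans ?_
  rw [lintegral_indicator_const hJ1, scale_mem ‖X‖ hJm X rfl]
  exact le_of_eq (by ring)

/-- transfer to `gam` -/
theorem gam_set (n : ℕ) {S : Set (Fin n → ℝ)} (hS : MeasurableSet S) :
    gam n S = (stdGaussian (EuclideanSpace ℝ (Fin n))) {ξ | (fun i => ξ i) ∈ S} := by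
  rw [← map_pi_eq_stdGaussian, Measure.map_apply (by fun_prop)]
  · rfl
  · exact (by fun_prop : Measurable (fun ξ : EuclideanSpace ℝ (Fin n) => fun i => ξ i)) hS

theorem dot_inner {n : ℕ} (x : Fin n → ℝ) (ξ : EuclideanSpace ℝ (Fin n)) :
    (fun i => ξ i) ⬝ᵥ x = ⟪ξ, WithLp.toLp 2 x⟫ := by
  simp [dotProduct, PiLp.inner_apply, mul_comm]

theorem dot_self_norm {n : ℕ} (x : Fin n → ℝ) :
    x ⬝ᵥ x = ‖(WithLp.toLp 2 x : EuclideanSpace ℝ (Fin n))‖ ^ 2 := by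
  rw [EuclideanSpace.real_norm_sq_eq]
  simp [dotProduct, sq]

theorem dot_dot_inner {n : ℕ} (x x' : Fin n → ℝ) :
    x ⬝ᵥ x' = ⟪(WithLp.toLp 2 x : EuclideanSpace ℝ (Fin n)), WithLp.toLp 2 x'⟫ := by
  simp [dotProduct, PiLp.inner_apply, mul_comm]

end GP

/-- MODULE GaussPair (file GaussPair.lean) -/
theorem gauss_pair {n : ℕ} (x x' : Fin n → ℝ) (ρ a b r : ℝ) (hρ0 : 0 ≤ ρ) (hρ : ρ ≤ 1 / 2)
    (hr : 0 < r) (hx : r ^ 2 ≤ x ⬝ᵥ x) (hx' : r ^ 2 ≤ x' ⬝ᵥ x')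
    (hxx : |x ⬝ᵥ x'| ≤ ρ * √(x ⬝ᵥ x) * √(x' ⬝ᵥ x')) (ha : -4 ≤ a) (hb : b ≤ 4) (hab : a < b) :
    gam n {g | (a * r ≤ g ⬝ᵥ x ∧ g ⬝ᵥ x ≤ b * r) ∧ (a * r ≤ g ⬝ᵥ x' ∧ g ⬝ᵥ x' ≤ b * r)} ≤
      ENNReal.ofReal (Real.exp (20 * ρ)) * gam n {g | a * r ≤ g ⬝ᵥ x ∧ g ⬝ᵥ x ≤ b * r}
        * gam n {g | a * r ≤ g ⬝ᵥ x' ∧ g ⬝ᵥ x' ≤ b * r} := by
  have hm : ∀ z : Fin n → ℝ, MeasurableSet {g : Fin n → ℝ | a * r ≤ g ⬝ᵥ z ∧ g ⬝ᵥ z ≤ b * r} := by
    intro z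
    have : Measurable (fun g : Fin n → ℝ => g ⬝ᵥ z) := by
      unfold dotProduct
      fun_prop
    exact this measurableSet_Icc
  have hm2 : MeasurableSet {g : Fin n → ℝ | (a * r ≤ g ⬝ᵥ x ∧ g ⬝ᵥ x ≤ b * r) ∧
      (a * r ≤ g ⬝ᵥ x' ∧ g ⬝ᵥ x' ≤ b * r)} := (hm x).inter (hm x')
  rw [GP.gam_set n hm2, GP.gam_set n (hm x), GP.gam_set n (hm x')]
  simp only [Set.mem_ofPred_eq, GP.dot_inner]
  have h1 : r ≤ ‖(WithLp.toLp 2 x : EuclideanSpace ℝ (Fin n))‖ := by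
    rw [GP.dot_self_norm] at hx
    exact (pow_le_pow_iff_left₀ hr.le (norm_nonneg _) two_ne_zero).1 hx
  have h2 : r ≤ ‖(WithLp.toLp 2 x' : EuclideanSpace ℝ (Fin n))‖ := by
    rw [GP.dot_self_norm] at hx'
    exact (pow_le_pow_iff_left₀ hr.le (norm_nonneg _) two_ne_zero).1 hx'
  rw [GP.dot_self_norm, GP.dot_self_norm, Real.sqrt_sq (norm_nonneg _),
    Real.sqrt_sq (norm_nonneg _), GP.dot_dot_inner] at hxx
  exact GP.pairH (WithLp.toLp 2 x : EuclideanSpace ℝ (Fin n)) (WithLp.toLp 2 x') ρ r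
    (J := Set.Icc (a * r) (b * r)) measurableSet_Icc hρ0 hρ hr h1 h2 hxx (by
      intro t ht
      rw [abs_le]
      constructor
      · nlinarith [ht.1]
      · nlinarith [ht.2])

theorem gauss_single {n : ℕ} (x : Fin n → ℝ) (η a b r : ℝ) (hη : 0 < η)
    (hr : 0 < r) (hx : r ^ 2 ≤ x ⬝ᵥ x) (hx1 : x ⬝ᵥ x ≤ ((1 + η) * r) ^ 2) (hab : a < b) :
    ENNReal.ofReal (((1 + η) * √(2 * Real.pi))⁻¹ * (b - a) * Real.exp (-(max (a ^ 2) (b ^ 2)) / 2)) ≤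
      gam n {g | a * r ≤ g ⬝ᵥ x ∧ g ⬝ᵥ x ≤ b * r} := by
  have hm : MeasurableSet {g : Fin n → ℝ | a * r ≤ g ⬝ᵥ x ∧ g ⬝ᵥ x ≤ b * r} := by
    have : Measurable (fun g : Fin n → ℝ => g ⬝ᵥ x) := by
      unfold dotProduct
      fun_prop
    exact this measurableSet_Icc
  rw [GP.gam_set n hm]
  simp only [Set.mem_ofPred_eq, GP.dot_inner]
  set X : EuclideanSpace ℝ (Fin n) := WithLp.toLp 2 x with hX
  have hxN : r ≤ ‖X‖ := by
    rw [GP.dot_self_norm] at hx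
    exact (pow_le_pow_iff_left₀ hr.le (norm_nonneg _) two_ne_zero).1 hx
  have hxN1 : ‖X‖ ≤ (1 + η) * r := by
    rw [GP.dot_self_norm] at hx1
    exact (pow_le_pow_iff_left₀ (norm_nonneg _) (by positivity) two_ne_zero).1 hx1
  have hN : 0 < ‖X‖ := lt_of_lt_of_le hr hxN
  have h1 := GP.inner_mem X 0 (J := Set.Icc (a * r) (b * r)) measurableSet_Icc
  simp only [add_zero] at h1
  have h1' : (stdGaussian (EuclideanSpace ℝ (Fin n))) {ξ | a * r ≤ ⟪ξ, X⟫ ∧ ⟪ξ, X⟫ ≤ b * r} =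
      gaussianReal 0 (‖X‖₊ ^ 2) (Set.Icc (a * r) (b * r)) := h1
  rw [h1']
  have hv0 : (‖X‖₊ ^ 2 : ℝ≥0) ≠ 0 := by
    intro h
    have : (‖X‖₊ : ℝ) ^ 2 = 0 := by exact_mod_cast congrArg NNReal.toReal h
    simp only [coe_nnnorm] at this
    have h2 : 0 < ‖X‖ ^ 2 := by positivity
    linarith
  rw [gaussianReal_apply _ hv0]
  set c : ℝ := ((1 + η) * r * √(2 * Real.pi))⁻¹ * Real.exp (-(max (a ^ 2) (b ^ 2)) / 2) with hc
  have hmono : ∀ t ∈ Set.Icc (a * r) (b * r), ENNReal.ofReal c ≤ gaussianPDF 0 (‖X‖₊ ^ 2) t := by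
    intro t ht
    rw [gaussianPDF, gaussianPDFReal]
    apply ENNReal.ofReal_le_ofReal
    have hv : ((‖X‖₊ ^ 2 : ℝ≥0) : ℝ) = ‖X‖ ^ 2 := by push_cast; rfl
    rw [hv, hc]
    have e1 : Real.sqrt (2 * Real.pi * ‖X‖ ^ 2) = ‖X‖ * Real.sqrt (2 * Real.pi) := by
      rw [Real.sqrt_mul (by positivity), Real.sqrt_sq hN.le, mul_comm]
    rw [e1]
    have h3 : t ^ 2 ≤ max (a ^ 2) (b ^ 2) * r ^ 2 := by
      have hmx : 0 ≤ max (a ^ 2) (b ^ 2) := le_max_of_le_left (sq_nonneg a)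
      have hta : t ^ 2 ≤ max ((a * r) ^ 2) ((b * r) ^ 2) := by
        rcases le_total 0 t with h0 | h0
        · exact le_max_of_le_right (by nlinarith [ht.2])
        · exact le_max_of_le_left (by nlinarith [ht.1])
      refine hta.trans (max_le ?_ ?_)
      · rw [mul_pow]
        exact mul_le_mul_of_nonneg_right (le_max_left _ _) (sq_nonneg r)
      · rw [mul_pow]
        exact mul_le_mul_of_nonneg_right (le_max_right _ _) (sq_nonneg r)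
    apply mul_le_mul
    · apply inv_anti₀ (by positivity)
      exact mul_le_mul_of_nonneg_right hxN1 (by positivity)
    · apply Real.exp_le_exp.2
      rw [sub_zero]
      rw [div_le_div_iff₀ (by positivity) (by positivity)]
      have hmx : 0 ≤ max (a ^ 2) (b ^ 2) := le_max_of_le_left (sq_nonneg a)
      have h4 : r ^ 2 ≤ ‖X‖ ^ 2 := by nlinarith
      have h5 : max (a ^ 2) (b ^ 2) * r ^ 2 ≤ max (a ^ 2) (b ^ 2) * ‖X‖ ^ 2 :=
        mul_le_mul_of_nonneg_left h4 hmx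
      nlinarith
    · positivity
    · positivity
  have h4 : ∫⁻ _ in Set.Icc (a * r) (b * r), ENNReal.ofReal c ≤
      ∫⁻ t in Set.Icc (a * r) (b * r), gaussianPDF 0 (‖X‖₊ ^ 2) t :=
    setLIntegral_mono (measurable_gaussianPDF _ _) hmono
  refine le_trans ?_ h4
  rw [setLIntegral_const, Real.volume_Icc, ← ENNReal.ofReal_mul (by positivity)]
  apply ENNReal.ofReal_le_ofReal
  rw [hc]
  apply le_of_eq
  field_simp

end Vale.P230
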