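import Vale.Agent.Lib.P230.Defs

/-! P230: elementary geometry used in `Main`. -/

open MeasureTheory Set
open scoped ENNReal Pointwise

namespace Vale.P230

theorem sec_convex {N T : ℕ} {Q : Set ((Fin N → ℝ) × (Fin T → ℝ))} (hQ : Convex ℝ Q)
    (y : Fin T → ℝ) : Convex ℝ (sec Q y) := by
  intro x hx x' hx' a b ha hb hab
  have h := hQ hx hx' ha hb hab
  have e : a • (x, y) + b • (x', y) = (a • x + b • x', y) := by
    ext i
    · simp
    · simp only [Prod.snd_add, Prod.smul_snd, Pi.add_apply, Pi.smul_apply, smul_eq_mul]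
      rw [← add_mul, hab, one_mul]
  rw [e] at h
  exact h

theorem sec_compact {N T : ℕ} {Q : Set ((Fin N → ℝ) × (Fin T → ℝ))} (hQ : IsCompact Q)
    (y : Fin T → ℝ) : IsCompact (sec Q y) := by
  have h1 : IsClosed (sec Q y) := hQ.isClosed.preimage (Continuous.prodMk continuous_id continuous_const)
  have h2 : sec Q y ⊆ Prod.fst '' Q := fun x hx => ⟨(x, y), hx, rfl⟩
  exact (hQ.image continuous_fst).of_isClosed_subset h1 h2

theorem sec_smul {N T : ℕ} {l : ℝ} (hl : 0 < l) (Q : Set ((Fin N → ℝ) × (Fin T → ℝ)))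
    (y : Fin T → ℝ) : sec (l • Q) y = l • sec Q (l⁻¹ • y) := by
  ext x
  rw [Set.mem_smul_set_iff_inv_smul_mem₀ hl.ne']
  change (x, y) ∈ l • Q ↔ (l⁻¹ • x, l⁻¹ • y) ∈ Q
  rw [Set.mem_smul_set_iff_inv_smul_mem₀ hl.ne']
  rfl

theorem volume_smul_real {N : ℕ} (A : Set (Fin N → ℝ)) {l : ℝ} (hl : 0 < l) :
    (volume (l • A)).toReal = l ^ N * (volume A).toReal := by
  rw [Measure.addHaar_smul, ENNReal.toReal_mul, Module.finrank_fintype_fun_eq_card,
    Fintype.card_fin, ENNReal.toReal_ofReal (abs_nonneg _), abs_of_pos (pow_pos hl _)]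

theorem hasCube_smul {N : ℕ} {A : Set (Fin N → ℝ)} {r l : ℝ} (hl : 0 < l) (h : HasCube r A) :
    HasCube (l * r) (l • A) := by
  obtain ⟨q, hq⟩ := h
  refine ⟨l • q, fun u hu => ?_⟩
  rw [Set.mem_smul_set_iff_inv_smul_mem₀ hl.ne', smul_add, smul_smul, inv_mul_cancel₀ hl.ne',
    one_smul]
  refine hq _ fun i => ?_
  have hi : (l⁻¹ • u) i = u i / l := by simp [div_eq_inv_mul]
  rw [hi]
  exact ⟨div_nonneg (hu i).1 hl.le, by rw [div_le_iff₀ hl]; linarith [(hu i).2]⟩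

theorem HasCube.mono {N : ℕ} {A : Set (Fin N → ℝ)} {r r' : ℝ} (h : HasCube r A) (hr : r' ≤ r) :
    HasCube r' A := by
  obtain ⟨q, hq⟩ := h
  exact ⟨q, fun u hu => hq u fun i => ⟨(hu i).1, (hu i).2.trans hr⟩⟩

section box

variable {N T : ℕ} {Q : Set ((Fin N → ℝ) × (Fin T → ℝ))}

/-- the standard simplex in `Q` -/
theorem simplex_sub (hQ : Convex ℝ Q) (h0 : (0, 0) ∈ Q)
    (h1 : ∀ i, ((Pi.single i 1 : Fin N → ℝ), (0 : Fin T → ℝ)) ∈ Q)
    (h2 : ∀ j, ((0 : Fin N → ℝ), (Pi.single j 1 : Fin T → ℝ)) ∈ Q)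
    (u : Fin N → ℝ) (u' : Fin T → ℝ) (hu : ∀ i, 0 ≤ u i) (hu' : ∀ i, 0 ≤ u' i)
    (hs : ∑ i, u i + ∑ j, u' j ≤ 1) : (u, u') ∈ Q := by
  classical
  -- index type Option (Fin N ⊕ Fin T)
  let w : Option (Fin N ⊕ Fin T) → ℝ := fun o => match o with
    | none => 1 - (∑ i, u i + ∑ j, u' j)
    | some (Sum.inl i) => u i
    | some (Sum.inr j) => u' j
  let z : Option (Fin N ⊕ Fin T) → (Fin N → ℝ) × (Fin T → ℝ) := fun o => match o with
    | none => (0, 0)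
    | some (Sum.inl i) => (Pi.single i 1, 0)
    | some (Sum.inr j) => (0, Pi.single j 1)
  have hw0 : ∀ o ∈ (Finset.univ : Finset (Option (Fin N ⊕ Fin T))), 0 ≤ w o := by
    rintro (_ | i | j) _
    · simp only [w]; linarith
    · exact hu i
    · exact hu' j
  have hw1 : ∑ o, w o = 1 := by
    rw [Fintype.sum_option, Fintype.sum_sum_type]
    simp only [w]; ring
  have hz : ∀ o ∈ (Finset.univ : Finset (Option (Fin N ⊕ Fin T))), z o ∈ Q := by
    rintro (_ | i | j) _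
    · exact h0
    · exact h1 i
    · exact h2 j
  have key := hQ.sum_mem hw0 hw1 hz
  have e : ∑ o, w o • z o = (u, u') := by
    rw [Fintype.sum_option, Fintype.sum_sum_type]
    simp only [w, z]
    ext k
    · simp [Prod.fst_sum, Finset.sum_apply, Pi.single_apply]
    · simp [Prod.snd_sum, Finset.sum_apply, Pi.single_apply]
  rwa [e] at key

theorem box_sub (hQ : Convex ℝ Q) (h0 : (0, 0) ∈ Q)
    (h1 : ∀ i, ((Pi.single i 1 : Fin N → ℝ), (0 : Fin T → ℝ)) ∈ Q)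
    (h2 : ∀ j, ((0 : Fin N → ℝ), (Pi.single j 1 : Fin T → ℝ)) ∈ Q) {n : ℕ} (hn : n = N + T)
    (hn0 : 0 < n)
    (u : Fin N → ℝ) (u' : Fin T → ℝ) (hu : ∀ i, 0 ≤ u i ∧ u i ≤ 1) (hu' : ∀ i, 0 ≤ u' i ∧ u' i ≤ 1) :
    (u, u') ∈ (n : ℝ) • Q := by
  have hn' : (0 : ℝ) < n := by exact_mod_cast hn0
  rw [Set.mem_smul_set_iff_inv_smul_mem₀ hn'.ne']
  refine simplex_sub hQ h0 h1 h2 ((n : ℝ)⁻¹ • u) ((n : ℝ)⁻¹ • u') (fun i => ?_) (fun i => ?_) ?_
  · have := (hu i).1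
    simp only [Pi.smul_apply, smul_eq_mul]; positivity
  · have := (hu' i).1
    simp only [Pi.smul_apply, smul_eq_mul]; positivity
  · simp only [Pi.smul_apply, smul_eq_mul]
    rw [← Finset.mul_sum, ← Finset.mul_sum, ← mul_add, inv_mul_le_iff₀ hn', mul_one]
    calc ∑ i, u i + ∑ j, u' j ≤ ∑ _i : Fin N, (1 : ℝ) + ∑ _j : Fin T, (1 : ℝ) :=
          add_le_add (Finset.sum_le_sum fun i _ => (hu i).2) (Finset.sum_le_sum fun i _ => (hu' i).2)
      _ = n := by simp [hn]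

/-- covering the unit cubes -/
theorem cube_in (hQ : Convex ℝ Q) (h0 : (0, 0) ∈ Q)
    (h1 : ∀ i, ((Pi.single i 1 : Fin N → ℝ), (0 : Fin T → ℝ)) ∈ Q)
    (h2 : ∀ j, ((0 : Fin N → ℝ), (Pi.single j 1 : Fin T → ℝ)) ∈ Q) {n : ℕ} (hn : n = N + T)
    (hn0 : 0 < n) {l : ℝ} (hl : 0 < l) {x : Fin N → ℝ} {y : Fin T → ℝ} (hxy : (x, y) ∈ l • Q)
    (u : Fin N → ℝ) (u' : Fin T → ℝ) (hu : ∀ i, 0 ≤ u i ∧ u i ≤ 1) (hu' : ∀ i, 0 ≤ u' i ∧ u' i ≤ 1) :
    (x + u, y + u') ∈ (l + n) • Q := by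
  have hb := box_sub hQ h0 h1 h2 hn hn0 u u' hu hu'
  rw [hQ.add_smul hl.le (Nat.cast_nonneg n)]
  exact ⟨(x, y), hxy, (u, u'), hb, rfl⟩

theorem volume_lower (hQ : Convex ℝ Q) (hc : IsCompact Q) (h0 : (0, 0) ∈ Q)
    (h1 : ∀ i, ((Pi.single i 1 : Fin N → ℝ), (0 : Fin T → ℝ)) ∈ Q)
    (h2 : ∀ j, ((0 : Fin N → ℝ), (Pi.single j 1 : Fin T → ℝ)) ∈ Q) {n : ℕ} (hn : n = N + T)
    (hn0 : 0 < n) : (1 / (n : ℝ)) ^ n ≤ (volume Q).toReal := by
  have hn' : (0 : ℝ) < n := by exact_mod_cast hn0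
  have hsub : (Set.pi univ (fun _ : Fin N => Icc (0 : ℝ) (1 / n))) ×ˢ
      (Set.pi univ (fun _ : Fin T => Icc (0 : ℝ) (1 / n))) ⊆ Q := by
    rintro ⟨u, u'⟩ ⟨hu, hu'⟩
    simp only [Set.mem_pi, Set.mem_univ, forall_true_left, Set.mem_Icc] at hu hu'
    refine simplex_sub hQ h0 h1 h2 u u' (fun i => (hu i).1) (fun i => (hu' i).1) ?_
    calc ∑ i, u i + ∑ j, u' j ≤ ∑ _i : Fin N, (1 / n : ℝ) + ∑ _j : Fin T, (1 / n : ℝ) :=
          add_le_add (Finset.sum_le_sum fun i _ => (hu i).2) (Finset.sum_le_sum fun i _ => (hu' i).2)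
      _ = 1 := by
          simp only [Finset.sum_const, Finset.card_univ, Fintype.card_fin, nsmul_eq_mul]
          rw [hn]; push_cast; rw [hn] at hn'; push_cast at hn'; field_simp
  have hv := measure_mono (μ := (volume : Measure ((Fin N → ℝ) × (Fin T → ℝ)))) hsub
  rw [Measure.volume_eq_prod, Measure.prod_prod, Set.pi_univ_Icc, Set.pi_univ_Icc,
    Real.volume_Icc_pi, Real.volume_Icc_pi] at hv
  simp only [sub_zero, Finset.prod_const, Finset.card_univ, Fintype.card_fin] at hv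
  rw [← pow_add, ← hn, ← ENNReal.ofReal_pow (by positivity)] at hv
  rw [← ENNReal.ofReal_le_iff_le_toReal]
  · rw [Measure.volume_eq_prod]; exact hv
  · exact hc.measure_lt_top.ne

/-- crude upper bound for a set of coordinate diameter `≤ R` -/
theorem volume_upper {A : Set (Fin N → ℝ)} {R : ℝ} (hR : 0 ≤ R)
    (h : ∀ x ∈ A, ∀ x' ∈ A, ∀ i, |x i - x' i| ≤ R) : (volume A).toReal ≤ (2 * R) ^ N := by
  rcases A.eq_empty_or_nonempty with rfl | ⟨x₀, hx₀⟩
  · simp only [measure_empty, ENNReal.toReal_zero]; positivity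
  · have hsub : A ⊆ Set.Icc (fun i => x₀ i - R) (fun i => x₀ i + R) := by
      intro x hx
      constructor
      · intro i
        have := (abs_le.1 (h x hx x₀ hx₀ i)).1
        simp only; linarith
      · intro i
        have := (abs_le.1 (h x hx x₀ hx₀ i)).2
        simp only; linarith
    have hv := measure_mono (μ := (volume : Measure (Fin N → ℝ))) hsub
    have hv' := ENNReal.toReal_mono (by
      rw [Real.volume_Icc_pi]; exact (ENNReal.prod_lt_top fun i _ => ENNReal.ofReal_lt_top).ne) hv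
    refine hv'.trans ?_
    rw [Real.volume_Icc_pi_toReal (fun i => by simp only; linarith)]
    have : ∀ i : Fin N, (x₀ i + R - (x₀ i - R)) = 2 * R := fun i => by ring
    simp only [this, Finset.prod_const, Finset.card_univ, Fintype.card_fin]
    exact le_rfl

end box

end Vale.P230
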