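import Vale.Agent.Lib.P230.Defs

/-!
# P230, module Hull
-/

open MeasureTheory ProbabilityTheory Set
open scoped ENNReal Pointwise

namespace Vale.P230

/-- MODULE Hull (file Hull.lean) -/
theorem mem_convexHull_of_near {T : ℕ} (hT : 0 < T) (y : Fin T → ℝ) (Z : Set (Fin T → ℝ))
    (h : ∀ (j : Fin T) (e : ℝ), (e = 1 ∨ e = -1) →
      ∃ z ∈ Z, ∀ i, |z i - (y i + if i = j then e else 0)| ≤ 1 / (2 * T)) :
    y ∈ convexHull ℝ Z := by
  classical
  have hT' : (0 : ℝ) < T := by exact_mod_cast hT
  choose z hzZ hz using h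
  -- the finite set of chosen points
  set z1 : Fin T → (Fin T → ℝ) := fun j => z j 1 (Or.inl rfl) with hz1
  set z2 : Fin T → (Fin T → ℝ) := fun j => z j (-1) (Or.inr rfl) with hz2
  set Z' : Set (Fin T → ℝ) := Set.range z1 ∪ Set.range z2 with hZ'
  have hfin : Z'.Finite := (Set.finite_range z1).union (Set.finite_range z2)
  have hsub : Z' ⊆ Z := by
    rintro w (⟨j, rfl⟩ | ⟨j, rfl⟩)
    · exact hzZ _ _ _
    · exact hzZ _ _ _
  apply convexHull_mono hsub
  by_contra hy
  obtain ⟨f, u, hf1, hf2⟩ := geometric_hahn_banach_point_closed (convex_convexHull ℝ Z')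
    (hfin.isClosed_convexHull ℝ) hy
  set a : Fin T → ℝ := fun i => f (Pi.single i 1) with ha
  have hfa : ∀ w : Fin T → ℝ, f w = ∑ i, w i * a i := by
    intro w
    conv_lhs => rw [pi_eq_sum_univ' w]
    rw [map_sum]
    refine Finset.sum_congr rfl fun i _ => ?_
    rw [map_smul, smul_eq_mul, ha]
  have : Nonempty (Fin T) := ⟨⟨0, hT⟩⟩
  obtain ⟨j, hj⟩ := Finite.exists_max (fun i => |a i|)
  have key : ∀ (w : Fin T → ℝ) (e : ℝ), w ∈ Z' → e * a j = -|a j| →
      (∀ i, |w i - (y i + if i = j then e else 0)| ≤ 1 / (2 * T)) → False := by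
    intro w e hw he hwi
    have h1 : u < f w := hf2 w (subset_convexHull ℝ Z' hw)
    have h2 : f w - f y = ∑ i, (w i - (y i + if i = j then e else 0)) * a i + e * a j := by
      rw [hfa, hfa, ← Finset.sum_sub_distrib]
      have h3 : e * a j = ∑ i, (if i = j then e else 0) * a i := by simp
      rw [h3, ← Finset.sum_add_distrib]
      refine Finset.sum_congr rfl fun i _ => ?_
      ring
    have h4 : ∑ i, (w i - (y i + if i = j then e else 0)) * a i ≤ |a j| / 2 := by
      calc ∑ i, (w i - (y i + if i = j then e else 0)) * a i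
          ≤ ∑ _i : Fin T, 1 / (2 * (T : ℝ)) * |a j| := by
            refine Finset.sum_le_sum fun i _ => ?_
            refine (le_abs_self _).trans ?_
            rw [abs_mul]
            exact mul_le_mul (hwi i) (hj i) (abs_nonneg _) (by positivity)
        _ = |a j| / 2 := by
            rw [Finset.sum_const, Finset.card_univ, Fintype.card_fin, nsmul_eq_mul]
            field_simp
    have h5 := abs_nonneg (a j)
    rw [he] at h2
    linarith
  rcases le_total 0 (a j) with h0 | h0
  · refine key (z2 j) (-1) (Or.inr ⟨j, rfl⟩) ?_ (hz j (-1) (Or.inr rfl))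
    rw [abs_of_nonneg h0]; ring
  · refine key (z1 j) 1 (Or.inl ⟨j, rfl⟩) ?_ (hz j 1 (Or.inl rfl))
    rw [abs_of_nonpos h0]; ring

end Vale.P230
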