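import Vale.Agent.Lib.P230.Defs

/-!
# P230, module Iso: isotropic position
-/

open MeasureTheory ProbabilityTheory Set
open scoped ENNReal Pointwise

namespace Vale.P230

open scoped MatrixOrder in
lemma exists_transpose_mul_self {n : ℕ} (M : Matrix (Fin n) (Fin n) ℝ) (hM : M.PosDef) :
    ∃ B : Matrix (Fin n) (Fin n) ℝ, B.transpose * B = M ∧ B.det ≠ 0 := by
  obtain ⟨B, hB⟩ := CStarAlgebra.nonneg_iff_eq_star_mul_self.mp hM.posSemidef.nonneg
  have hB' : B.transpose * B = M := by
    rw [hB, Matrix.star_eq_conjTranspose, Matrix.conjTranspose_eq_transpose_of_trivial]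
  refine ⟨B, hB', ?_⟩
  intro h
  have h1 := hM.det_pos
  rw [← hB', Matrix.det_mul, h, mul_zero] at h1
  exact lt_irrefl _ h1

lemma integrableOn_coord {n : ℕ} (K : Set (Fin n → ℝ)) (hK : IsCompact K) (i j : Fin n) :
    IntegrableOn (fun x : Fin n → ℝ => x i * x j) K volume :=
  (Continuous.continuousOn (by fun_prop)).integrableOn_compact hK

lemma secondMoment_posDef {n : ℕ} (K : Set (Fin n → ℝ)) (hK : IsCompact K)
    (hv : 0 < volume K) :
    (Matrix.of fun i j => ∫ x in K, x i * x j : Matrix (Fin n) (Fin n) ℝ).PosDef := by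
  rw [Matrix.posDef_iff_dotProduct_mulVec]
  refine ⟨?_, ?_⟩
  · ext i j
    simp only [Matrix.conjTranspose_apply, Matrix.of_apply, star_trivial]
    congr 1
    ext x
    ring
  · intro w hw
    have h1 : star w ⬝ᵥ (Matrix.of fun i j => ∫ x in K, x i * x j : Matrix (Fin n) (Fin n) ℝ).mulVec w
        = ∫ x in K, (w ⬝ᵥ x) ^ 2 := by
      simp only [dotProduct, Matrix.mulVec, Matrix.of_apply, star_trivial]
      have h2 : ∀ x : Fin n → ℝ, (∑ i, w i * x i) ^ 2 = ∑ i, ∑ j, w i * w j * (x i * x j) := by
        intro x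
        rw [sq, Finset.sum_mul_sum]
        refine Finset.sum_congr rfl fun i _ => Finset.sum_congr rfl fun j _ => ?_
        ring
      simp only [h2]
      rw [integral_finsetSum _ (fun i _ => integrable_finsetSum _
        (fun j _ => (integrableOn_coord K hK i j).const_mul _))]
      refine Finset.sum_congr rfl fun i _ => ?_
      rw [integral_finsetSum _ (fun j _ => (integrableOn_coord K hK i j).const_mul _),
        Finset.mul_sum]
      refine Finset.sum_congr rfl fun j _ => ?_
      rw [integral_const_mul]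
      ring
    rw [h1]
    have hcont : Continuous fun x : Fin n → ℝ => (w ⬝ᵥ x) ^ 2 := by
      have : Continuous fun x : Fin n → ℝ => w ⬝ᵥ x := by
        simp only [dotProduct]; fun_prop
      exact this.pow 2
    have hint : IntegrableOn (fun x : Fin n → ℝ => (w ⬝ᵥ x) ^ 2) K volume :=
      hcont.continuousOn.integrableOn_compact hK
    rw [setIntegral_pos_iff_support_of_nonneg_ae (Filter.Eventually.of_forall fun x => sq_nonneg _)
      hint]
    -- the hyperplane has measure zero
    set H : Submodule ℝ (Fin n → ℝ) := LinearMap.ker (∑ i, w i • LinearMap.proj i :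
      (Fin n → ℝ) →ₗ[ℝ] ℝ) with hH
    have hHmem : ∀ x, x ∈ H ↔ w ⬝ᵥ x = 0 := by
      intro x
      rw [hH, LinearMap.mem_ker]
      simp [dotProduct, LinearMap.sum_apply]
    have hHtop : H ≠ ⊤ := by
      intro h
      have h3 : w ∈ H := by rw [h]; trivial
      rw [hHmem, dotProduct_self_eq_zero] at h3
      exact hw h3
    have hH0 : volume (H : Set (Fin n → ℝ)) = 0 := Measure.addHaar_submodule _ H hHtop
    have hsupp : Function.support (fun x : Fin n → ℝ => (w ⬝ᵥ x) ^ 2) ∩ K = K \ (H : Set _) := by
      ext x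
      simp only [Set.mem_inter_iff, Function.mem_support, ne_eq,
        Set.mem_sdiff, SetLike.mem_coe, hHmem, OfNat.ofNat_ne_zero, not_false_eq_true,
        pow_eq_zero_iff]
      tauto
    rw [hsupp, measure_sdiff_null hH0]
    exact hv

/-- MODULE Iso (file Iso.lean): isotropic position. -/
theorem isotropic {n : ℕ} (K : Set (Fin n → ℝ)) (hc : Convex ℝ K) (hK : IsCompact K)
    (hi : (interior K).Nonempty) :
    ∃ A : (Fin n → ℝ) ≃ₗ[ℝ] (Fin n → ℝ), ∀ i j, ∫ x in A '' K, x i * x j =
      if i = j then (volume (A '' K)).toReal else 0 := by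
  classical
  have hv : 0 < volume K := Measure.measure_pos_of_nonempty_interior _ hi
  have hv' : 0 < (volume K).toReal := ENNReal.toReal_pos hv.ne' hK.measure_lt_top.ne
  set v := (volume K).toReal with hvdef
  set M : Matrix (Fin n) (Fin n) ℝ := Matrix.of fun i j => ∫ x in K, x i * x j with hM
  have hMp : M.PosDef := secondMoment_posDef K hK hv
  obtain ⟨B, hB, hBdet⟩ := exists_transpose_mul_self M hMp
  -- `C M Cᵀ = v • 1`
  set C : Matrix (Fin n) (Fin n) ℝ := √v • (B.transpose)⁻¹ with hC
  have hBt : IsUnit B.transpose.det := by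
    rw [Matrix.det_transpose]; exact isUnit_iff_ne_zero.mpr hBdet
  have hBu : IsUnit B.det := isUnit_iff_ne_zero.mpr hBdet
  have hCM : C * M * C.transpose = v • (1 : Matrix (Fin n) (Fin n) ℝ) := by
    rw [hC, ← hB, Matrix.transpose_smul, Matrix.transpose_nonsing_inv, Matrix.transpose_transpose]
    rw [Matrix.smul_mul, Matrix.smul_mul, Matrix.mul_smul, smul_smul, Real.mul_self_sqrt hv'.le]
    congr 1
    rw [← Matrix.mul_assoc, Matrix.nonsing_inv_mul _ hBt, Matrix.one_mul,
      Matrix.mul_nonsing_inv _ hBu]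
  have hCdet : C.det ≠ 0 := by
    intro h
    have h1 : (C * M * C.transpose).det = v ^ n := by
      rw [hCM, Matrix.det_smul, Matrix.det_one, mul_one, Fintype.card_fin]
    rw [Matrix.det_mul, Matrix.det_mul, h, zero_mul, zero_mul] at h1
    exact (pow_pos hv' n).ne h1
  set A : (Fin n → ℝ) ≃ₗ[ℝ] (Fin n → ℝ) :=
    Matrix.toLinearEquiv' C (Matrix.invertibleOfIsUnitDet C (isUnit_iff_ne_zero.mpr hCdet)) with hA
  have hAx : ∀ x, A x = C.mulVec x := fun x => rfl
  refine ⟨A, fun i j => ?_⟩
  have hAcont : Continuous A := A.toLinearMap.continuous_of_finiteDimensional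
  set A' : (Fin n → ℝ) →L[ℝ] (Fin n → ℝ) := LinearMap.toContinuousLinearMap A.toLinearMap with hA'
  have hdet : A'.det = C.det := by
    rw [ContinuousLinearMap.det]
    have : (A' : (Fin n → ℝ) →ₗ[ℝ] (Fin n → ℝ)) = Matrix.toLin' C := by
      ext x; rfl
    rw [this, LinearMap.det_toLin']
  have h1 : ∫ x in A '' K, x i * x j = ∫ x in K, |A'.det| • ((A x) i * (A x) j) :=
    integral_image_eq_integral_abs_det_fderiv_smul volume hK.measurableSet
      (fun x _ => A'.hasFDerivWithinAt) A.injective.injOn (fun x => x i * x j)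
  rw [h1, integral_smul]
  have h2 : ∫ x in K, (A x) i * (A x) j = (C * M * C.transpose) i j := by
    have h3 : ∀ x : Fin n → ℝ, (A x) i * (A x) j = ∑ k, ∑ l, C i k * C j l * (x k * x l) := by
      intro x
      rw [hAx]
      simp only [Matrix.mulVec, dotProduct]
      rw [Finset.sum_mul_sum]
      refine Finset.sum_congr rfl fun k _ => Finset.sum_congr rfl fun l _ => ?_
      ring
    simp only [h3]
    rw [integral_finsetSum _ (fun k _ => integrable_finsetSum _
      (fun l _ => (integrableOn_coord K hK k l).const_mul _))]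
    simp only [Matrix.mul_apply, Matrix.transpose_apply]
    rw [show ∑ x, (∑ y, C i y * M y x) * C j x = ∑ x, ∑ y, C i y * M y x * C j x from
      Finset.sum_congr rfl fun x _ => Finset.sum_mul _ _ _, Finset.sum_comm]
    refine Finset.sum_congr rfl fun k _ => ?_
    rw [integral_finsetSum _ (fun l _ => (integrableOn_coord K hK k l).const_mul _)]
    refine Finset.sum_congr rfl fun l _ => ?_
    rw [integral_const_mul, hM, Matrix.of_apply]
    ring
  have h4 : (volume (A '' K)).toReal = |A'.det| * v := by
    have h5 : volume (A' '' K) = ENNReal.ofReal |A'.det| * volume K :=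
      Measure.addHaar_image_continuousLinearMap volume A' K
    have h6 : A '' K = A' '' K := rfl
    rw [h6, h5, ENNReal.toReal_mul, ENNReal.toReal_ofReal (abs_nonneg _)]
  rw [h2, hCM, h4, Matrix.smul_apply, Matrix.one_apply]
  split_ifs <;> simp

end Vale.P230
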