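import Vale.Agent.Lib.P230.Defs

/-!
# P230, module LatC: lattice point counts in convex bodies
-/

open MeasureTheory Set
open scoped ENNReal Pointwise

namespace Vale.P230

/-- MODULE LatC (file LatC.lean) -/
theorem zpts_finite {N : ℕ} {A : Set (Fin N → ℝ)} (hc : IsCompact A) : (zpts A).Finite := by
  obtain ⟨R, hR⟩ := hc.isBounded.subset_closedBall 0
  have h1 : zpts A ⊆ Set.pi Set.univ (fun _ : Fin N => Set.Icc (-⌈R⌉) ⌈R⌉) := by
    intro z hz i _
    have h2 := hR hz
    rw [mem_closedBall_zero_iff] at h2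
    have h3 : |(z i : ℝ)| ≤ R := by
      have := norm_le_pi_norm (fun i => (z i : ℝ)) i
      rw [Real.norm_eq_abs] at this
      exact this.trans h2
    rw [abs_le] at h3
    have h4 : (z i : ℝ) ≤ (⌈R⌉ : ℝ) := h3.2.trans (Int.le_ceil R)
    have h5 : -(⌈R⌉ : ℝ) ≤ (z i : ℝ) := by
      have := Int.le_ceil R
      linarith [h3.1]
    constructor
    · exact_mod_cast h5
    · exact_mod_cast h4
  exact (Set.Finite.pi' (fun _ => Set.finite_Icc _ _)).subset (by
    intro z hz i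
    exact h1 hz i (Set.mem_univ i))

namespace LC

/-- the half open cube with corner `z` and side `τ` -/
def cube {N : ℕ} (z : Fin N → ℤ) (τ : ℝ) : Set (Fin N → ℝ) :=
  Set.pi Set.univ (fun i => Set.Ico (z i : ℝ) (z i + τ))

theorem measurableSet_cube {N : ℕ} (z : Fin N → ℤ) (τ : ℝ) : MeasurableSet (cube z τ) :=
  MeasurableSet.univ_pi (fun _ => measurableSet_Ico)

theorem volume_cube {N : ℕ} (z : Fin N → ℤ) (τ : ℝ) :
    volume (cube z τ) = ENNReal.ofReal τ ^ N := by
  unfold cube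
  rw [volume_pi_pi]
  simp

theorem hom_vol {N : ℕ} (q : Fin N → ℝ) (c : ℝ) (A : Set (Fin N → ℝ)) :
    volume ((AffineMap.homothety q c) '' A) = ENNReal.ofReal (|c| ^ N) * volume A := by
  rw [Measure.addHaar_image_homothety]
  simp [abs_pow]

theorem hom_apply {N : ℕ} (q x : Fin N → ℝ) (c : ℝ) :
    AffineMap.homothety q c x = c • (x - q) + q := by
  simp [AffineMap.homothety_apply]

theorem compact_hom {N : ℕ} (q : Fin N → ℝ) (c : ℝ) {A : Set (Fin N → ℝ)} (hA : IsCompact A) :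
    IsCompact ((AffineMap.homothety q c) '' A) := by
  apply hA.image
  have : (fun x => AffineMap.homothety q c x) = fun x : Fin N → ℝ => c • (x - q) + q := by
    funext x
    exact hom_apply q x c
  change Continuous (fun x => AffineMap.homothety q c x)
  rw [this]
  fun_prop

/-- `A + [0,τ]^N ⊆` homothetic copy -/
theorem add_cube_mem {N : ℕ} {A : Set (Fin N → ℝ)} (hA : Convex ℝ A) {r : ℝ} (hr : 0 < r)
    {q : Fin N → ℝ} (hq : ∀ u : Fin N → ℝ, (∀ i, 0 ≤ u i ∧ u i ≤ r) → q + u ∈ A)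
    {τ : ℝ} (hτ : 0 < τ) {x w : Fin N → ℝ} (hx : x ∈ A) (hw : ∀ i, 0 ≤ w i ∧ w i ≤ τ) :
    x + w ∈ (AffineMap.homothety q (1 + τ / r)) '' A := by
  have hκ : 0 < 1 + τ / r := by positivity
  have h1 : q + (r / τ) • w ∈ A := by
    apply hq
    intro i
    simp only [Pi.smul_apply, smul_eq_mul]
    have := hw i
    constructor
    · have := this.1
      positivity
    · calc r / τ * w i ≤ r / τ * τ := mul_le_mul_of_nonneg_left this.2 (by positivity)
        _ = r := by field_simp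
  have h2 := hA hx h1 (a := (1 + τ / r)⁻¹) (b := (τ / r) * (1 + τ / r)⁻¹) (by positivity)
    (by positivity) (by field_simp)
  refine ⟨_, h2, ?_⟩
  rw [hom_apply]
  funext i
  simp only [Pi.add_apply, Pi.smul_apply, Pi.sub_apply, smul_eq_mul]
  field_simp
  ring

theorem sub_cube_mem {N : ℕ} {A : Set (Fin N → ℝ)} (hA : Convex ℝ A) {r : ℝ} (hr : 1 ≤ r)
    {q : Fin N → ℝ} (hq : ∀ u : Fin N → ℝ, (∀ i, 0 ≤ u i ∧ u i ≤ r) → q + u ∈ A)
    {x w : Fin N → ℝ} (hx : x ∈ A) (hw : ∀ i, 0 ≤ w i ∧ w i ≤ 1) :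
    AffineMap.homothety q (1 - 1 / r) x + 1 - w ∈ A := by
  have hr0 : 0 < r := by linarith
  have h1 : q + r • (1 - w) ∈ A := by
    apply hq
    intro i
    simp only [Pi.smul_apply, smul_eq_mul, Pi.sub_apply, Pi.one_apply]
    have := hw i
    constructor
    · have h3 : 0 ≤ 1 - w i := by linarith [this.2]
      positivity
    · nlinarith [this.1]
  have hk : 0 ≤ 1 - 1 / r := by
    rw [sub_nonneg, div_le_one hr0]
    exact hr
  have h2 := hA hx h1 (a := 1 - 1 / r) (b := 1 / r) hk (by positivity) (by ring)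
  have e : AffineMap.homothety q (1 - 1 / r) x + 1 - w =
      (1 - 1 / r) • x + (1 / r) • (q + r • (1 - w)) := by
    rw [hom_apply]
    funext i
    simp only [Pi.add_apply, Pi.smul_apply, Pi.sub_apply, smul_eq_mul, Pi.one_apply]
    field_simp
    ring
  rw [e]
  exact h2

theorem vol_lt_top {N : ℕ} {A : Set (Fin N → ℝ)} (hc : IsCompact A) : volume A ≠ ∞ :=
  hc.measure_lt_top.ne

end LC

theorem card_zpts_lower {N : ℕ} {A : Set (Fin N → ℝ)} (hA : Convex ℝ A) (hc : IsCompact A)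
    {r : ℝ} (hr : 1 ≤ r) (hq : HasCube r A) :
    (1 - 1 / r) ^ N * (volume A).toReal ≤ (zpts A).ncard := by
  obtain ⟨q, hq⟩ := hq
  have hr0 : 0 < r := by linarith
  have hk : 0 ≤ 1 - 1 / r := by
    rw [sub_nonneg, div_le_one hr0]
    exact hr
  have hfin := zpts_finite hc
  set Am : Set (Fin N → ℝ) := (fun x => x + 1) '' ((AffineMap.homothety q (1 - 1 / r)) '' A)
    with hAm
  have hvol : volume Am = ENNReal.ofReal ((1 - 1 / r) ^ N) * volume A := by
    rw [hAm]
    have h1 : (fun x : Fin N → ℝ => x + 1) '' ((AffineMap.homothety q (1 - 1 / r)) '' A) =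
        (fun x : Fin N → ℝ => x + (-1)) ⁻¹' ((AffineMap.homothety q (1 - 1 / r)) '' A) := by
      rw [Set.image_add_right]
    rw [h1, measure_preimage_add_right, LC.hom_vol, abs_of_nonneg hk]
  have hcov : Am ⊆ ⋃ z ∈ hfin.toFinset, LC.cube z 1 := by
    rintro y ⟨_, ⟨x, hx, rfl⟩, rfl⟩
    set y : Fin N → ℝ := AffineMap.homothety q (1 - 1 / r) x + 1 with hy
    have h1 := LC.sub_cube_mem hA hr hq hx (w := fun i => Int.fract (y i))
      (fun i => ⟨Int.fract_nonneg _, (Int.fract_lt_one _).le⟩)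
    have h2 : y - (fun i => Int.fract (y i)) = fun i => ((⌊y i⌋ : ℤ) : ℝ) := by
      funext i
      simp only [Pi.sub_apply]
      have := Int.floor_add_fract (y i)
      linarith
    rw [← hy, h2] at h1
    simp only [Set.mem_iUnion]
    refine ⟨fun i => ⌊y i⌋, ?_, ?_⟩
    · rw [Set.Finite.mem_toFinset]
      exact h1
    · intro i _
      exact ⟨Int.floor_le _, Int.lt_floor_add_one _⟩
  have h3 : volume Am ≤ (hfin.toFinset.card : ℝ≥0∞) := by
    refine (measure_mono hcov).trans ((measure_biUnion_finset_le _ _).trans ?_)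
    simp [LC.volume_cube]
  rw [hvol] at h3
  have h4 := ENNReal.toReal_mono (ENNReal.natCast_ne_top _) h3
  rw [ENNReal.toReal_mul, ENNReal.toReal_ofReal (by positivity), ENNReal.toReal_natCast] at h4
  rwa [Set.ncard_eq_toFinset_card _ hfin]

theorem card_zpts_class {N : ℕ} {A : Set (Fin N → ℝ)} (hA : Convex ℝ A) (hc : IsCompact A)
    {r : ℝ} (hr : 1 ≤ r) (hq : HasCube r A) (t : ℕ) (ht : 1 ≤ t) (τ : ℝ) (hτ0 : 0 < τ)
    (hτ : τ ≤ t) (b : Fin N → ℤ) :
    (({z ∈ zpts A | ∀ i, z i ≡ b i [ZMOD t]}).ncard : ℝ) * τ ^ N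
      ≤ (1 + τ / r) ^ N * (volume A).toReal := by
  obtain ⟨q, hq⟩ := hq
  have hr0 : 0 < r := by linarith
  have hfin : ({z ∈ zpts A | ∀ i, z i ≡ b i [ZMOD t]}).Finite :=
    (zpts_finite hc).subset (fun z hz => hz.1)
  set S := hfin.toFinset with hS
  have hsub : (⋃ z ∈ S, LC.cube z τ) ⊆ (AffineMap.homothety q (1 + τ / r)) '' A := by
    intro y hy
    simp only [Set.mem_iUnion] at hy
    obtain ⟨z, hz, hyz⟩ := hy
    rw [hS, Set.Finite.mem_toFinset] at hz
    have h1 : (fun i => (z i : ℝ)) ∈ A := hz.1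
    have h2 := LC.add_cube_mem hA hr0 hq hτ0 h1 (w := fun i => y i - z i) (fun i => by
      have := hyz i (Set.mem_univ i)
      constructor
      · linarith [this.1]
      · linarith [this.2])
    have h3 : ((fun i => (z i : ℝ)) + fun i => y i - z i) = y := by
      funext i
      simp
    rwa [h3] at h2
  have hdisj : Set.PairwiseDisjoint (S : Set (Fin N → ℤ)) (fun z => LC.cube z τ) := by
    intro z hz z' hz' hne
    rw [Function.onFun, Set.disjoint_left]
    intro y hy hy'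
    apply hne
    funext i
    have h1 := hy i (Set.mem_univ i)
    have h2 := hy' i (Set.mem_univ i)
    simp only [hS, Set.Finite.coe_toFinset] at hz hz'
    have h3 := (hz.2 i).trans (hz'.2 i).symm
    have h4 : (t : ℤ) ∣ z' i - z i := (Int.modEq_iff_dvd).1 h3
    obtain ⟨k, hk⟩ := h4
    have h5 : ((z' i : ℝ) - z i) < t := by linarith [h2.1, h1.2]
    have h6 : -(t : ℝ) < (z' i : ℝ) - z i := by linarith [h1.1, h2.2]
    have h7 : ((z' i - z i : ℤ) : ℝ) = (t : ℝ) * k := by rw [hk]; push_cast; ring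
    push_cast at h7
    have ht0 : (0 : ℝ) < t := by exact_mod_cast ht
    have h8 : (k : ℝ) < 1 := by
      rw [h7] at h5
      have : (t : ℝ) * k < t * 1 := by linarith
      exact lt_of_mul_lt_mul_left this ht0.le
    have h9 : (-1 : ℝ) < k := by
      rw [h7] at h6
      have : (t : ℝ) * (-1) < t * k := by linarith
      exact lt_of_mul_lt_mul_left this ht0.le
    have h10 : k = 0 := by
      have h8' : k < 1 := by exact_mod_cast h8
      have h9' : -1 < k := by exact_mod_cast h9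
      omega
    rw [h10, mul_zero] at hk
    omega
  have h1 : (S.card : ℝ≥0∞) * ENNReal.ofReal τ ^ N ≤
      ENNReal.ofReal ((1 + τ / r) ^ N) * volume A := by
    have h2 : volume (⋃ z ∈ S, LC.cube z τ) = (S.card : ℝ≥0∞) * ENNReal.ofReal τ ^ N := by
      rw [measure_biUnion_finset hdisj (fun z _ => LC.measurableSet_cube z τ)]
      simp [LC.volume_cube]
    rw [← h2]
    refine (measure_mono hsub).trans ?_
    rw [LC.hom_vol, abs_of_pos (by positivity)]
  have hfv := LC.vol_lt_top hc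
  have h4 := ENNReal.toReal_mono (ENNReal.mul_ne_top ENNReal.ofReal_ne_top hfv) h1
  rw [ENNReal.toReal_mul, ENNReal.toReal_mul, ENNReal.toReal_ofReal (by positivity),
    ENNReal.toReal_natCast, ENNReal.toReal_pow, ENNReal.toReal_ofReal hτ0.le] at h4
  rwa [Set.ncard_eq_toFinset_card _ hfin]

theorem card_pairs {ρ : ℝ} (hρ0 : 0 < ρ) (hρ : ∀ (N : ℕ) (A B C : Set (Fin N → ℝ)),
      MeasurableSet A → MeasurableSet B → MeasurableSet C →
      volume {q : (Fin N → ℝ) × (Fin N → ℝ) | q.1 ∈ A ∧ q.2 ∈ B ∧ q.1 + q.2 ∈ C}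
        ≤ ENNReal.ofReal (ρ ^ N) * (volume A * volume B * volume C) ^ ((2 : ℝ) / 3))
    {N : ℕ} {A : Set (Fin N → ℝ)} (hA : Convex ℝ A) (hc : IsCompact A)
    {r : ℝ} (hr : 1 ≤ r) (hq : HasCube r A) (w : Fin N → ℤ) :
    (({q : (Fin N → ℤ) × (Fin N → ℤ) | q.1 ∈ zpts A ∧ q.2 ∈ zpts A ∧ q.1 + q.2 + w ∈ zpts A}).ncard
      : ℝ) ≤ ρ ^ N * (1 + 2 / r) ^ (2 * N) * (volume A).toReal ^ 2 := by
  obtain ⟨q, hq⟩ := hq
  have hr0 : 0 < r := by linarith
  have hfin : ({q : (Fin N → ℤ) × (Fin N → ℤ) |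
      q.1 ∈ zpts A ∧ q.2 ∈ zpts A ∧ q.1 + q.2 + w ∈ zpts A}).Finite :=
    ((zpts_finite hc).prod (zpts_finite hc)).subset (fun z hz => ⟨hz.1, hz.2.1⟩)
  set S := hfin.toFinset with hS
  set A₁ : Set (Fin N → ℝ) := (AffineMap.homothety q (1 + 1 / r)) '' A with hA₁
  set A₂ : Set (Fin N → ℝ) := (AffineMap.homothety q (1 + 2 / r)) '' A with hA₂
  set C : Set (Fin N → ℝ) := (fun x : Fin N → ℝ => x + fun i => (w i : ℝ)) ⁻¹' A₂ with hC
  have hA₁m : MeasurableSet A₁ := (LC.compact_hom q _ hc).measurableSet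
  have hA₂m : MeasurableSet A₂ := (LC.compact_hom q _ hc).measurableSet
  have hCm : MeasurableSet C := (by fun_prop : Measurable (fun x : Fin N → ℝ =>
    x + fun i => (w i : ℝ))) hA₂m
  have hsub : (⋃ z ∈ S, (LC.cube z.1 1) ×ˢ (LC.cube z.2 1)) ⊆
      {q : (Fin N → ℝ) × (Fin N → ℝ) | q.1 ∈ A₁ ∧ q.2 ∈ A₁ ∧ q.1 + q.2 ∈ C} := by
    intro y hy
    simp only [Set.mem_iUnion] at hy
    obtain ⟨z, hz, hyz⟩ := hy
    rw [hS, Set.Finite.mem_toFinset] at hz
    obtain ⟨hz1, hz2, hz3⟩ := hz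
    obtain ⟨hy1, hy2⟩ := hyz
    have k1 : ∀ i, 0 ≤ y.1 i - z.1 i ∧ y.1 i - z.1 i ≤ 1 := fun i => by
      have := hy1 i (Set.mem_univ i)
      constructor
      · linarith [this.1]
      · linarith [this.2]
    have k2 : ∀ i, 0 ≤ y.2 i - z.2 i ∧ y.2 i - z.2 i ≤ 1 := fun i => by
      have := hy2 i (Set.mem_univ i)
      constructor
      · linarith [this.1]
      · linarith [this.2]
    refine ⟨?_, ?_, ?_⟩
    · have h2 := LC.add_cube_mem hA hr0 hq one_pos hz1 (w := fun i => y.1 i - z.1 i) k1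
      have h3 : ((fun i => (z.1 i : ℝ)) + fun i => y.1 i - z.1 i) = y.1 := by
        funext i
        simp
      rwa [h3] at h2
    · have h2 := LC.add_cube_mem hA hr0 hq one_pos hz2 (w := fun i => y.2 i - z.2 i) k2
      have h3 : ((fun i => (z.2 i : ℝ)) + fun i => y.2 i - z.2 i) = y.2 := by
        funext i
        simp
      rwa [h3] at h2
    · have h2 := LC.add_cube_mem hA hr0 hq (by norm_num : (0 : ℝ) < 2) hz3
        (w := fun i => (y.1 i - z.1 i) + (y.2 i - z.2 i)) (fun i => by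
          have a1 := k1 i
          have a2 := k2 i
          constructor
          · linarith [a1.1, a2.1]
          · linarith [a1.2, a2.2])
      have h3 : ((fun i => ((z.1 + z.2 + w) i : ℝ)) +
          fun i => (y.1 i - z.1 i) + (y.2 i - z.2 i)) = y.1 + y.2 + fun i => (w i : ℝ) := by
        funext i
        simp only [Pi.add_apply]
        push_cast
        ring
      rw [h3] at h2
      exact h2
  have hdisj : Set.PairwiseDisjoint (S : Set ((Fin N → ℤ) × (Fin N → ℤ)))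
      (fun z => (LC.cube z.1 1) ×ˢ (LC.cube z.2 1)) := by
    intro z _ z' _ hne
    rw [Function.onFun, Set.disjoint_left]
    intro y hy hy'
    apply hne
    have key : ∀ (a a' : Fin N → ℤ) (x : Fin N → ℝ), x ∈ LC.cube a 1 → x ∈ LC.cube a' 1 →
        a = a' := by
      intro a a' x hx hx'
      funext i
      have h1 := hx i (Set.mem_univ i)
      have h2 := hx' i (Set.mem_univ i)
      have h3 : ⌊x i⌋ = a i := Int.floor_eq_iff.2 ⟨h1.1, h1.2⟩
      have h4 : ⌊x i⌋ = a' i := Int.floor_eq_iff.2 ⟨h2.1, h2.2⟩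
      rw [← h3, h4]
    exact Prod.ext (key _ _ _ hy.1 hy'.1) (key _ _ _ hy.2 hy'.2)
  have h1 : (S.card : ℝ≥0∞) ≤ ENNReal.ofReal (ρ ^ N) *
      (volume A₁ * volume A₁ * volume C) ^ ((2 : ℝ) / 3) := by
    refine le_trans ?_ (hρ N A₁ A₁ C hA₁m hA₁m hCm)
    refine le_trans (le_of_eq ?_) (measure_mono hsub)
    rw [measure_biUnion_finset hdisj (fun z _ =>
      (LC.measurableSet_cube z.1 1).prod (LC.measurableSet_cube z.2 1))]
    simp [Measure.volume_eq_prod, Measure.prod_prod, LC.volume_cube]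
  have hvC : volume C = volume A₂ := by
    rw [hC, measure_preimage_add_right]
  have hfv := LC.vol_lt_top hc
  have hv1 : volume A₁ ≤ ENNReal.ofReal ((1 + 2 / r) ^ N) * volume A := by
    rw [hA₁, LC.hom_vol, abs_of_pos (by positivity)]
    gcongr
    norm_num
  have hv2 : volume A₂ = ENNReal.ofReal ((1 + 2 / r) ^ N) * volume A := by
    rw [hA₂, LC.hom_vol, abs_of_pos (by positivity)]
  set W : ℝ≥0∞ := ENNReal.ofReal ((1 + 2 / r) ^ N) * volume A with hW
  have h2 : (volume A₁ * volume A₁ * volume C) ^ ((2 : ℝ) / 3) ≤ W ^ 2 := by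
    have h3 : volume A₁ * volume A₁ * volume C ≤ W ^ 3 := by
      rw [hvC, hv2]
      calc volume A₁ * volume A₁ * W ≤ W * W * W := by gcongr
        _ = W ^ 3 := by ring
    calc (volume A₁ * volume A₁ * volume C) ^ ((2 : ℝ) / 3) ≤ (W ^ 3) ^ ((2 : ℝ) / 3) :=
          ENNReal.rpow_le_rpow h3 (by norm_num)
      _ = W ^ 2 := by
          rw [← ENNReal.rpow_natCast, ← ENNReal.rpow_mul, ← ENNReal.rpow_natCast]
          congr 1
          norm_num
  have h5 : (S.card : ℝ≥0∞) ≤ ENNReal.ofReal (ρ ^ N) * W ^ 2 :=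
    h1.trans (by gcongr)
  have hWt : W ≠ ∞ := ENNReal.mul_ne_top ENNReal.ofReal_ne_top hfv
  have h6 := ENNReal.toReal_mono (ENNReal.mul_ne_top ENNReal.ofReal_ne_top
    (ENNReal.pow_ne_top hWt)) h5
  rw [ENNReal.toReal_natCast, ENNReal.toReal_mul, ENNReal.toReal_pow, hW, ENNReal.toReal_mul,
    ENNReal.toReal_ofReal (by positivity), ENNReal.toReal_ofReal (by positivity)] at h6
  rw [Set.ncard_eq_toFinset_card _ hfin, ← hS]
  refine h6.trans (le_of_eq ?_)
  rw [mul_pow, ← pow_mul, mul_comm N 2]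
  ring

end Vale.P230
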