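import Vale.Agent.Lib.P230.Defs

/-!
# P230, module LatCover: from the discrete covering to a lattice covering of `ℝⁿ`.
-/

open MeasureTheory ProbabilityTheory Set Module
open scoped ENNReal Pointwise

namespace Vale.P230

/-- the basis of `ℝ^N × ℝ^T` whose `ℤ`-span is `ℤ^N × (M ℤ)^T`. -/
noncomputable def bM (N T : ℕ) {M : ℕ} (hM : 0 < M) :
    Basis (Fin N ⊕ Fin T) ℝ ((Fin N → ℝ) × (Fin T → ℝ)) :=
  (Pi.basisFun ℝ (Fin N)).prod ((Pi.basisFun ℝ (Fin T)).isUnitSMul (w := fun _ => (M : ℝ))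
    (fun _ => isUnit_iff_ne_zero.2 (by positivity)))

lemma bM_repr_inl (N T : ℕ) {M : ℕ} (hM : 0 < M) (x : (Fin N → ℝ) × (Fin T → ℝ)) (i : Fin N) :
    (bM N T hM).repr x (Sum.inl i) = x.1 i := by
  simp [bM]

lemma bM_repr_inr (N T : ℕ) {M : ℕ} (hM : 0 < M) (x : (Fin N → ℝ) × (Fin T → ℝ)) (i : Fin T) :
    (bM N T hM).repr x (Sum.inr i) = x.2 i / M := by
  simp [bM, Basis.repr_isUnitSMul, Units.smul_def, div_eq_inv_mul]

lemma bM_fundamentalDomain (N T : ℕ) {M : ℕ} (hM : 0 < M) :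
    ZSpan.fundamentalDomain (bM N T hM) =
      (Set.pi Set.univ fun _ : Fin N => Set.Ico (0 : ℝ) 1) ×ˢ
        (Set.pi Set.univ fun _ : Fin T => Set.Ico (0 : ℝ) M) := by
  have hM' : (0 : ℝ) < M := by exact_mod_cast hM
  ext x
  simp only [ZSpan.mem_fundamentalDomain, Sum.forall, bM_repr_inl, bM_repr_inr, Set.mem_prod,
    Set.mem_pi, Set.mem_univ, true_imp_iff, Set.mem_Ico]
  constructor
  · rintro ⟨h1, h2⟩
    refine ⟨h1, fun i => ?_⟩
    have := h2 i
    rw [div_lt_one hM'] at this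
    exact ⟨by simpa using (le_div_iff₀ hM').1 this.1, this.2⟩
  · rintro ⟨h1, h2⟩
    refine ⟨h1, fun i => ?_⟩
    have := h2 i
    rw [div_lt_one hM']
    exact ⟨div_nonneg this.1 hM'.le, this.2⟩

lemma bM_volume (N T : ℕ) {M : ℕ} (hM : 0 < M) :
    volume (ZSpan.fundamentalDomain (bM N T hM)) = (M : ℝ≥0∞) ^ T := by
  rw [bM_fundamentalDomain, Measure.volume_eq_prod, Measure.prod_prod, Real.volume_pi_Ico,
    Real.volume_pi_Ico]
  simp

lemma mem_span_bM (N T : ℕ) {M : ℕ} (hM : 0 < M) (x : (Fin N → ℝ) × (Fin T → ℝ)) :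
    x ∈ Submodule.span ℤ (Set.range (bM N T hM)) ↔
      ∃ (z : Fin N → ℤ) (w : Fin T → ℤ), x = ((fun i => (z i : ℝ)), fun i => (M : ℝ) * w i) := by
  have hM' : (M : ℝ) ≠ 0 := by positivity
  rw [Basis.mem_span_iff_repr_mem]
  simp only [Sum.forall, bM_repr_inl, bM_repr_inr, Set.mem_range, algebraMap_int_eq, eq_intCast]
  constructor
  · rintro ⟨h1, h2⟩
    choose z hz using h1
    choose w hw using h2
    refine ⟨z, w, Prod.ext (funext fun i => (hz i).symm) (funext fun i => ?_)⟩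
    simp only [hw]
    field_simp
  · rintro ⟨z, w, rfl⟩
    refine ⟨fun i => ⟨z i, rfl⟩, fun i => ⟨w i, ?_⟩⟩
    simp only
    field_simp

/-- the map `(z, w) ↦ L₁⁻¹ (z, M w)` -/
noncomputable def iotaM {n N T : ℕ} (M : ℕ) (L₁ : (Fin n → ℝ) ≃ₗ[ℝ] ((Fin N → ℝ) × (Fin T → ℝ))) :
    ((Fin N → ℤ) × (Fin T → ℤ)) →ₗ[ℤ] (Fin n → ℝ) where
  toFun q := L₁.symm ((fun i => (q.1 i : ℝ)), fun i => (M : ℝ) * q.2 i)
  map_add' q q' := by
    rw [← map_add]
    congr 1
    refine Prod.ext (funext fun i => ?_) (funext fun i => ?_)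
    · simp
    · simp [mul_add]
  map_smul' c q := by
    rw [RingHom.id_apply, ← map_zsmul]
    congr 1
    refine Prod.ext (funext fun i => ?_) (funext fun i => ?_)
    · simp
    · simp [mul_left_comm]

/-- the map `(z, w) ↦ W z - ∑ w_i a_i` -/
def psiM {N T d p : ℕ} (W : Matrix (Fin d) (Fin N) (ZMod p)) (a : Fin T → Fin d → ZMod p) :
    ((Fin N → ℤ) × (Fin T → ℤ)) →ₗ[ℤ] (Fin d → ZMod p) where
  toFun q := W.mulVec (red p q.1) - ∑ i, q.2 i • a i
  map_add' q q' := by
    have h : red p (q + q').1 = red p q.1 + red p q'.1 := by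
      funext i; simp [red]
    rw [h, Matrix.mulVec_add]
    simp only [Prod.snd_add, Pi.add_apply, add_smul, Finset.sum_add_distrib]
    abel
  map_smul' c q := by
    have h : red p (c • q).1 = c • red p q.1 := by
      funext i; simp [red]
    rw [h, RingHom.id_apply, Matrix.mulVec_smul, smul_sub, Finset.smul_sum]
    simp [mul_smul]

lemma iotaM_injective {n N T M : ℕ} (hM : 0 < M)
    (L₁ : (Fin n → ℝ) ≃ₗ[ℝ] ((Fin N → ℝ) × (Fin T → ℝ))) :
    Function.Injective (iotaM M L₁) := by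
  intro q q' h
  have h1 := L₁.symm.injective h
  have hM' : (M : ℝ) ≠ 0 := by positivity
  rw [Prod.mk.injEq] at h1
  refine Prod.ext (funext fun i => ?_) (funext fun i => ?_)
  · exact_mod_cast congrFun h1.1 i
  · have := congrFun h1.2 i
    simp only [mul_eq_mul_left_iff, hM', or_false] at this
    exact_mod_cast this

lemma span_eq_range_iotaM {n N T M : ℕ} (hM : 0 < M)
    (L₁ : (Fin n → ℝ) ≃ₗ[ℝ] ((Fin N → ℝ) × (Fin T → ℝ))) :
    Submodule.span ℤ (Set.range ((bM N T hM).map L₁.symm)) = LinearMap.range (iotaM M L₁) := by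
  ext x
  rw [Basis.mem_span_iff_repr_mem]
  have h := mem_span_bM N T hM (L₁ x)
  rw [Basis.mem_span_iff_repr_mem] at h
  simp only [Basis.map_repr, LinearEquiv.symm_symm, LinearEquiv.trans_apply]
  rw [h, LinearMap.mem_range]
  constructor
  · rintro ⟨z, w, hzw⟩
    refine ⟨(z, w), ?_⟩
    change L₁.symm _ = x
    rw [LinearEquiv.symm_apply_eq, hzw]
  · rintro ⟨⟨z, w⟩, rfl⟩
    refine ⟨z, w, ?_⟩
    change L₁ (L₁.symm _) = _
    rw [LinearEquiv.apply_symm_apply]

lemma isAddHaarMeasure_prod (N T : ℕ) :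
    (volume : Measure ((Fin N → ℝ) × (Fin T → ℝ))).IsAddHaarMeasure :=
  Measure.prod.instIsAddHaarMeasure volume volume

lemma exists_haar_scale {n N T : ℕ}
    (L : (Fin n → ℝ) ≃ₗ[ℝ] ((Fin N → ℝ) × (Fin T → ℝ))) :
    ∃ κ : ℝ, 0 < κ ∧ ∀ A : Set ((Fin N → ℝ) × (Fin T → ℝ)),
      (volume (L.symm '' A)).toReal = κ * (volume A).toReal := by
  have := isAddHaarMeasure_prod N T
  have := L.toContinuousLinearEquiv.isAddHaarMeasure_map (volume : Measure (Fin n → ℝ))
  have h2 := Measure.isAddLeftInvariant_eq_smul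
    ((volume : Measure (Fin n → ℝ)).map L.toContinuousLinearEquiv)
    (volume : Measure ((Fin N → ℝ) × (Fin T → ℝ)))
  have h0 := Measure.addHaarScalarFactor_pos_of_isAddHaarMeasure
    ((volume : Measure (Fin n → ℝ)).map L.toContinuousLinearEquiv)
    (volume : Measure ((Fin N → ℝ) × (Fin T → ℝ)))
  refine ⟨_, NNReal.coe_pos.2 h0, fun A => ?_⟩
  have h3 := congrArg (fun μ => μ A) h2
  simp only [Measure.smul_apply] at h3
  have h4 : (volume : Measure (Fin n → ℝ)).map L.toContinuousLinearEquiv A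
      = volume (L.toContinuousLinearEquiv ⁻¹' A) :=
    L.toContinuousLinearEquiv.toHomeomorph.toMeasurableEquiv.map_apply A
  have h5 : (L.toContinuousLinearEquiv ⁻¹' A) = L.symm '' A :=
    (L.toEquiv.symm.image_eq_preimage_symm A).symm
  rw [h4, h5] at h3
  rw [h3, ENNReal.toReal_smul]
  rfl

/-- MODULE LatCover (file LatCover.lean): from the discrete covering to a lattice covering. -/
theorem lattice_cover {n N T d p M : ℕ} [Fact p.Prime] (hn : n = N + T) (hM : 0 < M)
    (K : Set (Fin n → ℝ)) (L : (Fin n → ℝ) ≃ₗ[ℝ] ((Fin N → ℝ) × (Fin T → ℝ)))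
    (x₀ : (Fin N → ℝ) × (Fin T → ℝ)) (Q : Set ((Fin N → ℝ) × (Fin T → ℝ)))
    (hQ : Q = (fun x => L x + x₀) '' K) (l : ℝ) (hl : 0 < l)
    (W : Matrix (Fin d) (Fin N) (ZMod p)) (a : Fin T → Fin d → ZMod p)
    (hcov : ∀ c : Fin d → ZMod p, ∀ y : Fin T → ℤ, (∀ i, 0 ≤ y i ∧ y i < M) →
      ∃ v : Fin T → ℤ, ∃ z : Fin N → ℤ, W.mulVec (red p z) + ∑ i, v i • a i = c ∧
        ∀ (u : Fin N → ℝ) (u' : Fin T → ℝ), (∀ i, 0 ≤ u i ∧ u i ≤ 1) → (∀ i, 0 ≤ u' i ∧ u' i ≤ 1) →
          (((fun i => (z i : ℝ) + u i), (fun i => ((y i - M * v i : ℤ) : ℝ) + u' i)) :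
            (Fin N → ℝ) × (Fin T → ℝ)) ∈ l • Q) :
    ∃ (Λ : Submodule ℤ (Fin n → ℝ)) (_ : DiscreteTopology Λ) (_ : IsZLattice ℝ Λ),
      K + (Λ : Set (Fin n → ℝ)) = Set.univ ∧
      (volume K).toReal / ZLattice.covolume Λ = l ^ n * (volume Q).toReal / (M ^ T * p ^ d) := by
  classical
  have := isAddHaarMeasure_prod N T
  have hM' : (0 : ℝ) < M := by exact_mod_cast hM
  have hMZ : (0 : ℤ) < M := by exact_mod_cast hM
  have hp : p ≠ 0 := (Fact.out : p.Prime).ne_zero
  have hp' : (p : ℝ) ≠ 0 := by exact_mod_cast hp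
  set L₁ : (Fin n → ℝ) ≃ₗ[ℝ] ((Fin N → ℝ) × (Fin T → ℝ)) :=
    L.trans (LinearEquiv.smulOfNeZero ℝ _ l hl.ne') with hL₁def
  have hL₁ : ∀ x, L₁ x = l • L x := fun x => rfl
  set Λb : Submodule ℤ (Fin n → ℝ) :=
    Submodule.span ℤ (Set.range ((bM N T hM).map L₁.symm)) with hΛb
  have hrange : Λb = LinearMap.range (iotaM M L₁) := span_eq_range_iotaM hM L₁
  set Λ : Submodule ℤ (Fin n → ℝ) := (LinearMap.ker (psiM W a)).map (iotaM M L₁) with hΛ
  have hle : Λ ≤ Λb := by
    rw [hrange, LinearMap.range_eq_map]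
    exact Submodule.map_mono le_top
  have hdiscb : DiscreteTopology Λb := by
    rw [hΛb]; infer_instance
  have hdisc : DiscreteTopology Λ :=
    DiscreteTopology.of_subset (s := (Λb : Set (Fin n → ℝ))) hdiscb hle
  have hspan : Submodule.span ℝ (Λ : Set (Fin n → ℝ)) = ⊤ := by
    rw [eq_top_iff, ← ZSpan.span_top ((bM N T hM).map L₁.symm), Submodule.span_le]
    intro x hx
    have hx' : x ∈ Λb := hx
    rw [hrange, LinearMap.mem_range] at hx'
    obtain ⟨q, rfl⟩ := hx'
    have hmem : (p : ℤ) • (iotaM M L₁ q) ∈ Λ := by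
      rw [← map_zsmul]
      refine Submodule.mem_map_of_mem ?_
      rw [LinearMap.mem_ker, map_zsmul]
      funext i
      simp
    have h1 : (iotaM M L₁ q) = (p : ℝ)⁻¹ • ((p : ℤ) • (iotaM M L₁ q)) := by
      rw [← Int.cast_smul_eq_zsmul ℝ, smul_smul]
      simp [hp']
    rw [h1]
    exact Submodule.smul_mem _ _ (Submodule.subset_span hmem)
  have hZ : IsZLattice ℝ Λ := ⟨hspan⟩
  refine ⟨Λ, hdisc, hZ, ?_, ?_⟩
  · -- covering
    rw [Set.eq_univ_iff_forall]
    intro X
    rw [Set.mem_add]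
    -- the target point
    set R : (Fin N → ℝ) × (Fin T → ℝ) := L₁ X + l • x₀ with hR
    let x : Fin N → ℤ := fun i => ⌊R.1 i⌋
    let u : Fin N → ℝ := fun i => Int.fract (R.1 i)
    let yy : Fin T → ℤ := fun i => ⌊R.2 i⌋
    let u' : Fin T → ℝ := fun i => Int.fract (R.2 i)
    let y : Fin T → ℤ := fun i => yy i % M
    let w : Fin T → ℤ := fun i => yy i / M
    obtain ⟨v, z, hvz, hmem⟩ := hcov (W.mulVec (red p x) - ∑ i, w i • a i) y
      (fun i => ⟨Int.emod_nonneg _ hMZ.ne', Int.emod_lt_of_pos _ hMZ⟩)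
    have hm := hmem u u' (fun i => ⟨Int.fract_nonneg _, (Int.fract_lt_one _).le⟩)
      (fun i => ⟨Int.fract_nonneg _, (Int.fract_lt_one _).le⟩)
    obtain ⟨q, hqQ, hq⟩ := Set.mem_smul_set.1 hm
    rw [hQ] at hqQ
    obtain ⟨k, hkK, hk⟩ := hqQ
    refine ⟨k, hkK, iotaM M L₁ (x - z, w + v), ?_, ?_⟩
    · refine Submodule.mem_map_of_mem ?_
      rw [LinearMap.mem_ker]
      change W.mulVec (red p (x - z)) - ∑ i, (w + v) i • a i = 0
      have h1 : red p (x - z) = red p x - red p z := by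
        funext i; simp [red]
      rw [h1, Matrix.mulVec_sub]
      simp only [Pi.add_apply, add_smul, Finset.sum_add_distrib]
      have h2 : W.mulVec (red p z) = W.mulVec (red p x) - ∑ i, w i • a i - ∑ i, v i • a i := by
        rw [← hvz]; abel
      rw [h2]; abel
    · apply L₁.injective
      rw [map_add]
      change L₁ k + L₁ (L₁.symm _) = _
      rw [LinearEquiv.apply_symm_apply]
      have h1 : L₁ k = l • q - l • x₀ := by
        rw [hL₁, ← hk]
        simp
      have h2 : L₁ X = R - l • x₀ := by rw [hR]; simp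
      rw [h1, h2, hq]
      rw [sub_add_eq_add_sub, sub_left_inj]
      refine Prod.ext (funext fun i => ?_) (funext fun i => ?_)
      · simp only [Prod.fst_add, Pi.add_apply, Pi.sub_apply, Int.cast_sub]
        change ((z i : ℝ) + Int.fract (R.1 i)) + ((⌊R.1 i⌋ : ℝ) - z i) = R.1 i
        have := Int.floor_add_fract (R.1 i)
        linarith
      · simp only [Prod.snd_add, Pi.add_apply, Int.cast_sub, Int.cast_add, Int.cast_mul,
          Int.cast_natCast]
        change (((yy i % (M : ℤ) : ℤ) : ℝ) - M * v i + Int.fract (R.2 i))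
          + M * ((((yy i) / (M : ℤ) : ℤ) : ℝ) + v i) = R.2 i
        have h3 : (((yy i % (M : ℤ) : ℤ) : ℝ)) + M * (((yy i) / (M : ℤ) : ℤ) : ℝ) = yy i := by
          exact_mod_cast Int.emod_add_mul_ediv (yy i) M
        have h4 := Int.floor_add_fract (R.2 i)
        change (yy i : ℝ) + Int.fract (R.2 i) = R.2 i at h4
        linarith
  · -- covolume
    obtain ⟨κ, hκ, hscale⟩ := exists_haar_scale L₁
    -- surjectivity of psi
    have hsurj : Function.Surjective (psiM (N := N) (T := T) W a) := by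
      intro c
      obtain ⟨v, z, hvz, -⟩ := hcov c 0 (fun i => ⟨le_rfl, hMZ⟩)
      refine ⟨(z, -v), ?_⟩
      change W.mulVec (red p z) - ∑ i, (-v) i • a i = c
      rw [← hvz]
      simp
    have hindex : (Λ.toAddSubgroup.relIndex Λb.toAddSubgroup : ℝ) = (p : ℝ) ^ d := by
      have e1 : Λ.toAddSubgroup = (LinearMap.ker (psiM W a)).toAddSubgroup.map
          (iotaM M L₁).toAddMonoidHom := rfl
      have e2 : Λb.toAddSubgroup = (⊤ : AddSubgroup ((Fin N → ℤ) × (Fin T → ℤ))).map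
          (iotaM M L₁).toAddMonoidHom := by
        rw [hrange]
        ext x
        simp
      rw [e1, e2, AddSubgroup.relIndex_map_map_of_injective _ _ (iotaM_injective hM L₁),
        AddSubgroup.relIndex_top_right]
      have e3 : (LinearMap.ker (psiM (N := N) (T := T) W a)).toAddSubgroup
          = (psiM W a).toAddMonoidHom.ker := rfl
      rw [e3, AddSubgroup.index_ker]
      have e4 : (psiM (N := N) (T := T) W a).toAddMonoidHom.range = ⊤ :=
        AddMonoidHom.range_eq_top.2 hsurj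
      rw [e4]
      have e5 : Nat.card (⊤ : AddSubgroup (Fin d → ZMod p)) = p ^ d := by
        rw [AddSubgroup.card_top, Nat.card_eq_fintype_card]
        simp
      rw [e5]
      push_cast
      rfl
    have hcovb : ZLattice.covolume Λb = κ * (M : ℝ) ^ T := by
      rw [ZLattice.covolume_eq_measure_fundamentalDomain Λb volume
        (ZSpan.isAddFundamentalDomain _ volume), ← ZSpan.map_fundamentalDomain,
        measureReal_def, hscale, bM_volume]
      simp
    have hratio := ZLattice.covolume_div_covolume_eq_relIndex Λ Λb hle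
    rw [hindex, hcovb] at hratio
    have hcovΛ : ZLattice.covolume Λ = (p : ℝ) ^ d * (κ * (M : ℝ) ^ T) := by
      have : κ * (M : ℝ) ^ T ≠ 0 := by positivity
      rw [div_eq_iff this] at hratio
      exact hratio
    have hvolK : (volume K).toReal = κ * (l ^ n * (volume Q).toReal) := by
      have e1 : K = L₁.symm '' (L₁ '' K) := by
        rw [← Set.image_comp]
        simp
      have e2 : L₁ '' K = l • (L '' K) := by
        ext y
        simp only [Set.mem_image, Set.mem_smul_set, hL₁]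
        constructor
        · rintro ⟨x, hx, rfl⟩
          exact ⟨L x, ⟨x, hx, rfl⟩, rfl⟩
        · rintro ⟨_, ⟨x, hx, rfl⟩, rfl⟩
          exact ⟨x, hx, rfl⟩
      have e3 : volume Q = volume (L '' K) := by
        have : Q = (fun x => x + x₀) '' (L '' K) := by
          rw [hQ, ← Set.image_comp]
          rfl
        rw [this, Set.image_add_right, measure_preimage_add_right]
      rw [e1, hscale, e2, Measure.addHaar_smul, e3, ENNReal.toReal_mul, ENNReal.toReal_ofReal
        (abs_nonneg _)]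
      have e4 : Module.finrank ℝ ((Fin N → ℝ) × (Fin T → ℝ)) = n := by
        rw [Module.finrank_prod]
        simp [hn]
      rw [e4, abs_of_pos (by positivity)]
    rw [hcovΛ, hvolK]
    field_simp

end Vale.P230
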