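import Vale.Agent.Lib.P230.Defs

/-! P230: choice of `W` (averaging) and the product formula. -/

open MeasureTheory Set
open scoped ENNReal Pointwise

namespace Vale.P230

open Classical in
/-- uncovered cosets -/
noncomputable def unc {N d p : ℕ} [NeZero p] (W : Matrix (Fin d) (Fin N) (ZMod p))
    (S : Set (Fin N → ℤ)) : Finset (Fin d → ZMod p) :=
  Finset.univ.filter (fun c => ∀ z ∈ S, W.mulVec (red p z) ≠ c)

theorem mem_unc {N d p : ℕ} [NeZero p] (W : Matrix (Fin d) (Fin N) (ZMod p))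
    (S : Set (Fin N → ℤ)) (c : Fin d → ZMod p) :
    c ∈ unc W S ↔ ∀ z ∈ S, W.mulVec (red p z) ≠ c := by
  classical
  simp [unc]

theorem uncCount_eq_sum {N d p : ℕ} [NeZero p] (S : Set (Fin N → ℤ)) :
    uncCount d (red p) S = ∑ W : Matrix (Fin d) (Fin N) (ZMod p), (unc W S).card := by
  classical
  unfold uncCount
  have h : {q : Matrix (Fin d) (Fin N) (ZMod p) × (Fin d → ZMod p) |
      ∀ z ∈ S, q.1.mulVec (red p z) ≠ q.2} =
      ((Finset.univ.filter (fun q : Matrix (Fin d) (Fin N) (ZMod p) × (Fin d → ZMod p) =>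
        ∀ z ∈ S, q.1.mulVec (red p z) ≠ q.2) : Finset _) : Set _) := by
    ext q; simp
  rw [h, Set.ncard_coe_finset, Finset.card_filter, Fintype.sum_prod_type]
  refine Finset.sum_congr rfl fun W _ => ?_
  rw [unc, Finset.card_filter]

/-- averaging over `W` -/
theorem choose_W {ι : Type*} {N d p : ℕ} [Fact p.Prime] (Y : Finset ι) (S : ι → Set (Fin N → ℤ))
    (E : ι → ℝ) (hE : ∀ y ∈ Y, 0 < E y)
    (h : ∀ y ∈ Y, (uncCount d (red p) (S y) : ℝ) / (p : ℝ) ^ (d * (N + 1)) ≤ 4 * E y) :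
    ∃ W : Matrix (Fin d) (Fin N) (ZMod p), ∀ y ∈ Y,
      ((unc W (S y)).card : ℝ) / (p : ℝ) ^ d ≤ 8 * Y.card * E y := by
  classical
  have hp : (0 : ℝ) < p := by exact_mod_cast (Fact.out : p.Prime).pos
  by_contra hcon
  push Not at hcon
  choose g hgY hg using hcon
  have hYpos : 0 < Y.card := Finset.card_pos.2 ⟨_, hgY 0⟩
  have hY' : (0 : ℝ) < Y.card := by exact_mod_cast hYpos
  -- number of matrices
  have hcard : (Fintype.card (Matrix (Fin d) (Fin N) (ZMod p)) : ℝ) = (p : ℝ) ^ (d * N) := by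
    have h0 : Fintype.card (Matrix (Fin d) (Fin N) (ZMod p)) = p ^ (d * N) := by
      have e : Fintype.card (Matrix (Fin d) (Fin N) (ZMod p)) =
          Fintype.card (Fin d → Fin N → ZMod p) := Fintype.card_congr (Equiv.refl _)
      rw [e]
      simp [ZMod.card, ← pow_mul, mul_comm]
    rw [h0]; push_cast; rfl
  have h1 : (p : ℝ) ^ (d * N) ≤ ∑ y ∈ Y, ∑ W : Matrix (Fin d) (Fin N) (ZMod p),
      ((unc W (S y)).card : ℝ) / (8 * Y.card * E y * (p : ℝ) ^ d) := by
    rw [Finset.sum_comm, ← hcard, ← Finset.card_univ, Finset.card_eq_sum_ones, Nat.cast_sum]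
    refine Finset.sum_le_sum fun W _ => ?_
    have hE' := hE _ (hgY W)
    have h2 : (1 : ℝ) ≤ ((unc W (S (g W))).card : ℝ) / (8 * Y.card * E (g W) * (p : ℝ) ^ d) := by
      rw [one_le_div (by positivity)]
      have := (hg W).le
      rw [le_div_iff₀ (by positivity)] at this
      exact this
    push_cast
    refine h2.trans ?_
    refine Finset.single_le_sum
      (f := fun y => ((unc W (S y)).card : ℝ) / (8 * Y.card * E y * (p : ℝ) ^ d)) ?_ (hgY W)
    intro y hy
    have := hE _ hy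
    positivity
  have h3 : ∀ y ∈ Y, ∑ W : Matrix (Fin d) (Fin N) (ZMod p),
      ((unc W (S y)).card : ℝ) / (8 * Y.card * E y * (p : ℝ) ^ d) ≤
        (p : ℝ) ^ (d * N) / (2 * Y.card) := by
    intro y hy
    have hEy := hE y hy
    rw [← Finset.sum_div, ← Nat.cast_sum, ← uncCount_eq_sum]
    have h4 := h y hy
    rw [div_le_iff₀ (by positivity)] at h4
    rw [div_le_div_iff₀ (by positivity) (by positivity)]
    have e : (p : ℝ) ^ (d * (N + 1)) = (p : ℝ) ^ (d * N) * (p : ℝ) ^ d := by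
      rw [← pow_add]; ring_nf
    rw [e] at h4
    calc (uncCount d (red p) (S y) : ℝ) * (2 * Y.card)
        ≤ (4 * E y * ((p : ℝ) ^ (d * N) * (p : ℝ) ^ d)) * (2 * Y.card) := by gcongr
      _ = _ := by ring
  have h5 := h1.trans (Finset.sum_le_sum h3)
  rw [Finset.sum_const, nsmul_eq_mul] at h5
  have h6 : (Y.card : ℝ) * ((p : ℝ) ^ (d * N) / (2 * Y.card)) = (p : ℝ) ^ (d * N) / 2 := by
    field_simp
  rw [h6] at h5
  have : (0 : ℝ) < (p : ℝ) ^ (d * N) := by positivity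
  linarith

/-- product formula: the sum over the cube of the Gaussian profile -/
theorem sum_cube {T M : ℕ} (y : Fin T → ℤ) (l : ℝ) :
    ∑ v : Fin T → Fin 2, Real.exp (-(∑ i, ((((y i - M * (v i : ℕ) : ℤ) : ℝ)) / l) ^ 2) / 2) =
      ∏ i, (Real.exp (-(((y i : ℝ) / l) ^ 2) / 2) + Real.exp (-((((y i : ℝ) - M) / l) ^ 2) / 2)) := by
  have h : ∀ i : Fin T, (Real.exp (-(((y i : ℝ) / l) ^ 2) / 2) +
      Real.exp (-((((y i : ℝ) - M) / l) ^ 2) / 2)) =
      ∑ w : Fin 2, Real.exp (-(((((y i - M * (w : ℕ) : ℤ) : ℝ)) / l) ^ 2) / 2) := by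
    intro i
    rw [Fin.sum_univ_two]
    simp
  simp_rw [h]
  rw [Finset.prod_univ_sum, Fintype.piFinset_univ]
  refine Finset.sum_congr rfl fun v _ => ?_
  rw [← Real.exp_sum]
  congr 1
  rw [neg_div, Finset.sum_div, ← Finset.sum_neg_distrib]
  refine Finset.sum_congr rfl fun i _ => ?_
  ring

end Vale.P230
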