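import Vale.Agent.Lib.P230.Defs

/-! P230: choice of the scale. -/

open Real

namespace Vale.P230

theorem scale_numerics {c c₁ ψ x : ℝ} {N d T n p : ℕ} (hc : 0 < c) (hc₁ : 0 < c₁) (hc₁1 : c₁ ≤ 1)
    (hx : 0 < x) (hx1 : x ≤ 2.6) (hn : n = N + T) (hd : N = 4 * d) (hTN : T ≤ N) (hN : 100 ≤ N)
    (hc1N : 1 ≤ c₁ * N) (h32 : (32 : ℝ) ^ T ≤ c * 2 ^ N) (hp1 : N ^ 40 ≤ p) (hp2 : p ≤ 2 * N ^ 40)
    (hψ : c * (x⁻¹) ^ T * (1 / (n : ℝ)) ^ n ≤ ψ) (hψ8 : ψ ≤ 8 ^ N) :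
    ∃ M : ℕ, 0 < M ∧ (5 * (M : ℝ) / 11) ^ N * ψ ≤ c₁ * N * (p : ℝ) ^ d ∧
      c₁ * N * (p : ℝ) ^ d / 2 ≤ (5 * (M : ℝ) / 11) ^ N * ψ ∧
      4 * (N : ℝ) ^ 9 ≤ 5 * (M : ℝ) / 11 ∧ 16 * (4 * (5 * (M : ℝ) / 11)) ^ 2 < p ∧
      2 * M ≤ N ^ 20 := by
  have hNr : (100 : ℝ) ≤ N := by exact_mod_cast hN
  have hN0 : (0 : ℝ) < N := by linarith
  have hNne : N ≠ 0 := by omega
  have hn0 : (0 : ℝ) < n := by
    have : 0 < n := by omega
    exact_mod_cast this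
  have hψ0 : 0 < ψ := lt_of_lt_of_le (by positivity) hψ
  have hp0 : (0 : ℝ) < p := by
    have : 0 < p := lt_of_lt_of_le (by positivity) hp1
    exact_mod_cast this
  set P : ℝ := (p : ℝ) ^ d with hP
  have hPpos : 0 < P := by positivity
  have hPlow : (N : ℝ) ^ (10 * N) ≤ P := by
    have : ((N : ℝ) ^ 40) ^ d ≤ P := by
      rw [hP]; gcongr; exact_mod_cast hp1
    refine le_trans (le_of_eq ?_) this
    rw [← pow_mul]; congr 1; omega
  set Z : ℝ := c₁ * N * P / ψ with hZ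
  have hZ0 : 0 < Z := by positivity
  set lam : ℝ := Z ^ ((1 : ℝ) / N) with hlam
  have hlam0 : 0 < lam := Real.rpow_pos_of_pos hZ0 _
  have hlamN : lam ^ N = Z := by
    rw [hlam, ← Real.rpow_natCast, ← Real.rpow_mul hZ0.le]
    rw [one_div, inv_mul_cancel₀ (by exact_mod_cast hNne), Real.rpow_one]
  -- lower bound
  have hlow : 12 * (N : ℝ) ^ 9 ≤ lam := by
    refine le_of_pow_le_pow_left₀ hNne hlam0.le ?_
    rw [hlamN, hZ, le_div_iff₀ hψ0]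
    calc (12 * (N : ℝ) ^ 9) ^ N * ψ ≤ (12 * (N : ℝ) ^ 9) ^ N * 8 ^ N := by gcongr
      _ = (96 : ℝ) ^ N * (N : ℝ) ^ (9 * N) := by
          rw [mul_pow, ← pow_mul, mul_right_comm, ← mul_pow]; norm_num
      _ ≤ (N : ℝ) ^ N * (N : ℝ) ^ (9 * N) := by gcongr; linarith
      _ = (N : ℝ) ^ (10 * N) := by rw [← pow_add]; congr 1; ring
      _ ≤ 1 * P := by rw [one_mul]; exact hPlow
      _ ≤ c₁ * N * P := by gcongr
  -- upper bound
  have hxT : x ^ T ≤ c * 2 ^ N := by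
    refine le_trans ?_ h32
    gcongr; linarith
  have hinv : (1 / ψ) ≤ 2 ^ N * (n : ℝ) ^ n := by
    rw [div_le_iff₀ hψ0]
    have h1 : c * (x⁻¹) ^ T * (1 / (n : ℝ)) ^ n * (2 ^ N * (n : ℝ) ^ n) ≤
        ψ * (2 ^ N * (n : ℝ) ^ n) := by gcongr
    have h2 : c * (x⁻¹) ^ T * (1 / (n : ℝ)) ^ n * (2 ^ N * (n : ℝ) ^ n) = (c * 2 ^ N) / x ^ T := by
      rw [inv_pow, one_div, inv_pow]
      field_simp
    rw [h2] at h1
    have h3 : 1 ≤ (c * 2 ^ N) / x ^ T := by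
      rw [one_le_div (by positivity)]; exact hxT
    linarith
  have hnn : (n : ℝ) ^ n ≤ 4 ^ N * (N : ℝ) ^ (2 * N) := by
    have h1 : (n : ℝ) ≤ 2 * N := by
      have : n ≤ 2 * N := by omega
      exact_mod_cast this
    calc (n : ℝ) ^ n ≤ (2 * (N : ℝ)) ^ n := by gcongr
      _ ≤ (2 * (N : ℝ)) ^ (2 * N) := by
          apply pow_le_pow_right₀ (by linarith) (by omega)
      _ = 4 ^ N * (N : ℝ) ^ (2 * N) := by
          rw [mul_pow, pow_mul 2 2 N]; norm_num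
  have h16 : 16 ^ N * Z < P ^ 2 := by
    have h1 : Z ≤ (N : ℝ) * P * (2 ^ N * (4 ^ N * (N : ℝ) ^ (2 * N))) := by
      calc Z = (c₁ * N * P) * (1 / ψ) := by rw [hZ]; ring
        _ ≤ (1 * N * P) * (2 ^ N * (n : ℝ) ^ n) := by gcongr
        _ ≤ (N : ℝ) * P * (2 ^ N * (4 ^ N * (N : ℝ) ^ (2 * N))) := by rw [one_mul]; gcongr
    have h2 : 16 ^ N * Z ≤ ((N : ℝ) * (128 ^ N * (N : ℝ) ^ (2 * N))) * P := by
      calc 16 ^ N * Z ≤ 16 ^ N * ((N : ℝ) * P * (2 ^ N * (4 ^ N * (N : ℝ) ^ (2 * N)))) := by gcongr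
        _ = ((N : ℝ) * ((16 * 2 * 4) ^ N * (N : ℝ) ^ (2 * N))) * P := by
            rw [mul_pow, mul_pow]; ring
        _ = _ := by norm_num
    have h3 : (N : ℝ) * (128 ^ N * (N : ℝ) ^ (2 * N)) < (N : ℝ) ^ (10 * N) := by
      have h128 : (128 : ℝ) ^ N ≤ (N : ℝ) ^ (2 * N) := by
        rw [pow_mul]; gcongr; nlinarith
      calc (N : ℝ) * (128 ^ N * (N : ℝ) ^ (2 * N))
          ≤ (N : ℝ) ^ 1 * ((N : ℝ) ^ (2 * N) * (N : ℝ) ^ (2 * N)) := by rw [pow_one]; gcongr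
        _ = (N : ℝ) ^ (1 + (2 * N + 2 * N)) := by rw [← pow_add, ← pow_add]
        _ < (N : ℝ) ^ (10 * N) := by
            apply pow_lt_pow_right₀ (by linarith) (by omega)
    calc 16 ^ N * Z ≤ ((N : ℝ) * (128 ^ N * (N : ℝ) ^ (2 * N))) * P := h2
      _ < (N : ℝ) ^ (10 * N) * P := by gcongr
      _ ≤ P * P := by gcongr
      _ = P ^ 2 := by ring
  have hup : 256 * lam ^ 2 < p := by
    refine lt_of_pow_lt_pow_left₀ N hp0.le ?_
    have h1 : (256 * lam ^ 2) ^ N = (16 ^ N * Z) ^ 2 := by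
      rw [← hlamN, mul_pow, mul_pow, ← pow_mul, ← pow_mul, ← pow_mul, mul_comm 2 N,
        mul_comm N 2, pow_mul 16 2 N]
      norm_num
    have h2 : (p : ℝ) ^ N = (P ^ 2) ^ 2 := by
      rw [hP, ← pow_mul, ← pow_mul]; congr 1; omega
    rw [h1, h2]
    gcongr
  set M : ℕ := ⌊(11 / 5) * lam⌋₊ with hM
  have hM1 : (M : ℝ) ≤ (11 / 5) * lam := Nat.floor_le (by positivity)
  have hM2 : (11 / 5) * lam < M + 1 := Nat.lt_floor_add_one _
  have hN9 : (1 : ℝ) ≤ (N : ℝ) ^ 9 := one_le_pow₀ (by linarith)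
  have hN98 : (N : ℝ) ≤ (N : ℝ) ^ 9 := by
    calc (N : ℝ) = (N : ℝ) ^ 1 := (pow_one _).symm
      _ ≤ _ := pow_le_pow_right₀ (by linarith) (by norm_num)
  have hlM : 5 * (M : ℝ) / 11 ≤ lam := by linarith
  have hlM2 : lam - 5 / 11 ≤ 5 * (M : ℝ) / 11 := by linarith
  have hMpos : 0 < M := by
    have : (0 : ℝ) < M := by linarith
    exact_mod_cast this
  refine ⟨M, hMpos, ?_, ?_, ?_, ?_, ?_⟩
  · calc (5 * (M : ℝ) / 11) ^ N * ψ ≤ lam ^ N * ψ := by gcongr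
      _ = c₁ * N * P := by rw [hlamN, hZ]; field_simp
  · have h1 : (1 : ℝ) / 2 ≤ (1 + -(5 / 11 / lam)) ^ N := by
      have h2 : 1 + (N : ℝ) * -(5 / 11 / lam) ≤ (1 + -(5 / 11 / lam)) ^ N := by
        apply one_add_mul_le_pow
        have : 5 / 11 / lam ≤ 1 := by
          rw [div_le_one hlam0]; linarith
        linarith
      refine le_trans ?_ h2
      have h3 : (N : ℝ) * (5 / 11 / lam) ≤ 1 / 2 := by
        rw [div_div, mul_div_assoc', div_le_iff₀ (by positivity)]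
        linarith
      linarith
    have h4 : lam - 5 / 11 = lam * (1 + -(5 / 11 / lam)) := by field_simp; ring
    have h5 : lam ^ N * (1 / 2) ≤ (5 * (M : ℝ) / 11) ^ N := by
      calc lam ^ N * (1 / 2) ≤ lam ^ N * (1 + -(5 / 11 / lam)) ^ N := by gcongr
        _ = (lam - 5 / 11) ^ N := by rw [h4, mul_pow]
        _ ≤ _ := by
          gcongr
          linarith
    calc c₁ * N * P / 2 = lam ^ N * (1 / 2) * ψ := by rw [hlamN, hZ]; field_simp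
      _ ≤ _ := by gcongr
  · linarith
  · calc 16 * (4 * (5 * (M : ℝ) / 11)) ^ 2 ≤ 16 * (4 * lam) ^ 2 := by gcongr
      _ = 256 * lam ^ 2 := by ring
      _ < p := hup
  · have h1 : lam ≤ (N : ℝ) ^ 20 / 11 := by
      refine le_of_pow_le_pow_left₀ two_ne_zero (by positivity) ?_
      have hp2' : (p : ℝ) ≤ 2 * (N : ℝ) ^ 40 := by exact_mod_cast hp2
      have e : ((N : ℝ) ^ 20 / 11) ^ 2 = (N : ℝ) ^ 40 / 121 := by
        rw [div_pow, ← pow_mul]; norm_num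
      rw [e]
      have : (0 : ℝ) < (N : ℝ) ^ 40 := by positivity
      linarith
    have h2 : (2 * M : ℝ) ≤ (N : ℝ) ^ 20 := by
      have : (0 : ℝ) < (N : ℝ) ^ 20 := by positivity
      linarith
    exact_mod_cast h2

theorem section_low {c ψ x l : ℝ} {N T n : ℕ} (hc : 0 < c)
    (hx : 0 < x) (hx1 : x ≤ 2.6) (hn : n = N + T) (hTN : T ≤ N) (hN : 100 ≤ N)
    (h32 : (32 : ℝ) ^ T ≤ c * 2 ^ N)
    (hψ : c * (x⁻¹) ^ T * (1 / (n : ℝ)) ^ n ≤ ψ) (hl : 0 < l) :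
    (4 * l / (N : ℝ) ^ 3) ^ N ≤ l ^ N * ψ * Real.exp (-(T * (121 / 25)) / 2) := by
  have hNr : (100 : ℝ) ≤ N := by exact_mod_cast hN
  have hN0 : (0 : ℝ) < N := by linarith
  have hn0 : (0 : ℝ) < n := by
    have : 0 < n := by omega
    exact_mod_cast this
  have he : x * Real.exp (121 / 50) ≤ 32 := by
    have h1 : Real.exp (121 / 50) ≤ 12 := by
      have h2 : Real.exp (121 / 50) ≤ Real.exp 1 ^ 2 * Real.exp (21 / 50) := by
        rw [← Real.exp_nat_mul, ← Real.exp_add]; norm_num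
      have h3 : Real.exp 1 ≤ 2.7182818286 := Real.exp_one_lt_d9.le
      have h4 : Real.exp (21 / 50) ≤ 1.6 := by
        have h5 : Real.exp (21 / 50) ^ 2 ≤ 1.6 ^ 2 := by
          rw [← Real.exp_nat_mul]
          have h6 : Real.exp ((2 : ℕ) * (21 / 50)) ≤ Real.exp 1 / Real.exp (4 / 25) := by
            rw [← Real.exp_sub]; norm_num
          refine h6.trans ?_
          rw [div_le_iff₀ (Real.exp_pos _)]
          have h7 : (1 : ℝ) + 4 / 25 ≤ Real.exp (4 / 25) := by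
            have := Real.add_one_le_exp (4 / 25 : ℝ); linarith
          nlinarith
        exact le_of_pow_le_pow_left₀ two_ne_zero (by norm_num) h5
      calc Real.exp (121 / 50) ≤ Real.exp 1 ^ 2 * Real.exp (21 / 50) := h2
        _ ≤ 2.7182818286 ^ 2 * 1.6 := by gcongr
        _ ≤ 12 := by norm_num
    calc x * Real.exp (121 / 50) ≤ 2.6 * 12 := by gcongr
      _ ≤ 32 := by norm_num
  have hE : Real.exp (-(T * (121 / 25)) / 2) = (Real.exp (121 / 50))⁻¹ ^ T := by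
    rw [← Real.exp_neg, ← Real.exp_nat_mul]; congr 1; ring
  rw [hE]
  have h1 : (2 : ℝ)⁻¹ ^ N ≤ c * (x⁻¹) ^ T * (Real.exp (121 / 50))⁻¹ ^ T := by
    have h2 : (x * Real.exp (121 / 50)) ^ T ≤ c * 2 ^ N := by
      refine le_trans ?_ h32
      gcongr
    rw [mul_assoc, ← mul_pow, ← mul_inv, inv_pow, inv_pow, ← one_div, ← one_div,
      div_le_iff₀ (by positivity)]
    have e : c * (1 / (x * Real.exp (121 / 50)) ^ T) * 2 ^ N =
        (c * 2 ^ N) / (x * Real.exp (121 / 50)) ^ T := by ring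
    rw [e, one_le_div (by positivity)]
    exact h2
  have hnn : (n : ℝ) ^ n ≤ 4 ^ N * (N : ℝ) ^ (2 * N) := by
    have h1 : (n : ℝ) ≤ 2 * N := by
      have : n ≤ 2 * N := by omega
      exact_mod_cast this
    calc (n : ℝ) ^ n ≤ (2 * (N : ℝ)) ^ n := by gcongr
      _ ≤ (2 * (N : ℝ)) ^ (2 * N) := by
          apply pow_le_pow_right₀ (by linarith) (by omega)
      _ = 4 ^ N * (N : ℝ) ^ (2 * N) := by
          rw [mul_pow, pow_mul 2 2 N]; norm_num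
  have h3 : (4 / (N : ℝ) ^ 3) ^ N ≤ (2 : ℝ)⁻¹ ^ N * (1 / (n : ℝ)) ^ n := by
    rw [one_div, inv_pow _ n]
    rw [← div_eq_mul_inv, le_div_iff₀ (by positivity)]
    calc (4 / (N : ℝ) ^ 3) ^ N * (n : ℝ) ^ n
        ≤ (4 / (N : ℝ) ^ 3) ^ N * (4 ^ N * (N : ℝ) ^ (2 * N)) := by gcongr
      _ = (16 / (N : ℝ)) ^ N := by
          rw [pow_mul, ← mul_pow, ← mul_pow]; congr 1; field_simp; norm_num
      _ ≤ (2 : ℝ)⁻¹ ^ N := by
          gcongr
          rw [div_le_iff₀ hN0]; linarith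
  have h4 : (4 * l / (N : ℝ) ^ 3) ^ N = l ^ N * (4 / (N : ℝ) ^ 3) ^ N := by
    rw [← mul_pow]; congr 1; ring
  rw [h4]
  calc l ^ N * (4 / (N : ℝ) ^ 3) ^ N ≤ l ^ N * ((2 : ℝ)⁻¹ ^ N * (1 / (n : ℝ)) ^ n) := by gcongr
    _ ≤ l ^ N * ((c * (x⁻¹) ^ T * (Real.exp (121 / 50))⁻¹ ^ T) * (1 / (n : ℝ)) ^ n) := by gcongr
    _ = l ^ N * (c * (x⁻¹) ^ T * (1 / (n : ℝ)) ^ n) * (Real.exp (121 / 50))⁻¹ ^ T := by ring
    _ ≤ l ^ N * ψ * (Real.exp (121 / 50))⁻¹ ^ T := by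
        gcongr

end Vale.P230
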