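import Vale.Agent.Lib.P230.Params

/-! P230: final numerics. -/

open Real

namespace Vale.P230

theorem doubling_numerics {A c₁ D₀ : ℝ} {N d T n p M : ℕ} (hc₁ : 0 < c₁) (hA : 26 / c₁ ≤ A)
    (hn : n = N + T) (hd : N = 4 * d) (hTN : T ≤ N) (hN : 100 ≤ N) (hM : 0 < M)
    (hD : c₁ * N / 2 ≤ D₀) (hphi : A * Real.log n ≤ phi ^ T)
    (h2T : (2 : ℝ) ^ T * (3 + 2 * T * (20 * Real.log n)) ≤ n)
    (hM2 : 2 * M ≤ N ^ 20) (hp0 : 0 < p) (hp2 : p ≤ 2 * N ^ 40) :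
    (((2 * M : ℕ) : ℝ) ^ T) ^ (2 ^ T) * ((8 * ((2 * M : ℕ) : ℝ) ^ T) ^ (2 ^ T) *
      Real.exp (-(D₀ * phi ^ T))) * (p : ℝ) ^ d < 1 := by
  have hNr : (100 : ℝ) ≤ N := by exact_mod_cast hN
  have hN0 : (0 : ℝ) < N := by linarith
  have hnN : (N : ℝ) ≤ n := by
    have : N ≤ n := by omega
    exact_mod_cast this
  have hn0 : (0 : ℝ) < n := by linarith
  have hn2 : (n : ℝ) ≤ 2 * N := by
    have : n ≤ 2 * N := by omega
    exact_mod_cast this
  set L := Real.log n with hL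
  have hL1 : 4 ≤ L := by
    rw [hL, Real.le_log_iff_exp_le hn0]
    have h1 : Real.exp 4 = Real.exp 1 ^ 4 := by rw [← Real.exp_nat_mul]; norm_num
    rw [h1]
    calc Real.exp 1 ^ 4 ≤ 2.7182818286 ^ 4 := by gcongr; exact Real.exp_one_lt_d9.le
      _ ≤ 100 := by norm_num
      _ ≤ n := by linarith
  have hlogN : Real.log N ≤ L := Real.log_le_log hN0 hnN
  have hMr : (((2 * M : ℕ) : ℝ)) ≤ Real.exp (20 * L) := by
    have h1 : (((2 * M : ℕ) : ℝ)) ≤ (N : ℝ) ^ 20 := by exact_mod_cast hM2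
    refine h1.trans ?_
    calc (N : ℝ) ^ 20 = Real.exp (20 * Real.log N) := by
          rw [show (20 : ℝ) * Real.log N = ((20 : ℕ) : ℝ) * Real.log N by norm_num,
            Real.exp_nat_mul, Real.exp_log hN0]
      _ ≤ Real.exp (20 * L) := by gcongr
  have h8 : (8 : ℝ) ≤ Real.exp 3 := by
    have h1 : Real.exp 3 = Real.exp 1 ^ 3 := by rw [← Real.exp_nat_mul]; norm_num
    rw [h1]
    calc (8 : ℝ) ≤ 2.7182818283 ^ 3 := by norm_num
      _ ≤ Real.exp 1 ^ 3 := by gcongr; exact Real.exp_one_gt_d9.le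
  have hMT : (((2 * M : ℕ) : ℝ)) ^ T ≤ Real.exp (T * (20 * L)) := by
    rw [Real.exp_nat_mul]; gcongr
  have hpd : (p : ℝ) ^ d ≤ Real.exp (11 * N * L) := by
    have h1 : (p : ℝ) ≤ 2 * (N : ℝ) ^ 40 := by exact_mod_cast hp2
    have h2 : (p : ℝ) ≤ Real.exp (41 * L) := by
      have h3 : (2 : ℝ) * (N : ℝ) ^ 40 ≤ (N : ℝ) ^ 41 := by
        rw [pow_succ' (N : ℝ) 40]; gcongr; linarith
      refine h1.trans (h3.trans ?_)
      calc (N : ℝ) ^ 41 = Real.exp (41 * Real.log N) := by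
            rw [show (41 : ℝ) * Real.log N = ((41 : ℕ) : ℝ) * Real.log N by norm_num,
              Real.exp_nat_mul, Real.exp_log hN0]
        _ ≤ Real.exp (41 * L) := by gcongr
    calc (p : ℝ) ^ d ≤ (Real.exp (41 * L)) ^ d := by gcongr
      _ = Real.exp (d * (41 * L)) := by rw [← Real.exp_nat_mul]
      _ ≤ Real.exp (11 * N * L) := by
          apply Real.exp_le_exp.2
          have : (N : ℝ) = 4 * d := by exact_mod_cast hd
          have hd0 : (0 : ℝ) ≤ d := Nat.cast_nonneg _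
          rw [this]; nlinarith [mul_nonneg hd0 (by linarith : (0 : ℝ) ≤ L)]
  have hT0 : (0 : ℝ) ≤ T := Nat.cast_nonneg _
  have key : (((2 * M : ℕ) : ℝ) ^ T) ^ (2 ^ T) * ((8 * ((2 * M : ℕ) : ℝ) ^ T) ^ (2 ^ T) *
      Real.exp (-(D₀ * phi ^ T))) * (p : ℝ) ^ d ≤
      Real.exp ((2 : ℝ) ^ T * (3 + 2 * T * (20 * L)) + 11 * N * L - D₀ * phi ^ T) := by
    have e : Real.exp ((2 : ℝ) ^ T * (3 + 2 * T * (20 * L)) + 11 * N * L - D₀ * phi ^ T) =
        (Real.exp (T * (20 * L))) ^ (2 ^ T) * ((Real.exp 3 * Real.exp (T * (20 * L))) ^ (2 ^ T) *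
          Real.exp (-(D₀ * phi ^ T))) * Real.exp (11 * N * L) := by
      rw [← Real.exp_add, ← Real.exp_nat_mul, ← Real.exp_nat_mul, ← Real.exp_add, ← Real.exp_add,
        ← Real.exp_add]
      congr 1
      push_cast
      ring
    rw [e]
    gcongr
  refine lt_of_le_of_lt key ?_
  rw [Real.exp_lt_one_iff]
  have h1 : 13 * N * L ≤ D₀ * phi ^ T := by
    calc 13 * N * L = (c₁ * N / 2) * (26 / c₁ * L) := by field_simp; ring
      _ ≤ (c₁ * N / 2) * (A * L) := by gcongr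
      _ ≤ (c₁ * N / 2) * phi ^ T := by gcongr
      _ ≤ D₀ * phi ^ T := by
          have := phi_pos
          gcongr
  nlinarith

theorem density_numerics {A c c₁ x ψ V : ℝ} {N d T n p M : ℕ} (hA : 0 < A) (hc : 0 < c)
    (hc₁ : 0 < c₁) (hx : 0 < x) (hV : 0 < V)
    (hn : n = N + T) (hTN : T ≤ N) (hN : 100 ≤ N) (hM : 0 < M) (hp0 : 0 < p)
    (hψ : ψ = c * (x⁻¹) ^ T * V)
    (hM1 : (5 * (M : ℝ) / 11) ^ N * ψ ≤ c₁ * N * (p : ℝ) ^ d)
    (hl : 4 * (N : ℝ) ^ 9 ≤ 5 * (M : ℝ) / 11)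
    (hx8 : x / (11 / 5) ≤ phi ^ ((8 : ℝ) / 5))
    (hphi : phi ^ T ≤ 2 * (A * Real.log n)) :
    (5 * (M : ℝ) / 11 + n) ^ n * V / ((M : ℝ) ^ T * (p : ℝ) ^ d) ≤
      (3 * c₁ / c * (2 * A) ^ ((8 : ℝ) / 5)) * n * (Real.log n) ^ ((8 : ℝ) / 5) := by
  have hNr : (100 : ℝ) ≤ N := by exact_mod_cast hN
  have hN0 : (0 : ℝ) < N := by linarith
  have hnN : (N : ℝ) ≤ n := by
    have : N ≤ n := by omega
    exact_mod_cast this
  have hn0 : (0 : ℝ) < n := by linarith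
  have hn2 : (n : ℝ) ≤ 2 * N := by
    have : n ≤ 2 * N := by omega
    exact_mod_cast this
  have hMr : (0 : ℝ) < M := by exact_mod_cast hM
  have hpr : (0 : ℝ) < p := by exact_mod_cast hp0
  set l := 5 * (M : ℝ) / 11 with hldef
  have hlpos : 0 < l := by positivity
  -- (l+n)^n ≤ 3 l^n
  have h1 : (l + n) ^ n ≤ 3 * l ^ n := by
    have h2 : n ^ 2 / l ≤ (1 : ℝ) := by
      rw [div_le_one hlpos]
      refine le_trans ?_ hl
      have h3 : (n : ℝ) ^ 2 ≤ (2 * N) ^ 2 := by gcongr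
      have h4 : (N : ℝ) ^ 2 ≤ (N : ℝ) ^ 9 := pow_le_pow_right₀ (by linarith) (by norm_num)
      nlinarith
    have h3 : (1 + n / l) ≤ Real.exp (n / l) := by
      have := Real.add_one_le_exp ((n : ℝ) / l); linarith
    calc (l + n) ^ n = l ^ n * (1 + n / l) ^ n := by
          rw [← mul_pow]; congr 1; field_simp
      _ ≤ l ^ n * (Real.exp (n / l)) ^ n := by gcongr
      _ = l ^ n * Real.exp (n ^ 2 / l) := by
          rw [← Real.exp_nat_mul]; congr 2; ring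
      _ ≤ l ^ n * Real.exp 1 := by gcongr
      _ ≤ l ^ n * 3 := by
          gcongr
          have := Real.exp_one_lt_d9; linarith
      _ = 3 * l ^ n := by ring
  have hxT : 0 < x ^ T := by positivity
  have hVψ : V = ψ * x ^ T / c := by
    rw [hψ, inv_pow]; field_simp
  have hphi0 : 0 < phi := phi_pos
  calc (l + n) ^ n * V / ((M : ℝ) ^ T * (p : ℝ) ^ d)
      ≤ (3 * l ^ n) * V / ((M : ℝ) ^ T * (p : ℝ) ^ d) := by gcongr
    _ = 3 / c * ((l ^ N * ψ) / (p : ℝ) ^ d) * (x / (11 / 5)) ^ T := by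
        rw [hn, pow_add, hVψ]
        have e1 : l ^ T = (5 / 11 : ℝ) ^ T * (M : ℝ) ^ T := by
          rw [← mul_pow]; congr 1; rw [hldef]; ring
        have e2 : (x / (11 / 5)) ^ T = x ^ T * (5 / 11 : ℝ) ^ T := by
          rw [← mul_pow]; congr 1; ring
        rw [e1, e2]
        field_simp
    _ ≤ 3 / c * (c₁ * N) * (phi ^ ((8 : ℝ) / 5)) ^ T := by
        have h5 : (l ^ N * ψ) / (p : ℝ) ^ d ≤ c₁ * N := by
          rw [div_le_iff₀ (by positivity)]; exact hM1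
        have h6 : 0 ≤ (l ^ N * ψ) / (p : ℝ) ^ d := by
          rw [hψ]; positivity
        have h7 : (x / (11 / 5)) ^ T ≤ (phi ^ ((8 : ℝ) / 5)) ^ T := by gcongr
        have h8 : 0 ≤ (x / (11 / 5)) ^ T := by positivity
        gcongr
    _ = 3 / c * (c₁ * N) * (phi ^ T) ^ ((8 : ℝ) / 5) := by
        congr 1
        rw [← Real.rpow_natCast, ← Real.rpow_natCast, ← Real.rpow_mul hphi0.le,
          ← Real.rpow_mul hphi0.le, mul_comm]
    _ ≤ 3 / c * (c₁ * n) * (2 * (A * Real.log n)) ^ ((8 : ℝ) / 5) := by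
        gcongr
    _ = (3 * c₁ / c * (2 * A) ^ ((8 : ℝ) / 5)) * n * (Real.log n) ^ ((8 : ℝ) / 5) := by
        have hL : 0 ≤ Real.log n := Real.log_nonneg (by linarith)
        rw [← mul_assoc 2 A, Real.mul_rpow (by positivity) hL]
        ring

end Vale.P230
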