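import Vale.Agent.Lib.P230.Geom
import Vale.Agent.Lib.P230.MainA
import Vale.Agent.Lib.P230.MainB
import Vale.Agent.Lib.P230.MainC
import Vale.Agent.Lib.P230.Skel

/-! P230: assembly. -/

open MeasureTheory Set
open scoped ENNReal Pointwise

namespace Vale.P230

theorem main_cover : ∃ C : ℝ, 0 < C ∧ ∃ n₀ : ℕ, ∀ n : ℕ, n₀ ≤ n → ∀ K : Set (Fin n → ℝ),
    Convex ℝ K → IsCompact K → (interior K).Nonempty →
    ∃ (Λ : Submodule ℤ (Fin n → ℝ)) (_ : DiscreteTopology Λ) (_ : IsZLattice ℝ Λ),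
      K + (Λ : Set (Fin n → ℝ)) = Set.univ ∧
      (volume K).toReal / ZLattice.covolume Λ ≤ C * n * (Real.log n) ^ ((8 : ℝ) / 5) := by
  obtain ⟨c₁', hc₁', N₁, hstep⟩ := step_body
  obtain ⟨c, hc, n₁, hpos⟩ := good_position (1 / 1000) (by norm_num) (by norm_num)
  set c₁ : ℝ := min c₁' 1 with hc₁def
  have hc₁ : 0 < c₁ := lt_min hc₁' one_pos
  have hc₁1 : c₁ ≤ 1 := min_le_right _ _
  set x : ℝ := (1 + 1 / 1000) * √(2 * Real.pi) with hx
  have hx0 : 0 < x := by rw [hx]; positivity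
  have hx1 : x ≤ 2.6 := by
    have h1 : √(2 * Real.pi) ≤ 2.51 := by
      rw [Real.sqrt_le_left (by norm_num)]
      have := Real.pi_lt_d4
      norm_num; linarith
    rw [hx]; nlinarith
  set A : ℝ := max 1 (26 / c₁) with hA
  have hA1 : 1 ≤ A := le_max_left _ _
  have hA2 : 26 / c₁ ≤ A := le_max_right _ _
  obtain ⟨n₀, hpar⟩ := params A c c₁ hA1 hc hc₁ N₁
  refine ⟨3 * c₁ / c * (2 * A) ^ ((8 : ℝ) / 5), by positivity, max n₀ n₁, ?_⟩
  intro n hn K hK hKc hKi
  obtain ⟨N, d, T, hnNT, hN4, hN₁, hT0, hTlog, hphi1, hphi2, hn2N, hc1N, h32, h2T, hTN, hN100⟩ :=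
    hpar n ((le_max_left _ _).trans hn)
  obtain ⟨p, hpp, hpl, hpu⟩ := Nat.exists_prime_lt_and_le_two_mul (N ^ 40) (by positivity)
  have : Fact p.Prime := ⟨hpp⟩
  obtain ⟨L, x₀, Q, hQ, ⟨h0, h1, h2⟩, hb, hvol⟩ := hpos n N T hnNT ((le_max_right _ _).trans hn)
    (by omega) hT0 hTlog K hK hKc hKi
  have hNr : (100 : ℝ) ≤ N := by exact_mod_cast hN100
  have hN0 : (0 : ℝ) < N := by linarith
  have hn0 : 0 < n := by omega
  have hn0' : (0 : ℝ) < n := by exact_mod_cast hn0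
  have hp0 : (0 : ℝ) < p := by exact_mod_cast hpp.pos
  -- Q convex compact
  have hQc : IsCompact Q := by
    rw [hQ]
    exact hKc.image ((LinearMap.continuous_of_finiteDimensional L.toLinearMap).add
      continuous_const)
  have hQconv : Convex ℝ Q := by
    rw [hQ]
    have h3 : (fun z => L z + x₀) '' K = (fun z => z + x₀) '' (L '' K) := by
      rw [Set.image_image]
    rw [h3]
    have h4 := (hK.linear_image L.toLinearMap).translate x₀
    have e : (fun z => z + x₀) '' (L '' K) = (fun z => x₀ + z) '' (L.toLinearMap '' K) := by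
      ext z; simp [add_comm]
    rw [e]; exact h4
  set V := (volume Q).toReal with hV
  have hVlow := volume_lower hQconv hQc h0 h1 h2 hnNT hn0
  have hV0 : 0 < V := lt_of_lt_of_le (by positivity) hVlow
  set ψ : ℝ := c * (x⁻¹) ^ T * V with hψ
  have hψ0 : 0 < ψ := by positivity
  have hψlow : c * (x⁻¹) ^ T * (1 / (n : ℝ)) ^ n ≤ ψ := by
    rw [hψ]; gcongr
  have hψ8 : ψ ≤ 8 ^ N := by
    have h3 := hvol 0 (fun i => by simp)
    simp only [Pi.zero_apply, ne_eq, OfNat.ofNat_ne_zero, not_false_eq_true, zero_pow,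
      Finset.sum_const_zero, neg_zero, zero_div, Real.exp_zero, mul_one] at h3
    refine h3.trans ?_
    have h4 := volume_upper (A := sec Q 0) (R := 4) (by norm_num)
      (hb 0 (fun i => by simp; norm_num)).2
    refine h4.trans (le_of_eq ?_)
    norm_num
  obtain ⟨M, hM0, hM1, hM2, hM3, hM4, hM5⟩ := scale_numerics hc hc₁ hc₁1 hx0 hx1 hnNT hN4 hTN
    hN100 hc1N h32 hpl.le hpu hψlow hψ8
  set l : ℝ := 5 * (M : ℝ) / 11 with hl
  have hMr : (0 : ℝ) < M := by exact_mod_cast hM0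
  have hl0 : 0 < l := by positivity
  have hMl : (M : ℝ) / l = 11 / 5 := by rw [hl]; field_simp
  -- the finite set of heights
  set Y : Finset (Fin T → ℤ) := Fintype.piFinset (fun _ => Finset.Ico (-(M : ℤ)) M) with hY
  have hYcard : (Y.card : ℝ) = ((2 * M : ℕ) : ℝ) ^ T := by
    rw [hY, Fintype.card_piFinset]
    simp only [Int.card_Ico, Finset.prod_const, Finset.card_univ, Fintype.card_fin]
    rw [show ((M : ℤ) - -(M : ℤ)).toNat = 2 * M by omega]
    push_cast; rfl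
  let yc : (Fin T → ℤ) → (Fin T → ℝ) := fun y i => (y i : ℝ)
  let Vy : (Fin T → ℤ) → ℝ := fun y => l ^ N * ψ * Real.exp (-(∑ i, ((y i : ℝ) / l) ^ 2) / 2)
  let Ay : (Fin T → ℤ) → Set (Fin N → ℝ) := fun y => sec (l • Q) (yc y)
  have hAy : ∀ y, Ay y = l • sec Q (l⁻¹ • yc y) := fun y => sec_smul hl0 Q (yc y)
  have hYmem : ∀ y ∈ Y, ∀ i, |(l⁻¹ • yc y) i| ≤ 11 / 5 := by
    intro y hy i
    rw [hY, Fintype.mem_piFinset] at hy
    have h3 := Finset.mem_Ico.1 (hy i)
    have h4 : |(y i : ℝ)| ≤ M := by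
      rw [abs_le]
      exact ⟨by exact_mod_cast h3.1, by exact_mod_cast h3.2.le⟩
    have h5 : (l⁻¹ • yc y) i = (y i : ℝ) / l := by
      simp only [Pi.smul_apply, smul_eq_mul, yc]; ring
    rw [h5, abs_div, abs_of_pos hl0, ← hMl]
    gcongr
  have hstepY : ∀ y ∈ Y, (uncCount d (red p) (zpts (Ay y)) : ℝ) / (p : ℝ) ^ (d * (N + 1)) ≤
      4 * Real.exp (-(Vy y / (p : ℝ) ^ d)) := by
    intro y hy
    have hyb := hYmem y hy
    obtain ⟨hcube, hdiam⟩ := hb _ hyb
    refine hstep d N p hN4 hN₁ hpl.le hpu (Ay y) (Vy y) (l * (1 / (4 * N))) (4 * l)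
      (sec_convex (hQconv.smul l) _) (sec_compact (hQc.smul l) _) ?_ ?_ (by positivity) ?_ ?_ ?_ ?_ ?_
    · rw [hAy]; exact hasCube_smul hl0 hcube
    · intro z hz z' hz' i
      rw [hAy, Set.mem_smul_set_iff_inv_smul_mem₀ hl0.ne'] at hz hz'
      have h3 := hdiam _ hz _ hz' i
      simp only [Pi.smul_apply, smul_eq_mul] at h3
      rw [← mul_sub, abs_mul, abs_of_pos (inv_pos.2 hl0), inv_mul_le_iff₀ hl0] at h3
      linarith
    · rw [mul_one_div, le_div_iff₀ (by positivity)]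
      calc (N : ℝ) ^ 8 * (4 * N) = 4 * (N : ℝ) ^ 9 := by ring
        _ ≤ l := hM3
    · exact hM4
    · refine (section_low hc hx0 hx1 hnNT hTN hN100 h32 hψlow hl0).trans ?_
      simp only [Vy]
      gcongr
      have h3 : ∀ i ∈ (Finset.univ : Finset (Fin T)), ((y i : ℝ) / l) ^ 2 ≤ 121 / 25 := by
        intro i _
        have h5 : (l⁻¹ • yc y) i = (y i : ℝ) / l := by
          simp only [Pi.smul_apply, smul_eq_mul, yc]; ring
        have h6 := hyb i
        rw [h5] at h6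
        calc ((y i : ℝ) / l) ^ 2 = |(y i : ℝ) / l| ^ 2 := (sq_abs _).symm
          _ ≤ (11 / 5) ^ 2 := by gcongr
          _ = 121 / 25 := by norm_num
      refine (Finset.sum_le_sum h3).trans (le_of_eq ?_)
      simp
    · -- V y ≤ vol
      rw [hAy, volume_smul_real _ hl0]
      have h3 := hvol (l⁻¹ • yc y) (fun i => (hyb i).trans (by norm_num))
      simp only [Vy]
      rw [mul_assoc]
      gcongr
      refine le_trans (le_of_eq ?_) h3
      rw [hψ]
      have h5 : ∀ i, (l⁻¹ • yc y) i = (y i : ℝ) / l := by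
        intro i; simp only [Pi.smul_apply, smul_eq_mul, yc]; ring
      simp only [h5]
      ring
    · -- V y ≤ c₁ N p^d
      have h3 : Vy y ≤ l ^ N * ψ := by
        simp only [Vy]
        have h4 : Real.exp (-(∑ i, ((y i : ℝ) / l) ^ 2) / 2) ≤ 1 := by
          rw [Real.exp_le_one_iff]
          have : 0 ≤ ∑ i, ((y i : ℝ) / l) ^ 2 := Finset.sum_nonneg fun i _ => sq_nonneg _
          linarith
        have h5 : 0 ≤ l ^ N * ψ := by positivity
        calc l ^ N * ψ * Real.exp (-(∑ i, ((y i : ℝ) / l) ^ 2) / 2) ≤ l ^ N * ψ * 1 := by gcongr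
          _ = _ := mul_one _
      refine h3.trans (hM1.trans ?_)
      have : c₁ ≤ c₁' := min_le_left _ _
      gcongr
  obtain ⟨W, hW⟩ := choose_W Y (fun y => zpts (Ay y)) (fun y => Real.exp (-(Vy y / (p : ℝ) ^ d)))
    (fun y _ => Real.exp_pos _) hstepY
  -- doubling
  set D₀ : ℝ := l ^ N * ψ / (p : ℝ) ^ d with hD₀
  have hD₀low : c₁ * N / 2 ≤ D₀ := by
    rw [hD₀, le_div_iff₀ (by positivity)]
    calc c₁ * N / 2 * (p : ℝ) ^ d = c₁ * N * (p : ℝ) ^ d / 2 := by ring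
      _ ≤ _ := hM2
  have hGcard : (Fintype.card (Fin d → ZMod p) : ℝ) = (p : ℝ) ^ d := by
    rw [Fintype.card_fun, ZMod.card, Fintype.card_fin]; push_cast; rfl
  have hdoub : ∀ y : Fin T → ℤ, (∀ i, 0 ≤ y i ∧ y i < M) →
      (((2 * M : ℕ) : ℝ) ^ T) ^ (2 ^ T) *
        (∏ v : Fin T → Fin 2, ((unc W (zpts (Ay (fun i => y i - M * (v i : ℕ))))).card : ℝ) /
          Fintype.card (Fin d → ZMod p)) * Fintype.card (Fin d → ZMod p) < 1 := by
    intro y hy
    rw [hGcard]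
    have hmem : ∀ v : Fin T → Fin 2, (fun i => y i - M * (v i : ℕ)) ∈ Y := by
      intro v
      rw [hY, Fintype.mem_piFinset]
      intro i
      have h3 := hy i
      have h4 : ((v i : ℕ) : ℤ) = 0 ∨ ((v i : ℕ) : ℤ) = 1 := by
        have := (v i).2; omega
      rw [Finset.mem_Ico]
      rcases h4 with h4 | h4 <;> rw [h4] <;> omega
    have hprod : ∏ v : Fin T → Fin 2,
        ((unc W (zpts (Ay (fun i => y i - M * (v i : ℕ))))).card : ℝ) / (p : ℝ) ^ d ≤
        (8 * ((2 * M : ℕ) : ℝ) ^ T) ^ (2 ^ T) * Real.exp (-(D₀ * phi ^ T)) := by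
      have h3 : ∏ v : Fin T → Fin 2,
          ((unc W (zpts (Ay (fun i => y i - M * (v i : ℕ))))).card : ℝ) / (p : ℝ) ^ d ≤
          ∏ v : Fin T → Fin 2, (8 * ((2 * M : ℕ) : ℝ) ^ T *
            Real.exp (-(Vy (fun i => y i - M * (v i : ℕ)) / (p : ℝ) ^ d))) := by
        refine Finset.prod_le_prod (fun v _ => by positivity) fun v _ => ?_
        have := hW _ (hmem v)
        rw [hYcard] at this
        exact this
      refine h3.trans ?_
      rw [Finset.prod_mul_distrib, Finset.prod_const, Finset.card_univ, Fintype.card_fun,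
        Fintype.card_fin, Fintype.card_fin, ← Real.exp_sum]
      gcongr
      rw [Finset.sum_neg_distrib]
      apply neg_le_neg
      have h4 : ∀ v : Fin T → Fin 2, Vy (fun i => y i - M * (v i : ℕ)) / (p : ℝ) ^ d =
          D₀ * Real.exp (-(∑ i, ((((y i - M * (v i : ℕ) : ℤ) : ℝ)) / l) ^ 2) / 2) := by
        intro v
        simp only [Vy, hD₀]
        ring
      simp_rw [h4]
      rw [← Finset.mul_sum, sum_cube]
      have hD₀0 : 0 ≤ D₀ := by positivity
      gcongr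
      have e0 : phi ^ T = ∏ _i : Fin T, phi := by simp
      rw [e0]
      refine Finset.prod_le_prod (fun i _ => phi_pos.le) fun i _ => ?_
      have h5 : ((M : ℝ)) / l = 11 / 5 := hMl
      have h6 := phi_min ((y i : ℝ) / l) (by
        have := (hy i).1
        have : (0 : ℝ) ≤ y i := by exact_mod_cast this
        positivity) (by
        rw [← h5]
        have := (hy i).2.le
        have : (y i : ℝ) ≤ M := by exact_mod_cast this
        gcongr)
      rw [← h5, ← sub_div] at h6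
      exact h6
    refine lt_of_le_of_lt ?_ (doubling_numerics (d := d) hc₁ hA2 hnNT hN4 hTN hN100 hM0 hD₀low hphi1
      h2T hM5 hpp.pos hpu)
    gcongr
  obtain ⟨a, ha⟩ := doubling T M hM0 (fun y => unc W (zpts (Ay y))) hdoub
  -- covering
  obtain ⟨Λ, i1, i2, hcov, hdens⟩ := lattice_cover hnNT hM0 K L x₀ Q hQ (l + n) (by positivity) W a (by
    intro cc y hy
    obtain ⟨v, hv⟩ := ha y hy cc
    rw [mem_unc] at hv
    push Not at hv
    obtain ⟨z, hz, hz2⟩ := hv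
    refine ⟨fun i => ((v i : ℕ) : ℤ), z, ?_, ?_⟩
    · rw [hz2]; abel
    · intro u u' hu hu'
      have h3 : ((fun i => (z i : ℝ)), yc (fun i => y i - M * (v i : ℕ))) ∈ l • Q := hz
      exact cube_in hQconv h0 h1 h2 hnNT hn0 hl0 h3 u u' hu hu')
  refine ⟨Λ, i1, i2, hcov, ?_⟩
  rw [hdens]
  refine density_numerics (by positivity) hc hc₁ hx0 hV0 hnNT hTN hN100 hM0 hpp.pos hψ hM1 hM3 ?_ hphi2
  have h3 := exponent_num
  have h4 : x / (11 / 5) = (1001 / 1000 : ℝ) * √(2 * Real.pi) / (11 / 5) := by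
    rw [hx]; norm_num
  rw [h4]
  exact h3

theorem main : ∃ C : ℝ, 0 < C ∧ ∃ n₀ : ℕ, ∀ n : ℕ, n₀ ≤ n → ∀ K : Set (Fin n → ℝ), Convex ℝ K →
    IsCompact K → (interior K).Nonempty →
    thetaL K ≤ C * n * (Real.log n) ^ ((8 : ℝ) / 5) := by
  obtain ⟨C, hC, n₀, h⟩ := main_cover
  refine ⟨C, hC, n₀, fun n hn K hK hKc hKi => ?_⟩
  obtain ⟨Λ, i1, i2, hcov, hdens⟩ := h n hn K hK hKc hKi
  refine le_trans (csInf_le ⟨0, ?_⟩ ⟨Λ, i1, i2, hcov, rfl⟩) hdens
  rintro θ ⟨Λ', j1, j2, -, rfl⟩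
  exact div_nonneg ENNReal.toReal_nonneg (ZLattice.covolume_pos Λ').le

end Vale.P230
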