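import Vale.Agent.Lib.P230.ParamsV2

/-! P230: choice of the scale and final numerics for the exponent `13/10`. -/

open Real

namespace Vale.P230

theorem scale_numericsV2 {c c₁ ψ x E : ℝ} {N d T n p : ℕ} (hc : 0 < c) (hc₁ : 0 < c₁) (hc₁1 : c₁ ≤ 1)
    (hx : 0 < x) (hx1 : x ≤ 2.6) (hn : n = N + T) (hd : N = 4 * d) (hTN : T ≤ N) (hN : 100 ≤ N)
    (hc1N : 1 ≤ c₁ * N) (h32 : (32 : ℝ) ^ T ≤ c * 2 ^ N) (hp1 : N ^ 40 ≤ p) (hp2 : p ≤ 2 * N ^ 40)
    (hψ : c * (x⁻¹) ^ T * (1 / (n : ℝ)) ^ n ≤ ψ) (hψ8 : ψ ≤ 8 ^ N) (hE1 : 1 ≤ E)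
    (hE2 : E ≤ 2 ^ T) :
    ∃ M : ℕ, 0 < M ∧ (5 * (M : ℝ) / 11) ^ N * ψ ≤ c₁ * N * E * (p : ℝ) ^ d ∧
      c₁ * N * E * (p : ℝ) ^ d / 2 ≤ (5 * (M : ℝ) / 11) ^ N * ψ ∧
      4 * (N : ℝ) ^ 9 ≤ 5 * (M : ℝ) / 11 ∧ 16 * (4 * (5 * (M : ℝ) / 11)) ^ 2 < p ∧
      2 * M ≤ N ^ 20 := by
  have hNr : (100 : ℝ) ≤ N := by exact_mod_cast hN
  have hN0 : (0 : ℝ) < N := by linarith
  have hNne : N ≠ 0 := by omega
  have hn0 : (0 : ℝ) < n := by
    have : 0 < n := by omega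
    exact_mod_cast this
  have hψ0 : 0 < ψ := lt_of_lt_of_le (by positivity) hψ
  have hp0 : (0 : ℝ) < p := by
    have : 0 < p := lt_of_lt_of_le (by positivity) hp1
    exact_mod_cast this
  set P : ℝ := (p : ℝ) ^ d with hP
  have hPpos : 0 < P := by positivity
  have hPlow : (N : ℝ) ^ (10 * N) ≤ P := by
    have : ((N : ℝ) ^ 40) ^ d ≤ P := by
      rw [hP]; gcongr; exact_mod_cast hp1
    refine le_trans (le_of_eq ?_) this
    rw [← pow_mul]; congr 1; omega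
  have hE0 : 0 < E := by linarith
  have hE3 : E ≤ 2 ^ N := hE2.trans (pow_le_pow_right₀ (by norm_num) hTN)
  set Z : ℝ := c₁ * N * E * P / ψ with hZ
  have hZ0 : 0 < Z := by positivity
  set lam : ℝ := Z ^ ((1 : ℝ) / N) with hlam
  have hlam0 : 0 < lam := Real.rpow_pos_of_pos hZ0 _
  have hlamN : lam ^ N = Z := by
    rw [hlam, ← Real.rpow_natCast, ← Real.rpow_mul hZ0.le]
    rw [one_div, inv_mul_cancel₀ (by exact_mod_cast hNne), Real.rpow_one]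
  -- lower bound
  have hlow : 12 * (N : ℝ) ^ 9 ≤ lam := by
    refine le_of_pow_le_pow_left₀ hNne hlam0.le ?_
    rw [hlamN, hZ, le_div_iff₀ hψ0]
    calc (12 * (N : ℝ) ^ 9) ^ N * ψ ≤ (12 * (N : ℝ) ^ 9) ^ N * 8 ^ N := by gcongr
      _ = (96 : ℝ) ^ N * (N : ℝ) ^ (9 * N) := by
          rw [mul_pow, ← pow_mul, mul_right_comm, ← mul_pow]; norm_num
      _ ≤ (N : ℝ) ^ N * (N : ℝ) ^ (9 * N) := by gcongr; linarith
      _ = (N : ℝ) ^ (10 * N) := by rw [← pow_add]; congr 1; ring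
      _ ≤ 1 * 1 * P := by rw [one_mul, one_mul]; exact hPlow
      _ ≤ c₁ * N * E * P := by gcongr
  -- upper bound
  have hxT : x ^ T ≤ c * 2 ^ N := by
    refine le_trans ?_ h32
    gcongr; linarith
  have hinv : (1 / ψ) ≤ 2 ^ N * (n : ℝ) ^ n := by
    rw [div_le_iff₀ hψ0]
    have h1 : c * (x⁻¹) ^ T * (1 / (n : ℝ)) ^ n * (2 ^ N * (n : ℝ) ^ n) ≤
        ψ * (2 ^ N * (n : ℝ) ^ n) := by gcongr
    have h2 : c * (x⁻¹) ^ T * (1 / (n : ℝ)) ^ n * (2 ^ N * (n : ℝ) ^ n) = (c * 2 ^ N) / x ^ T := by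
      rw [inv_pow, one_div, inv_pow]
      field_simp
    rw [h2] at h1
    have h3 : 1 ≤ (c * 2 ^ N) / x ^ T := by
      rw [one_le_div (by positivity)]; exact hxT
    linarith
  have hnn : (n : ℝ) ^ n ≤ 4 ^ N * (N : ℝ) ^ (2 * N) := by
    have h1 : (n : ℝ) ≤ 2 * N := by
      have : n ≤ 2 * N := by omega
      exact_mod_cast this
    calc (n : ℝ) ^ n ≤ (2 * (N : ℝ)) ^ n := by gcongr
      _ ≤ (2 * (N : ℝ)) ^ (2 * N) := by
          apply pow_le_pow_right₀ (by linarith) (by omega)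
      _ = 4 ^ N * (N : ℝ) ^ (2 * N) := by
          rw [mul_pow, pow_mul 2 2 N]; norm_num
  have h16 : 16 ^ N * Z < P ^ 2 := by
    have h1 : Z ≤ (N : ℝ) * 2 ^ N * P * (2 ^ N * (4 ^ N * (N : ℝ) ^ (2 * N))) := by
      calc Z = (c₁ * N * E * P) * (1 / ψ) := by rw [hZ]; ring
        _ ≤ (1 * N * 2 ^ N * P) * (2 ^ N * (n : ℝ) ^ n) := by gcongr
        _ ≤ (N : ℝ) * 2 ^ N * P * (2 ^ N * (4 ^ N * (N : ℝ) ^ (2 * N))) := by rw [one_mul]; gcongr
    have h2 : 16 ^ N * Z ≤ ((N : ℝ) * (256 ^ N * (N : ℝ) ^ (2 * N))) * P := by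
      calc 16 ^ N * Z ≤ 16 ^ N * ((N : ℝ) * 2 ^ N * P * (2 ^ N * (4 ^ N * (N : ℝ) ^ (2 * N)))) := by
            gcongr
        _ = ((N : ℝ) * ((16 * 2 * 2 * 4) ^ N * (N : ℝ) ^ (2 * N))) * P := by
            rw [mul_pow, mul_pow, mul_pow]; ring
        _ = _ := by norm_num
    have h3 : (N : ℝ) * (256 ^ N * (N : ℝ) ^ (2 * N)) < (N : ℝ) ^ (10 * N) := by
      have h128 : (256 : ℝ) ^ N ≤ (N : ℝ) ^ (2 * N) := by
        rw [pow_mul]; gcongr; nlinarith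
      calc (N : ℝ) * (256 ^ N * (N : ℝ) ^ (2 * N))
          ≤ (N : ℝ) ^ 1 * ((N : ℝ) ^ (2 * N) * (N : ℝ) ^ (2 * N)) := by rw [pow_one]; gcongr
        _ = (N : ℝ) ^ (1 + (2 * N + 2 * N)) := by rw [← pow_add, ← pow_add]
        _ < (N : ℝ) ^ (10 * N) := by
            apply pow_lt_pow_right₀ (by linarith) (by omega)
    calc 16 ^ N * Z ≤ ((N : ℝ) * (256 ^ N * (N : ℝ) ^ (2 * N))) * P := h2
      _ < (N : ℝ) ^ (10 * N) * P := by gcongr
      _ ≤ P * P := by gcongr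
      _ = P ^ 2 := by ring
  have hup : 256 * lam ^ 2 < p := by
    refine lt_of_pow_lt_pow_left₀ N hp0.le ?_
    have h1 : (256 * lam ^ 2) ^ N = (16 ^ N * Z) ^ 2 := by
      rw [← hlamN, mul_pow, mul_pow, ← pow_mul, ← pow_mul, ← pow_mul, mul_comm 2 N,
        mul_comm N 2, pow_mul 16 2 N]
      norm_num
    have h2 : (p : ℝ) ^ N = (P ^ 2) ^ 2 := by
      rw [hP, ← pow_mul, ← pow_mul]; congr 1; omega
    rw [h1, h2]
    gcongr
  set M : ℕ := ⌊(11 / 5) * lam⌋₊ with hM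
  have hM1 : (M : ℝ) ≤ (11 / 5) * lam := Nat.floor_le (by positivity)
  have hM2 : (11 / 5) * lam < M + 1 := Nat.lt_floor_add_one _
  have hN9 : (1 : ℝ) ≤ (N : ℝ) ^ 9 := one_le_pow₀ (by linarith)
  have hN98 : (N : ℝ) ≤ (N : ℝ) ^ 9 := by
    calc (N : ℝ) = (N : ℝ) ^ 1 := (pow_one _).symm
      _ ≤ _ := pow_le_pow_right₀ (by linarith) (by norm_num)
  have hlM : 5 * (M : ℝ) / 11 ≤ lam := by linarith
  have hlM2 : lam - 5 / 11 ≤ 5 * (M : ℝ) / 11 := by linarith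
  have hMpos : 0 < M := by
    have : (0 : ℝ) < M := by linarith
    exact_mod_cast this
  refine ⟨M, hMpos, ?_, ?_, ?_, ?_, ?_⟩
  · calc (5 * (M : ℝ) / 11) ^ N * ψ ≤ lam ^ N * ψ := by gcongr
      _ = c₁ * N * E * P := by rw [hlamN, hZ]; field_simp
  · have h1 : (1 : ℝ) / 2 ≤ (1 + -(5 / 11 / lam)) ^ N := by
      have h2 : 1 + (N : ℝ) * -(5 / 11 / lam) ≤ (1 + -(5 / 11 / lam)) ^ N := by
        apply one_add_mul_le_pow
        have : 5 / 11 / lam ≤ 1 := by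
          rw [div_le_one hlam0]; linarith
        linarith
      refine le_trans ?_ h2
      have h3 : (N : ℝ) * (5 / 11 / lam) ≤ 1 / 2 := by
        rw [div_div, mul_div_assoc', div_le_iff₀ (by positivity)]
        linarith
      linarith
    have h4 : lam - 5 / 11 = lam * (1 + -(5 / 11 / lam)) := by field_simp; ring
    have h5 : lam ^ N * (1 / 2) ≤ (5 * (M : ℝ) / 11) ^ N := by
      calc lam ^ N * (1 / 2) ≤ lam ^ N * (1 + -(5 / 11 / lam)) ^ N := by gcongr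
        _ = (lam - 5 / 11) ^ N := by rw [h4, mul_pow]
        _ ≤ _ := by
          gcongr
          linarith
    calc c₁ * N * E * P / 2 = lam ^ N * (1 / 2) * ψ := by rw [hlamN, hZ]; field_simp
      _ ≤ _ := by gcongr
  · linarith
  · calc 16 * (4 * (5 * (M : ℝ) / 11)) ^ 2 ≤ 16 * (4 * lam) ^ 2 := by gcongr
      _ = 256 * lam ^ 2 := by ring
      _ < p := hup
  · have h1 : lam ≤ (N : ℝ) ^ 20 / 11 := by
      refine le_of_pow_le_pow_left₀ two_ne_zero (by positivity) ?_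
      have hp2' : (p : ℝ) ≤ 2 * (N : ℝ) ^ 40 := by exact_mod_cast hp2
      have e : ((N : ℝ) ^ 20 / 11) ^ 2 = (N : ℝ) ^ 40 / 121 := by
        rw [div_pow, ← pow_mul]; norm_num
      rw [e]
      have : (0 : ℝ) < (N : ℝ) ^ 40 := by positivity
      linarith
    have h2 : (2 * M : ℝ) ≤ (N : ℝ) ^ 20 := by
      have : (0 : ℝ) < (N : ℝ) ^ 20 := by positivity
      linarith
    exact_mod_cast h2


theorem doubling_numericsV2 {A c₁ D : ℝ} {N d T n p M : ℕ} (hc₁ : 0 < c₁) (hA : 39 / c₁ ≤ A)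
    (hn : n = N + T) (hd : N = 4 * d) (hTN : T ≤ N) (hN : 100 ≤ N) (hM : 0 < M)
    (hD : c₁ * N / 3 * rr ^ T ≤ D) (hrr : A * Real.log n ≤ rr ^ T)
    (h2T : (2 : ℝ) ^ T * (3 + 2 * T * (20 * Real.log n)) ≤ n)
    (hM2 : 2 * M ≤ N ^ 20) (hp0 : 0 < p) (hp2 : p ≤ 2 * N ^ 40) :
    (((2 * M : ℕ) : ℝ) ^ T) ^ (2 ^ T) * ((8 * ((2 * M : ℕ) : ℝ) ^ T) ^ (2 ^ T) *
      Real.exp (-D)) * (p : ℝ) ^ d < 1 := by
  have hNr : (100 : ℝ) ≤ N := by exact_mod_cast hN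
  have hN0 : (0 : ℝ) < N := by linarith
  have hnN : (N : ℝ) ≤ n := by
    have : N ≤ n := by omega
    exact_mod_cast this
  have hn0 : (0 : ℝ) < n := by linarith
  have hn2 : (n : ℝ) ≤ 2 * N := by
    have : n ≤ 2 * N := by omega
    exact_mod_cast this
  set L := Real.log n with hL
  have hL1 : 4 ≤ L := by
    rw [hL, Real.le_log_iff_exp_le hn0]
    have h1 : Real.exp 4 = Real.exp 1 ^ 4 := by rw [← Real.exp_nat_mul]; norm_num
    rw [h1]
    calc Real.exp 1 ^ 4 ≤ 2.7182818286 ^ 4 := by gcongr; exact Real.exp_one_lt_d9.le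
      _ ≤ 100 := by norm_num
      _ ≤ n := by linarith
  have hlogN : Real.log N ≤ L := Real.log_le_log hN0 hnN
  have hMr : (((2 * M : ℕ) : ℝ)) ≤ Real.exp (20 * L) := by
    have h1 : (((2 * M : ℕ) : ℝ)) ≤ (N : ℝ) ^ 20 := by exact_mod_cast hM2
    refine h1.trans ?_
    calc (N : ℝ) ^ 20 = Real.exp (20 * Real.log N) := by
          rw [show (20 : ℝ) * Real.log N = ((20 : ℕ) : ℝ) * Real.log N by norm_num,
            Real.exp_nat_mul, Real.exp_log hN0]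
      _ ≤ Real.exp (20 * L) := by gcongr
  have h8 : (8 : ℝ) ≤ Real.exp 3 := by
    have h1 : Real.exp 3 = Real.exp 1 ^ 3 := by rw [← Real.exp_nat_mul]; norm_num
    rw [h1]
    calc (8 : ℝ) ≤ 2.7182818283 ^ 3 := by norm_num
      _ ≤ Real.exp 1 ^ 3 := by gcongr; exact Real.exp_one_gt_d9.le
  have hMT : (((2 * M : ℕ) : ℝ)) ^ T ≤ Real.exp (T * (20 * L)) := by
    rw [Real.exp_nat_mul]; gcongr
  have hpd : (p : ℝ) ^ d ≤ Real.exp (11 * N * L) := by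
    have h1 : (p : ℝ) ≤ 2 * (N : ℝ) ^ 40 := by exact_mod_cast hp2
    have h2 : (p : ℝ) ≤ Real.exp (41 * L) := by
      have h3 : (2 : ℝ) * (N : ℝ) ^ 40 ≤ (N : ℝ) ^ 41 := by
        rw [pow_succ' (N : ℝ) 40]; gcongr; linarith
      refine h1.trans (h3.trans ?_)
      calc (N : ℝ) ^ 41 = Real.exp (41 * Real.log N) := by
            rw [show (41 : ℝ) * Real.log N = ((41 : ℕ) : ℝ) * Real.log N by norm_num,
              Real.exp_nat_mul, Real.exp_log hN0]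
        _ ≤ Real.exp (41 * L) := by gcongr
    calc (p : ℝ) ^ d ≤ (Real.exp (41 * L)) ^ d := by gcongr
      _ = Real.exp (d * (41 * L)) := by rw [← Real.exp_nat_mul]
      _ ≤ Real.exp (11 * N * L) := by
          apply Real.exp_le_exp.2
          have : (N : ℝ) = 4 * d := by exact_mod_cast hd
          have hd0 : (0 : ℝ) ≤ d := Nat.cast_nonneg _
          rw [this]; nlinarith [mul_nonneg hd0 (by linarith : (0 : ℝ) ≤ L)]
  have hT0 : (0 : ℝ) ≤ T := Nat.cast_nonneg _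
  have key : (((2 * M : ℕ) : ℝ) ^ T) ^ (2 ^ T) * ((8 * ((2 * M : ℕ) : ℝ) ^ T) ^ (2 ^ T) *
      Real.exp (-D)) * (p : ℝ) ^ d ≤
      Real.exp ((2 : ℝ) ^ T * (3 + 2 * T * (20 * L)) + 11 * N * L - D) := by
    have e : Real.exp ((2 : ℝ) ^ T * (3 + 2 * T * (20 * L)) + 11 * N * L - D) =
        (Real.exp (T * (20 * L))) ^ (2 ^ T) * ((Real.exp 3 * Real.exp (T * (20 * L))) ^ (2 ^ T) *
          Real.exp (-D)) * Real.exp (11 * N * L) := by
      rw [← Real.exp_add, ← Real.exp_nat_mul, ← Real.exp_nat_mul, ← Real.exp_add, ← Real.exp_add,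
        ← Real.exp_add]
      congr 1
      push_cast
      ring
    rw [e]
    gcongr
  refine lt_of_le_of_lt key ?_
  rw [Real.exp_lt_one_iff]
  have h1 : 13 * N * L ≤ D := by
    calc 13 * N * L = (c₁ * N / 3) * (39 / c₁ * L) := by field_simp; ring
      _ ≤ (c₁ * N / 3) * (A * L) := by gcongr
      _ ≤ (c₁ * N / 3) * rr ^ T := by gcongr
      _ ≤ D := hD
  nlinarith

theorem density_numericsV2 {A c c₁ x ψ V E : ℝ} {N d T n p M : ℕ} (hA : 0 < A) (hc : 0 < c)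
    (hc₁ : 0 < c₁) (hx : 0 < x) (hV : 0 < V) (hE : E = (rr / phi) ^ T)
    (hn : n = N + T) (hTN : T ≤ N) (hN : 100 ≤ N) (hM : 0 < M) (hp0 : 0 < p)
    (hψ : ψ = c * (x⁻¹) ^ T * V)
    (hM1 : (5 * (M : ℝ) / 11) ^ N * ψ ≤ c₁ * N * E * (p : ℝ) ^ d)
    (hl : 4 * (N : ℝ) ^ 9 ≤ 5 * (M : ℝ) / 11)
    (hx8 : (rr / phi) * (x / (11 / 5)) ≤ rr ^ ((13 : ℝ) / 10))
    (hrr : rr ^ T ≤ 3 * (A * Real.log n)) :
    (5 * (M : ℝ) / 11 + n) ^ n * V / ((M : ℝ) ^ T * (p : ℝ) ^ d) ≤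
      (3 * c₁ / c * (3 * A) ^ ((13 : ℝ) / 10)) * n * (Real.log n) ^ ((13 : ℝ) / 10) := by
  have hNr : (100 : ℝ) ≤ N := by exact_mod_cast hN
  have hN0 : (0 : ℝ) < N := by linarith
  have hnN : (N : ℝ) ≤ n := by
    have : N ≤ n := by omega
    exact_mod_cast this
  have hn0 : (0 : ℝ) < n := by linarith
  have hn2 : (n : ℝ) ≤ 2 * N := by
    have : n ≤ 2 * N := by omega
    exact_mod_cast this
  have hMr : (0 : ℝ) < M := by exact_mod_cast hM
  have hpr : (0 : ℝ) < p := by exact_mod_cast hp0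
  set l := 5 * (M : ℝ) / 11 with hldef
  have hlpos : 0 < l := by positivity
  -- (l+n)^n ≤ 3 l^n
  have h1 : (l + n) ^ n ≤ 3 * l ^ n := by
    have h2 : n ^ 2 / l ≤ (1 : ℝ) := by
      rw [div_le_one hlpos]
      refine le_trans ?_ hl
      have h3 : (n : ℝ) ^ 2 ≤ (2 * N) ^ 2 := by gcongr
      have h4 : (N : ℝ) ^ 2 ≤ (N : ℝ) ^ 9 := pow_le_pow_right₀ (by linarith) (by norm_num)
      nlinarith
    have h3 : (1 + n / l) ≤ Real.exp (n / l) := by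
      have := Real.add_one_le_exp ((n : ℝ) / l); linarith
    calc (l + n) ^ n = l ^ n * (1 + n / l) ^ n := by
          rw [← mul_pow]; congr 1; field_simp
      _ ≤ l ^ n * (Real.exp (n / l)) ^ n := by gcongr
      _ = l ^ n * Real.exp (n ^ 2 / l) := by
          rw [← Real.exp_nat_mul]; congr 2; ring
      _ ≤ l ^ n * Real.exp 1 := by gcongr
      _ ≤ l ^ n * 3 := by
          gcongr
          have := Real.exp_one_lt_d9; linarith
      _ = 3 * l ^ n := by ring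
  have hxT : 0 < x ^ T := by positivity
  have hVψ : V = ψ * x ^ T / c := by
    rw [hψ, inv_pow]; field_simp
  have hphi0 : 0 < phi := phi_pos
  have hrr0 : 0 < rr := rr_pos
  have hE0 : 0 < E := by rw [hE]; positivity
  calc (l + n) ^ n * V / ((M : ℝ) ^ T * (p : ℝ) ^ d)
      ≤ (3 * l ^ n) * V / ((M : ℝ) ^ T * (p : ℝ) ^ d) := by gcongr
    _ = 3 / c * ((l ^ N * ψ) / (p : ℝ) ^ d) * (x / (11 / 5)) ^ T := by
        rw [hn, pow_add, hVψ]
        have e1 : l ^ T = (5 / 11 : ℝ) ^ T * (M : ℝ) ^ T := by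
          rw [← mul_pow]; congr 1; rw [hldef]; ring
        have e2 : (x / (11 / 5)) ^ T = x ^ T * (5 / 11 : ℝ) ^ T := by
          rw [← mul_pow]; congr 1; ring
        rw [e1, e2]
        field_simp
    _ ≤ 3 / c * (c₁ * N * E) * (x / (11 / 5)) ^ T := by
        have h5 : (l ^ N * ψ) / (p : ℝ) ^ d ≤ c₁ * N * E := by
          rw [div_le_iff₀ (by positivity)]; exact hM1
        have h8 : 0 ≤ (x / (11 / 5)) ^ T := by positivity
        gcongr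
    _ = 3 / c * (c₁ * N) * ((rr / phi) * (x / (11 / 5))) ^ T := by
        rw [hE, mul_pow]; ring
    _ ≤ 3 / c * (c₁ * N) * (rr ^ ((13 : ℝ) / 10)) ^ T := by
        gcongr
    _ = 3 / c * (c₁ * N) * (rr ^ T) ^ ((13 : ℝ) / 10) := by
        congr 1
        rw [← Real.rpow_natCast, ← Real.rpow_natCast, ← Real.rpow_mul hrr0.le,
          ← Real.rpow_mul hrr0.le, mul_comm]
    _ ≤ 3 / c * (c₁ * n) * (3 * (A * Real.log n)) ^ ((13 : ℝ) / 10) := by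
        gcongr
    _ = (3 * c₁ / c * (3 * A) ^ ((13 : ℝ) / 10)) * n * (Real.log n) ^ ((13 : ℝ) / 10) := by
        have hL : 0 ≤ Real.log n := Real.log_nonneg (by linarith)
        rw [← mul_assoc 3 A, Real.mul_rpow (by positivity) hL]
        ring

end Vale.P230
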