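import Mathlib

/-!
# P230, module NumPhi: two numerical inequalities.
-/

namespace Vale.P230

theorem cosh_lower (r : ℝ) : 1 + r ^ 2 / 2 + r ^ 4 / 24 + r ^ 6 / 720 ≤ Real.cosh r := by
  have h := Real.hasSum_cosh r
  have h2 := sum_le_hasSum (Finset.range 4) (fun i _ => div_nonneg (Even.pow_nonneg (even_two_mul i) r) (by positivity)) h
  have h3 : ∑ i ∈ Finset.range 4, r ^ (2 * i) / ((2 * i).factorial : ℝ)
      = 1 + r ^ 2 / 2 + r ^ 4 / 24 + r ^ 6 / 720 := by
    simp [Finset.sum_range_succ, Nat.factorial]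
  rw [h3] at h2
  exact h2

/-- MODULE NumPhi (file NumPhi.lean): the one-dimensional inequality. -/
theorem phi_min (y : ℝ) (h0 : 0 ≤ y) (h1 : y ≤ 11 / 5) :
    (1087 : ℝ) / 1000 ≤ Real.exp (-(y ^ 2) / 2) + Real.exp (-((y - 11 / 5) ^ 2) / 2) := by
  set s : ℝ := y - 11 / 10 with hs
  set u : ℝ := s ^ 2 with hu
  have hu0 : 0 ≤ u := sq_nonneg _
  have hu1 : u ≤ 121 / 100 := by
    rw [hu, hs]; nlinarith
  have hy : y = s + 11 / 10 := by rw [hs]; ring
  have e1 : Real.exp (-(y ^ 2) / 2) + Real.exp (-((y - 11 / 5) ^ 2) / 2)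
      = 2 * Real.exp (-(605 / 1000 + u / 2)) * Real.cosh (11 / 10 * s) := by
    rw [Real.cosh_eq]
    have a1 : -(y ^ 2) / 2 = -(605 / 1000 + u / 2) + -(11 / 10 * s) := by rw [hy, hu]; ring
    have a2 : -((y - 11 / 5) ^ 2) / 2 = -(605 / 1000 + u / 2) + 11 / 10 * s := by
      rw [hy, hu]; ring
    rw [a1, a2, Real.exp_add, Real.exp_add]
    ring
  rw [e1]
  have hc := cosh_lower (11 / 10 * s)
  have hc2 : 1 + (605 / 1000) * u + (610 / 10000) * u ^ 2 + (245 / 100000) * u ^ 3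
      ≤ Real.cosh (11 / 10 * s) := by
    refine le_trans ?_ hc
    have b2 : (11 / 10 * s) ^ 2 = 121 / 100 * u := by rw [hu]; ring
    have b4 : (11 / 10 * s) ^ 4 = (121 / 100) ^ 2 * u ^ 2 := by rw [hu]; ring
    have b6 : (11 / 10 * s) ^ 6 = (121 / 100) ^ 3 * u ^ 3 := by rw [hu]; ring
    rw [b2, b4, b6]
    have := pow_nonneg hu0 2
    have := pow_nonneg hu0 3
    nlinarith
  have hE : Real.exp (605 / 1000) ≤ 18313 / 10000 := by
    refine le_trans (Real.exp_bound' (by norm_num) (by norm_num) (n := 8) (by norm_num)) ?_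
    simp only [Finset.sum_range_succ, Finset.sum_range_zero, Nat.factorial]
    norm_num
  have hU : Real.exp (u / 2) ≤ 1 + u / 2 + u ^ 2 / 8 + u ^ 3 / 48 + u ^ 4 / 384 + u ^ 5 / 3200 := by
    refine le_trans (Real.exp_bound' (by positivity) (by linarith) (n := 5) (by norm_num)) ?_
    simp only [Finset.sum_range_succ, Finset.sum_range_zero, Nat.factorial]
    apply le_of_eq
    push_cast
    ring
  have hmain : (1087 : ℝ) / 1000 * (Real.exp (605 / 1000) * Real.exp (u / 2))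
      ≤ 2 * Real.cosh (11 / 10 * s) := by
    have q1 : Real.exp (605 / 1000) * Real.exp (u / 2) ≤ 18313 / 10000 *
        (1 + u / 2 + u ^ 2 / 8 + u ^ 3 / 48 + u ^ 4 / 384 + u ^ 5 / 3200) :=
      mul_le_mul hE hU (Real.exp_pos _).le (by norm_num)
    have p2 : u ^ 2 ≤ 121 / 100 * u := by nlinarith
    have p3 : u ^ 3 ≤ (121 / 100) ^ 2 * u := by
      have : u ^ 3 = u * u ^ 2 := by ring
      rw [this]; nlinarith
    have p4 : u ^ 4 ≤ (121 / 100) ^ 3 * u := by
      have : u ^ 4 = u * u ^ 3 := by ring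
      rw [this]; nlinarith
    have p5 : u ^ 5 ≤ (121 / 100) ^ 4 * u := by
      have : u ^ 5 = u * u ^ 4 := by ring
      rw [this]; nlinarith
    nlinarith
  have hinv : Real.exp (-(605 / 1000 + u / 2)) * (Real.exp (605 / 1000) * Real.exp (u / 2)) = 1 := by
    rw [← Real.exp_add, ← Real.exp_add]; simp
  have hpos := Real.exp_pos (-(605 / 1000 + u / 2))
  calc (1087 : ℝ) / 1000 = Real.exp (-(605 / 1000 + u / 2)) *
        ((1087 : ℝ) / 1000 * (Real.exp (605 / 1000) * Real.exp (u / 2))) := by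
          linear_combination (-(1087 : ℝ) / 1000) * hinv
    _ ≤ Real.exp (-(605 / 1000 + u / 2)) * (2 * Real.cosh (11 / 10 * s)) :=
        mul_le_mul_of_nonneg_left hmain hpos.le
    _ = 2 * Real.exp (-(605 / 1000 + u / 2)) * Real.cosh (11 / 10 * s) := by ring

/-- exponent numerics: with `x = 1.001 * √(2π) / 2.2` and `y = 1.087`: `x ≤ y^(8/5)`. -/
theorem exponent_num : (1001 / 1000 : ℝ) * √(2 * Real.pi) / (11 / 5) ≤ (1087 / 1000 : ℝ) ^ ((8 : ℝ) / 5) := by
  have hpi : √(2 * Real.pi) ≤ 250664 / 100000 := by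
    rw [Real.sqrt_le_left (by norm_num)]
    have := Real.pi_lt_d4
    nlinarith
  have h1 : (1001 / 1000 : ℝ) * √(2 * Real.pi) / (11 / 5) ≤ 11406 / 10000 := by
    have : (0:ℝ) ≤ √(2 * Real.pi) := Real.sqrt_nonneg _
    rw [div_le_iff₀ (by norm_num)]
    nlinarith
  refine h1.trans ?_
  have h2 : (11406 / 10000 : ℝ) = ((11406 / 10000 : ℝ) ^ (5 : ℕ)) ^ ((1 : ℝ) / 5) := by
    rw [← Real.rpow_natCast, ← Real.rpow_mul (by norm_num)]
    norm_num
  have h3 : (1087 / 1000 : ℝ) ^ ((8 : ℝ) / 5) = ((1087 / 1000 : ℝ) ^ (8 : ℕ)) ^ ((1 : ℝ) / 5) := by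
    rw [← Real.rpow_natCast, ← Real.rpow_mul (by norm_num)]
    norm_num
  rw [h2, h3]
  apply Real.rpow_le_rpow (by positivity) (by norm_num) (by norm_num)

end Vale.P230
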