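import Vale.Agent.Lib.P230.Defs

/-! P230: parameter choice (pure asymptotics). -/

open Filter Asymptotics Real

namespace Vale.P230

/-- the base `φ = 1.087` -/
noncomputable def phi : ℝ := 1087 / 1000

theorem phi_pos : 0 < phi := by unfold phi; norm_num
theorem one_lt_phi : 1 < phi := by unfold phi; norm_num
theorem phi_pow_nine : (2 : ℝ) ≤ phi ^ 9 := by unfold phi; norm_num
theorem phi_pow_four : phi ^ 4 ≤ 2 := by unfold phi; norm_num

/-- polylog is eventually small -/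
theorem polylog_small (A : ℝ) (k : ℕ) : ∀ᶠ x : ℝ in atTop, A * (Real.log x) ^ k ≤ x := by
  have h := isLittleO_pow_log_id_atTop (n := k)
  have h2 : (fun x : ℝ => A * Real.log x ^ k) =o[atTop] (fun x : ℝ => x) := h.const_mul_left A
  have h3 := h2.bound (show (0 : ℝ) < 1 by norm_num)
  filter_upwards [h3, eventually_ge_atTop 0] with x hx hx0
  rw [Real.norm_eq_abs, Real.norm_eq_abs, one_mul, abs_of_nonneg hx0] at hx
  exact (le_abs_self _).trans hx

theorem params (A c c₁ : ℝ) (hA : 1 ≤ A) (hc : 0 < c) (hc₁ : 0 < c₁) (N₀ : ℕ) :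
    ∃ n₀ : ℕ, ∀ n : ℕ, n₀ ≤ n → ∃ N d T : ℕ, n = N + T ∧ N = 4 * d ∧ N₀ ≤ N ∧ 0 < T ∧
      (T : ℝ) ^ 2 ≤ Real.log n ∧ A * Real.log n ≤ phi ^ T ∧ phi ^ T ≤ 2 * (A * Real.log n) ∧
      n ≤ 2 * N ∧ 1 ≤ c₁ * N ∧ (32 : ℝ) ^ T ≤ c * 2 ^ N ∧
      (2 : ℝ) ^ T * (3 + 2 * T * (20 * Real.log n)) ≤ n ∧ T ≤ N ∧ 100 ≤ N := by
  have e1 := polylog_small ((2 * A) ^ 18 * 43) 19
  have e2 := polylog_small (2 * (N₀ + 200 + 1 / c₁ + 10 + |Real.log c| / Real.log 2) ) 0
  have e3 : ∀ᶠ x : ℝ in atTop, ((4 * A) * x) ≤ Real.exp (Real.sqrt x / 12 - 1) := by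
    have h0 : Tendsto (fun x : ℝ => Real.sqrt x) atTop atTop := Real.tendsto_sqrt_atTop
    have h1 : ∀ᶠ y : ℝ in atTop, (4 * A) * y ^ 2 ≤ Real.exp (y / 12 - 1) := by
      have h2 := Real.tendsto_exp_div_pow_atTop 2
      have h3 : Tendsto (fun y : ℝ => Real.exp (y / 12) / (y / 12) ^ 2) atTop atTop :=
        h2.comp (tendsto_id.atTop_div_const (by norm_num))
      filter_upwards [h3.eventually_ge_atTop (4 * A * 144 * Real.exp 1), eventually_gt_atTop 0]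
        with y hy hy0
      rw [le_div_iff₀ (by positivity)] at hy
      rw [Real.exp_sub, le_div_iff₀ (Real.exp_pos 1)]
      calc 4 * A * y ^ 2 * Real.exp 1 = 4 * A * 144 * Real.exp 1 * (y / 12) ^ 2 := by ring
        _ ≤ _ := hy
    filter_upwards [h0.eventually h1, eventually_ge_atTop 0] with x hx hx0
    rwa [Real.sq_sqrt hx0] at hx
  have e4 := Real.tendsto_log_atTop.eventually e3
  have e5 := Real.tendsto_log_atTop.eventually_ge_atTop (100 : ℝ)
  have e6 := polylog_small 40 1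
  obtain ⟨x₀, hx₀⟩ := eventually_atTop.1 (e1.and (e2.and (e4.and (e5.and e6))))
  refine ⟨⌈max x₀ 1⌉₊, fun n hn => ?_⟩
  have hnx : x₀ ≤ (n : ℝ) := (le_max_left _ _).trans ((Nat.le_ceil _).trans (by exact_mod_cast hn))
  have hn1 : (1 : ℝ) ≤ n := (le_max_right _ _).trans ((Nat.le_ceil _).trans (by exact_mod_cast hn))
  obtain ⟨h1, h2, h4, h5, h6⟩ := hx₀ n hnx
  simp only [pow_zero, mul_one] at h2
  rw [pow_one] at h6
  set ℓ := Real.log n with hℓ
  have hℓ100 : (100 : ℝ) ≤ ℓ := h5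
  have hAℓ : 1 ≤ A * ℓ := by nlinarith
  have hlphi : 0 < Real.log phi := Real.log_pos one_lt_phi
  set T₀ := ⌈Real.log (A * ℓ) / Real.log phi⌉₊ with hT₀
  have hT0a : A * ℓ ≤ phi ^ T₀ := by
    have : Real.log (A * ℓ) ≤ T₀ * Real.log phi := by
      have := Nat.le_ceil (Real.log (A * ℓ) / Real.log phi)
      rwa [div_le_iff₀ hlphi] at this
    rw [← Real.log_pow] at this
    exact (Real.log_le_log_iff (by positivity) (pow_pos phi_pos _)).1 this
  have hT0b : phi ^ T₀ ≤ phi * (A * ℓ) := by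
    have h0 : 0 ≤ Real.log (A * ℓ) / Real.log phi := div_nonneg (Real.log_nonneg hAℓ) hlphi.le
    have : (T₀ : ℝ) * Real.log phi ≤ Real.log (A * ℓ) + Real.log phi := by
      have := (Nat.ceil_lt_add_one h0).le
      calc (T₀ : ℝ) * Real.log phi ≤ (Real.log (A * ℓ) / Real.log phi + 1) * Real.log phi := by
            gcongr
        _ = _ := by field_simp
    rw [← Real.log_pow, ← Real.log_mul (by positivity) phi_pos.ne'] at this
    have := (Real.log_le_log_iff (pow_pos phi_pos _) (by have := phi_pos; positivity)).1 this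
    linarith
  -- T
  set T := T₀ + 1 + (n + 4 * (T₀ + 1) - (T₀ + 1)) % 4 with hTdef
  have hr : (n + 4 * (T₀ + 1) - (T₀ + 1)) % 4 ≤ 3 := by omega
  have hTT : T₀ + 1 ≤ T ∧ T ≤ T₀ + 4 := by omega
  have hTpos : 0 < T := by omega
  have hphiT1 : A * ℓ ≤ phi ^ T := hT0a.trans (pow_le_pow_right₀ one_lt_phi.le (by omega))
  have hphi5 : phi ^ 5 ≤ 2 := by unfold phi; norm_num
  have hphiT2 : phi ^ T ≤ 2 * (A * ℓ) := by
    calc phi ^ T ≤ phi ^ (T₀ + 4) := pow_le_pow_right₀ one_lt_phi.le hTT.2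
      _ = phi ^ T₀ * phi ^ 4 := pow_add _ _ _
      _ ≤ (phi * (A * ℓ)) * phi ^ 4 := by have := phi_pos; gcongr
      _ = phi ^ 5 * (A * ℓ) := by ring
      _ ≤ 2 * (A * ℓ) := by gcongr
  -- T² ≤ log n
  have hTlog : (T : ℝ) ≤ 12 * Real.log (2 * (A * ℓ)) := by
    have hl : (1 : ℝ) / 12 ≤ Real.log phi := by
      rw [Real.le_log_iff_exp_le phi_pos]
      have : Real.exp (1 / 12) ^ 12 ≤ phi ^ 12 := by
        rw [← Real.exp_nat_mul]
        norm_num
        refine Real.exp_one_lt_d9.le.trans ?_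
        unfold phi; norm_num
      exact le_of_pow_le_pow_left₀ (by norm_num) phi_pos.le this
    have : (T : ℝ) * Real.log phi ≤ Real.log (2 * (A * ℓ)) := by
      rw [← Real.log_pow]; exact Real.log_le_log (pow_pos phi_pos _) hphiT2
    nlinarith [Nat.cast_nonneg (α := ℝ) T]
  have hTsq : (T : ℝ) ^ 2 ≤ ℓ := by
    have hle : Real.log (2 * (A * ℓ)) ≤ Real.sqrt ℓ / 12 - 1 := by
      rw [Real.log_le_iff_le_exp (by positivity)]
      refine le_trans ?_ h4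
      nlinarith
    have h7 : (T : ℝ) ≤ Real.sqrt ℓ := by linarith
    calc (T : ℝ) ^ 2 ≤ (Real.sqrt ℓ) ^ 2 := by gcongr
      _ = ℓ := Real.sq_sqrt (by linarith)
  have hTℓ : (T : ℝ) ≤ ℓ := by
    have : (1 : ℝ) ≤ T := by exact_mod_cast hTpos
    nlinarith
  have h2T : (2 : ℝ) ^ T ≤ (2 * (A * ℓ)) ^ 9 := by
    calc (2 : ℝ) ^ T ≤ (phi ^ 9) ^ T := by gcongr; exact phi_pow_nine
      _ = (phi ^ T) ^ 9 := by rw [← pow_mul, ← pow_mul, mul_comm]
      _ ≤ _ := by have := phi_pos; gcongr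
  have hnn : ℓ ≤ n / 40 := by linarith
  have hTn : (T : ℝ) ≤ n / 40 := hTℓ.trans hnn
  have hTn' : 40 * T ≤ n := by
    have : (40 : ℝ) * T ≤ n := by linarith
    exact_mod_cast this
  -- main polylog estimate
  have hbig : (2 * (A * ℓ)) ^ 18 * (43 * ℓ) ≤ (n : ℝ) := by
    have h0 : (2 * (A * ℓ)) ^ 18 * (43 * ℓ) = (2 * A) ^ 18 * 43 * ℓ ^ 19 := by ring
    rw [h0]
    exact h1
  have hT2T : (T : ℝ) ≤ 2 ^ T := by exact_mod_cast (Nat.lt_two_pow_self).le
  have hN : n = (n - T) + T := by omega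
  have hdiv : (n - T) % 4 = 0 := by omega
  obtain ⟨d, hd⟩ := Nat.dvd_of_mod_eq_zero hdiv
  have hnN : (n : ℝ) = ((n - T : ℕ) : ℝ) + T := by exact_mod_cast hN
  have hNhalf : n ≤ 2 * (n - T) := by omega
  have hNhalf' : (n : ℝ) ≤ 2 * ((n - T : ℕ) : ℝ) := by exact_mod_cast hNhalf
  have habs : 0 ≤ |Real.log c| / Real.log 2 :=
    div_nonneg (abs_nonneg _) (Real.log_nonneg (by norm_num))
  have hc1i : 0 < 1 / c₁ := by positivity
  have hN₀nn : (0 : ℝ) ≤ N₀ := Nat.cast_nonneg _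
  refine ⟨n - T, d, T, hN, hd, ?_, hTpos, hTsq, hphiT1, hphiT2, hNhalf, ?_, ?_, ?_, by omega, ?_⟩
  · have : (N₀ : ℝ) ≤ ((n - T : ℕ) : ℝ) := by linarith
    exact_mod_cast this
  · have : 1 / c₁ ≤ ((n - T : ℕ) : ℝ) := by linarith
    rwa [div_le_iff₀' hc₁] at this
  · -- 32^T ≤ c 2^N
    have hcl : (2 : ℝ) ^ (-(|Real.log c| / Real.log 2)) ≤ c := by
      rw [Real.rpow_def_of_pos (by norm_num)]
      have : Real.log 2 * -(|Real.log c| / Real.log 2) = -|Real.log c| := by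
        field_simp
      rw [this]
      calc Real.exp (-|Real.log c|) ≤ Real.exp (Real.log c) :=
            Real.exp_le_exp.2 (neg_abs_le _)
        _ = c := Real.exp_log hc
    have h32 : (32 : ℝ) ^ T = (2 : ℝ) ^ ((5 * T : ℕ) : ℝ) := by
      rw [Real.rpow_natCast, pow_mul]; norm_num
    rw [h32]
    calc (2 : ℝ) ^ ((5 * T : ℕ) : ℝ)
        ≤ (2 : ℝ) ^ (-(|Real.log c| / Real.log 2) + ((n - T : ℕ) : ℝ)) := by
          apply Real.rpow_le_rpow_of_exponent_le (by norm_num)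
          push_cast
          -- 5T ≤ N - X, where 2X ≤ n ... use separate bounds
          have hX : |Real.log c| / Real.log 2 ≤ n / 2 - 100 := by linarith
          have : (n : ℝ) * (39 / 40) ≤ ((n - T : ℕ) : ℝ) := by linarith
          have h3 : (5 : ℝ) * T ≤ n / 8 := by linarith
          linarith
      _ = (2 : ℝ) ^ (-(|Real.log c| / Real.log 2)) * 2 ^ (n - T) := by
          rw [Real.rpow_add (by norm_num), Real.rpow_natCast]
      _ ≤ c * 2 ^ (n - T) := by gcongr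
  · -- 2^T (3 + 40 T ℓ) ≤ n
    have hb : 3 + 2 * (T : ℝ) * (20 * ℓ) ≤ (2 : ℝ) ^ T * (43 * ℓ) := by
      have h3 : (1 : ℝ) ≤ 2 ^ T := one_le_pow₀ (by norm_num)
      nlinarith
    calc (2 : ℝ) ^ T * (3 + 2 * T * (20 * ℓ)) ≤ (2 : ℝ) ^ T * ((2 : ℝ) ^ T * (43 * ℓ)) := by
          gcongr
      _ = ((2 : ℝ) ^ T) ^ 2 * (43 * ℓ) := by ring
      _ ≤ ((2 * (A * ℓ)) ^ 9) ^ 2 * (43 * ℓ) := by gcongr
      _ = (2 * (A * ℓ)) ^ 18 * (43 * ℓ) := by ring
      _ ≤ n := hbig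
  · have : (100 : ℝ) ≤ ((n - T : ℕ) : ℝ) := by linarith
    exact_mod_cast this

end Vale.P230
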