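import Vale.Agent.Lib.P230.Params

/-! P230: parameter choice for the exponent `13/10`. -/

open Filter Asymptotics Real

namespace Vale.P230

/-- the growth base `r = 1.176` -/
noncomputable def rr : ℝ := 1176 / 1000

theorem rr_pos : 0 < rr := by unfold rr; norm_num
theorem one_lt_rr : 1 < rr := by unfold rr; norm_num
theorem rr_pow_five : (2 : ℝ) ≤ rr ^ 5 := by unfold rr; norm_num
theorem rr_pow_five' : rr ^ 5 ≤ 3 := by unfold rr; norm_num

theorem paramsV2 (A c c₁ : ℝ) (hA : 1 ≤ A) (hc : 0 < c) (hc₁ : 0 < c₁) (N₀ : ℕ) :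
    ∃ n₀ : ℕ, ∀ n : ℕ, n₀ ≤ n → ∃ N d T : ℕ, n = N + T ∧ N = 4 * d ∧ N₀ ≤ N ∧ 0 < T ∧
      (T : ℝ) ^ 2 ≤ Real.log n ∧ A * Real.log n ≤ rr ^ T ∧ rr ^ T ≤ 3 * (A * Real.log n) ∧
      n ≤ 2 * N ∧ 1 ≤ c₁ * N ∧ (32 : ℝ) ^ T ≤ c * 2 ^ N ∧
      (2 : ℝ) ^ T * (3 + 2 * T * (20 * Real.log n)) ≤ n ∧ T ≤ N ∧ 100 ≤ N := by
  have e1 := polylog_small ((3 * A) ^ 10 * 43) 11
  have e2 := polylog_small (2 * (N₀ + 200 + 1 / c₁ + 10 + |Real.log c| / Real.log 2) ) 0
  have e3 : ∀ᶠ x : ℝ in atTop, ((9 * A) * x) ≤ Real.exp (Real.sqrt x / 12 - 1) := by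
    have h0 : Tendsto (fun x : ℝ => Real.sqrt x) atTop atTop := Real.tendsto_sqrt_atTop
    have h1 : ∀ᶠ y : ℝ in atTop, (9 * A) * y ^ 2 ≤ Real.exp (y / 12 - 1) := by
      have h2 := Real.tendsto_exp_div_pow_atTop 2
      have h3 : Tendsto (fun y : ℝ => Real.exp (y / 12) / (y / 12) ^ 2) atTop atTop :=
        h2.comp (tendsto_id.atTop_div_const (by norm_num))
      filter_upwards [h3.eventually_ge_atTop (9 * A * 144 * Real.exp 1), eventually_gt_atTop 0]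
        with y hy hy0
      rw [le_div_iff₀ (by positivity)] at hy
      rw [Real.exp_sub, le_div_iff₀ (Real.exp_pos 1)]
      calc 9 * A * y ^ 2 * Real.exp 1 = 9 * A * 144 * Real.exp 1 * (y / 12) ^ 2 := by ring
        _ ≤ _ := hy
    filter_upwards [h0.eventually h1, eventually_ge_atTop 0] with x hx hx0
    rwa [Real.sq_sqrt hx0] at hx
  have e4 := Real.tendsto_log_atTop.eventually e3
  have e5 := Real.tendsto_log_atTop.eventually_ge_atTop (100 : ℝ)
  have e6 := polylog_small 40 1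
  obtain ⟨x₀, hx₀⟩ := eventually_atTop.1 (e1.and (e2.and (e4.and (e5.and e6))))
  refine ⟨⌈max x₀ 1⌉₊, fun n hn => ?_⟩
  have hnx : x₀ ≤ (n : ℝ) := (le_max_left _ _).trans ((Nat.le_ceil _).trans (by exact_mod_cast hn))
  have hn1 : (1 : ℝ) ≤ n := (le_max_right _ _).trans ((Nat.le_ceil _).trans (by exact_mod_cast hn))
  obtain ⟨h1, h2, h4, h5, h6⟩ := hx₀ n hnx
  simp only [pow_zero, mul_one] at h2
  rw [pow_one] at h6
  set ℓ := Real.log n with hℓ
  have hℓ100 : (100 : ℝ) ≤ ℓ := h5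
  have hAℓ : 1 ≤ A * ℓ := by nlinarith
  have hlrr : 0 < Real.log rr := Real.log_pos one_lt_rr
  set T₀ := ⌈Real.log (A * ℓ) / Real.log rr⌉₊ with hT₀
  have hT0a : A * ℓ ≤ rr ^ T₀ := by
    have : Real.log (A * ℓ) ≤ T₀ * Real.log rr := by
      have := Nat.le_ceil (Real.log (A * ℓ) / Real.log rr)
      rwa [div_le_iff₀ hlrr] at this
    rw [← Real.log_pow] at this
    exact (Real.log_le_log_iff (by positivity) (pow_pos rr_pos _)).1 this
  have hT0b : rr ^ T₀ ≤ rr * (A * ℓ) := by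
    have h0 : 0 ≤ Real.log (A * ℓ) / Real.log rr := div_nonneg (Real.log_nonneg hAℓ) hlrr.le
    have : (T₀ : ℝ) * Real.log rr ≤ Real.log (A * ℓ) + Real.log rr := by
      have := (Nat.ceil_lt_add_one h0).le
      calc (T₀ : ℝ) * Real.log rr ≤ (Real.log (A * ℓ) / Real.log rr + 1) * Real.log rr := by
            gcongr
        _ = _ := by field_simp
    rw [← Real.log_pow, ← Real.log_mul (by positivity) rr_pos.ne'] at this
    have := (Real.log_le_log_iff (pow_pos rr_pos _) (by have := rr_pos; positivity)).1 this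
    linarith
  -- T
  set T := T₀ + 1 + (n + 4 * (T₀ + 1) - (T₀ + 1)) % 4 with hTdef
  have hr : (n + 4 * (T₀ + 1) - (T₀ + 1)) % 4 ≤ 3 := by omega
  have hTT : T₀ + 1 ≤ T ∧ T ≤ T₀ + 4 := by omega
  have hTpos : 0 < T := by omega
  have hrrT1 : A * ℓ ≤ rr ^ T := hT0a.trans (pow_le_pow_right₀ one_lt_rr.le (by omega))
  have hrrT2 : rr ^ T ≤ 3 * (A * ℓ) := by
    calc rr ^ T ≤ rr ^ (T₀ + 4) := pow_le_pow_right₀ one_lt_rr.le hTT.2
      _ = rr ^ T₀ * rr ^ 4 := pow_add _ _ _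
      _ ≤ (rr * (A * ℓ)) * rr ^ 4 := by have := rr_pos; gcongr
      _ = rr ^ 5 * (A * ℓ) := by ring
      _ ≤ 3 * (A * ℓ) := by gcongr; exact rr_pow_five'
  -- T² ≤ log n
  have hTlog : (T : ℝ) ≤ 12 * Real.log (3 * (A * ℓ)) := by
    have hl : (1 : ℝ) / 12 ≤ Real.log rr := by
      rw [Real.le_log_iff_exp_le rr_pos]
      have : Real.exp (1 / 12) ^ 12 ≤ rr ^ 12 := by
        rw [← Real.exp_nat_mul]
        norm_num
        refine Real.exp_one_lt_d9.le.trans ?_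
        unfold rr; norm_num
      exact le_of_pow_le_pow_left₀ (by norm_num) rr_pos.le this
    have : (T : ℝ) * Real.log rr ≤ Real.log (3 * (A * ℓ)) := by
      rw [← Real.log_pow]; exact Real.log_le_log (pow_pos rr_pos _) hrrT2
    nlinarith [Nat.cast_nonneg (α := ℝ) T]
  have hTsq : (T : ℝ) ^ 2 ≤ ℓ := by
    have hle : Real.log (3 * (A * ℓ)) ≤ Real.sqrt ℓ / 12 - 1 := by
      rw [Real.log_le_iff_le_exp (by positivity)]
      refine le_trans ?_ h4
      nlinarith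
    have h7 : (T : ℝ) ≤ Real.sqrt ℓ := by linarith
    calc (T : ℝ) ^ 2 ≤ (Real.sqrt ℓ) ^ 2 := by gcongr
      _ = ℓ := Real.sq_sqrt (by linarith)
  have hTℓ : (T : ℝ) ≤ ℓ := by
    have : (1 : ℝ) ≤ T := by exact_mod_cast hTpos
    nlinarith
  have h2T : (2 : ℝ) ^ T ≤ (3 * (A * ℓ)) ^ 5 := by
    calc (2 : ℝ) ^ T ≤ (rr ^ 5) ^ T := by gcongr; exact rr_pow_five
      _ = (rr ^ T) ^ 5 := by rw [← pow_mul, ← pow_mul, mul_comm]
      _ ≤ _ := by have := rr_pos; gcongr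
  have hnn : ℓ ≤ n / 40 := by linarith
  have hTn : (T : ℝ) ≤ n / 40 := hTℓ.trans hnn
  have hTn' : 40 * T ≤ n := by
    have : (40 : ℝ) * T ≤ n := by linarith
    exact_mod_cast this
  -- main polylog estimate
  have hbig : (3 * (A * ℓ)) ^ 10 * (43 * ℓ) ≤ (n : ℝ) := by
    have h0 : (3 * (A * ℓ)) ^ 10 * (43 * ℓ) = (3 * A) ^ 10 * 43 * ℓ ^ 11 := by ring
    rw [h0]
    exact h1
  have hT2T : (T : ℝ) ≤ 2 ^ T := by exact_mod_cast (Nat.lt_two_pow_self).le
  have hN : n = (n - T) + T := by omega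
  have hdiv : (n - T) % 4 = 0 := by omega
  obtain ⟨d, hd⟩ := Nat.dvd_of_mod_eq_zero hdiv
  have hnN : (n : ℝ) = ((n - T : ℕ) : ℝ) + T := by exact_mod_cast hN
  have hNhalf : n ≤ 2 * (n - T) := by omega
  have hNhalf' : (n : ℝ) ≤ 2 * ((n - T : ℕ) : ℝ) := by exact_mod_cast hNhalf
  have habs : 0 ≤ |Real.log c| / Real.log 2 :=
    div_nonneg (abs_nonneg _) (Real.log_nonneg (by norm_num))
  have hc1i : 0 < 1 / c₁ := by positivity
  have hN₀nn : (0 : ℝ) ≤ N₀ := Nat.cast_nonneg _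
  refine ⟨n - T, d, T, hN, hd, ?_, hTpos, hTsq, hrrT1, hrrT2, hNhalf, ?_, ?_, ?_, by omega, ?_⟩
  · have : (N₀ : ℝ) ≤ ((n - T : ℕ) : ℝ) := by linarith
    exact_mod_cast this
  · have : 1 / c₁ ≤ ((n - T : ℕ) : ℝ) := by linarith
    rwa [div_le_iff₀' hc₁] at this
  · -- 32^T ≤ c 2^N
    have hcl : (2 : ℝ) ^ (-(|Real.log c| / Real.log 2)) ≤ c := by
      rw [Real.rpow_def_of_pos (by norm_num)]
      have : Real.log 2 * -(|Real.log c| / Real.log 2) = -|Real.log c| := by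
        field_simp
      rw [this]
      calc Real.exp (-|Real.log c|) ≤ Real.exp (Real.log c) :=
            Real.exp_le_exp.2 (neg_abs_le _)
        _ = c := Real.exp_log hc
    have h32 : (32 : ℝ) ^ T = (2 : ℝ) ^ ((5 * T : ℕ) : ℝ) := by
      rw [Real.rpow_natCast, pow_mul]; norm_num
    rw [h32]
    calc (2 : ℝ) ^ ((5 * T : ℕ) : ℝ)
        ≤ (2 : ℝ) ^ (-(|Real.log c| / Real.log 2) + ((n - T : ℕ) : ℝ)) := by
          apply Real.rpow_le_rpow_of_exponent_le (by norm_num)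
          push_cast
          have hX : |Real.log c| / Real.log 2 ≤ n / 2 - 100 := by linarith
          have : (n : ℝ) * (39 / 40) ≤ ((n - T : ℕ) : ℝ) := by linarith
          have h3 : (5 : ℝ) * T ≤ n / 8 := by linarith
          linarith
      _ = (2 : ℝ) ^ (-(|Real.log c| / Real.log 2)) * 2 ^ (n - T) := by
          rw [Real.rpow_add (by norm_num), Real.rpow_natCast]
      _ ≤ c * 2 ^ (n - T) := by gcongr
  · -- 2^T (3 + 40 T ℓ) ≤ n
    have hb : 3 + 2 * (T : ℝ) * (20 * ℓ) ≤ (2 : ℝ) ^ T * (43 * ℓ) := by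
      have h3 : (1 : ℝ) ≤ 2 ^ T := one_le_pow₀ (by norm_num)
      nlinarith
    calc (2 : ℝ) ^ T * (3 + 2 * T * (20 * ℓ)) ≤ (2 : ℝ) ^ T * ((2 : ℝ) ^ T * (43 * ℓ)) := by
          gcongr
      _ = ((2 : ℝ) ^ T) ^ 2 * (43 * ℓ) := by ring
      _ ≤ ((3 * (A * ℓ)) ^ 5) ^ 2 * (43 * ℓ) := by gcongr
      _ = (3 * (A * ℓ)) ^ 10 * (43 * ℓ) := by ring
      _ ≤ n := hbig
  · have : (100 : ℝ) ≤ ((n - T : ℕ) : ℝ) := by linarith
    exact_mod_cast this

/-! numerics for the profile -/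

/-- `(rr/phi) * x / (11/5) ≤ rr^(13/10)` for `x = 1.001 √(2π)` -/
theorem exponent_numV2 : (rr / phi) * ((1001 / 1000 : ℝ) * √(2 * Real.pi) / (11 / 5)) ≤
    rr ^ ((13 : ℝ) / 10) := by
  have hrr := rr_pos
  have h1 : ((rr / phi) * ((1001 / 1000 : ℝ) * √(2 * Real.pi) / (11 / 5))) ^ 10 ≤
      (rr ^ ((13 : ℝ) / 10)) ^ 10 := by
    have h2 : (rr ^ ((13 : ℝ) / 10)) ^ 10 = rr ^ 13 := by
      rw [← Real.rpow_natCast, ← Real.rpow_mul hrr.le, ← Real.rpow_natCast]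
      norm_num
    have h3 : ((rr / phi) * ((1001 / 1000 : ℝ) * √(2 * Real.pi) / (11 / 5))) ^ 10 =
        ((rr / phi) * ((1001 / 1000 : ℝ) / (11 / 5))) ^ 10 * (2 * Real.pi) ^ 5 := by
      have : √(2 * Real.pi) ^ 10 = (2 * Real.pi) ^ 5 := by
        rw [show 10 = 2 * 5 by norm_num, pow_mul, Real.sq_sqrt (by positivity)]
      rw [← this, ← mul_pow]
      congr 1
      ring
    rw [h2, h3]
    calc ((rr / phi) * ((1001 / 1000 : ℝ) / (11 / 5))) ^ 10 * (2 * Real.pi) ^ 5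
        ≤ ((rr / phi) * ((1001 / 1000 : ℝ) / (11 / 5))) ^ 10 * (2 * 3.1416) ^ 5 := by
          have := Real.pi_lt_d4
          gcongr
      _ ≤ rr ^ 13 := by
          unfold rr phi
          norm_num
  exact le_of_pow_le_pow_left₀ (by norm_num) (by positivity) h1

/-- the one dimensional inequality for the second moments of the profile -/
theorem rr_ineq (t : ℝ) (h0 : 0 ≤ t) (h1 : t ≤ 11 / 5) :
    rr * (Real.exp (-(t ^ 2) / 2) ^ 2 + Real.exp (-((t - 11 / 5) ^ 2) / 2) ^ 2) ≤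
      (Real.exp (-(t ^ 2) / 2) + Real.exp (-((t - 11 / 5) ^ 2) / 2)) ^ 2 := by
  set a := Real.exp (-(t ^ 2) / 2) with ha
  set b := Real.exp (-((t - 11 / 5) ^ 2) / 2) with hb
  have ha0 : 0 < a := Real.exp_pos _
  have hb0 : 0 < b := Real.exp_pos _
  set B := Real.exp (121 / 50) with hB
  have hB0 : 0 < B := Real.exp_pos _
  have hB1 : B ≤ 11.26 := by
    have h2 : B = Real.exp 1 ^ 2 * Real.exp (21 / 50) := by
      rw [hB, ← Real.exp_nat_mul, ← Real.exp_add]; norm_num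
    have h3 : Real.exp 1 ≤ 2.7182818286 := Real.exp_one_lt_d9.le
    have h4 : Real.exp (21 / 50) ≤ 1.523 := by
      have h5 : Real.exp (21 / 50) ^ 50 ≤ 1.523 ^ 50 := by
        rw [← Real.exp_nat_mul]
        have h6 : Real.exp ((50 : ℕ) * (21 / 50)) = Real.exp 1 ^ 21 := by
          rw [← Real.exp_nat_mul]; norm_num
        rw [h6]
        calc Real.exp 1 ^ 21 ≤ 2.7182818286 ^ 21 := by gcongr
          _ ≤ 1.523 ^ 50 := by norm_num
      exact le_of_pow_le_pow_left₀ (by norm_num) (by norm_num) h5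
    rw [h2]
    calc Real.exp 1 ^ 2 * Real.exp (21 / 50) ≤ 2.7182818286 ^ 2 * 1.523 := by gcongr
      _ ≤ 11.26 := by norm_num
  have hB2 : 1 ≤ B := Real.one_le_exp (by norm_num)
  -- a ≤ B b and b ≤ B a
  have hab : a ≤ B * b := by
    rw [ha, hb, hB, ← Real.exp_add]
    apply Real.exp_le_exp.2
    nlinarith
  have hba : b ≤ B * a := by
    rw [ha, hb, hB, ← Real.exp_add]
    apply Real.exp_le_exp.2
    nlinarith
  have h5 : 0 ≤ (B * b - a) * (B * a - b) := mul_nonneg (by linarith) (by linarith)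
  -- (B²+1) a b ≥ B (a²+b²)
  have h6 : B * (a ^ 2 + b ^ 2) ≤ (B ^ 2 + 1) * (a * b) := by nlinarith
  have h7 : (B ^ 2 + 1) * (176 / 1000) ≤ 2 * B := by nlinarith
  have h8 : (176 / 1000) * (a ^ 2 + b ^ 2) ≤ 2 * (a * b) := by
    have h9 : B * ((176 / 1000) * (a ^ 2 + b ^ 2)) ≤ B * (2 * (a * b)) := by
      calc B * ((176 / 1000) * (a ^ 2 + b ^ 2)) = (176 / 1000) * (B * (a ^ 2 + b ^ 2)) := by ring
        _ ≤ (176 / 1000) * ((B ^ 2 + 1) * (a * b)) := by gcongr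
        _ = ((B ^ 2 + 1) * (176 / 1000)) * (a * b) := by ring
        _ ≤ (2 * B) * (a * b) := by gcongr
        _ = B * (2 * (a * b)) := by ring
    exact le_of_mul_le_mul_left h9 hB0
  unfold rr
  nlinarith

/-- truncated sums (Cauchy-Schwarz) -/
theorem trunc_sum {ι : Type*} (s : Finset ι) (w : ι → ℝ) (c : ℝ) (hc : 0 < c)
    (hw : ∀ i ∈ s, 0 < w i) :
    (∑ i ∈ s, w i) ^ 2 ≤ (∑ i ∈ s, min (w i) c) * (∑ i ∈ s, w i + (∑ i ∈ s, w i ^ 2) / c) := by
  have h1 := Finset.sum_mul_sq_le_sq_mul_sq s (fun i => √(min (w i) c))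
    (fun i => w i / √(min (w i) c))
  have hmin : ∀ i ∈ s, 0 < min (w i) c := fun i hi => lt_min (hw i hi) hc
  have e1 : ∑ i ∈ s, √(min (w i) c) * (w i / √(min (w i) c)) = ∑ i ∈ s, w i := by
    refine Finset.sum_congr rfl fun i hi => ?_
    have := Real.sqrt_pos.2 (hmin i hi)
    field_simp
  have e2 : ∑ i ∈ s, √(min (w i) c) ^ 2 = ∑ i ∈ s, min (w i) c := by
    refine Finset.sum_congr rfl fun i hi => Real.sq_sqrt (hmin i hi).le
  have e3 : ∑ i ∈ s, (w i / √(min (w i) c)) ^ 2 ≤ ∑ i ∈ s, w i + (∑ i ∈ s, w i ^ 2) / c := by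
    rw [Finset.sum_div, ← Finset.sum_add_distrib]
    refine Finset.sum_le_sum fun i hi => ?_
    have hwi := hw i hi
    rw [div_pow, Real.sq_sqrt (hmin i hi).le]
    rcases le_total (w i) c with h | h
    · rw [min_eq_left h]
      have : w i ^ 2 / w i = w i := by field_simp
      rw [this]
      have : 0 ≤ w i ^ 2 / c := by positivity
      linarith
    · rw [min_eq_right h]
      linarith
  rw [e1, e2] at h1
  refine h1.trans ?_
  gcongr
  exact Finset.sum_nonneg fun i hi => (hmin i hi).le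

end Vale.P230
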