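import Vale.Agent.Lib.P230.MainBV2
import Vale.Agent.Lib.P230.MainA
import Vale.Agent.Lib.P230.NumPhi

/-! P230: the truncated sum over the cube. -/

open Real

namespace Vale.P230

/-- Gaussian weight of the height `y - M v` -/
noncomputable def gw {T : ℕ} (M : ℕ) (l : ℝ) (y : Fin T → ℤ) (v : Fin T → Fin 2) : ℝ :=
  Real.exp (-(∑ i, ((((y i - M * (v i : ℕ) : ℤ) : ℝ)) / l) ^ 2) / 2)

theorem gw_pos {T : ℕ} (M : ℕ) (l : ℝ) (y : Fin T → ℤ) (v : Fin T → Fin 2) : 0 < gw M l y v :=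
  Real.exp_pos _

theorem sum_gw {T M : ℕ} (y : Fin T → ℤ) (l : ℝ) :
    ∑ v : Fin T → Fin 2, gw M l y v =
      ∏ i, (Real.exp (-(((y i : ℝ) / l) ^ 2) / 2) + Real.exp (-((((y i : ℝ) - M) / l) ^ 2) / 2)) :=
  sum_cube y l

theorem sum_gw_sq {T M : ℕ} (y : Fin T → ℤ) (l : ℝ) :
    ∑ v : Fin T → Fin 2, gw M l y v ^ 2 =
      ∏ i, (Real.exp (-(((y i : ℝ) / l) ^ 2) / 2) ^ 2 +
        Real.exp (-((((y i : ℝ) - M) / l) ^ 2) / 2) ^ 2) := by
  have h : ∀ i : Fin T, (Real.exp (-(((y i : ℝ) / l) ^ 2) / 2) ^ 2 +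
      Real.exp (-((((y i : ℝ) - M) / l) ^ 2) / 2) ^ 2) =
      ∑ w : Fin 2, Real.exp (-(((((y i - M * (w : ℕ) : ℤ) : ℝ)) / l) ^ 2) / 2) ^ 2 := by
    intro i
    rw [Fin.sum_univ_two]
    simp
  simp_rw [h]
  rw [Finset.prod_univ_sum, Fintype.piFinset_univ]
  refine Finset.sum_congr rfl fun v _ => ?_
  rw [Finset.prod_pow, ← Real.exp_sum, gw]
  congr 2
  rw [neg_div, Finset.sum_div, ← Finset.sum_neg_distrib]
  refine Finset.sum_congr rfl fun i _ => ?_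
  ring

theorem profile_sum {T M : ℕ} {l c₁ D₁ : ℝ} {N : ℕ} (hl : 0 < l) (hMl : (M : ℝ) / l = 11 / 5)
    (hc : 0 < c₁ * N) (hD : c₁ * N * (rr / phi) ^ T / 2 ≤ D₁)
    (y : Fin T → ℤ) (hy : ∀ i, 0 ≤ y i ∧ y i < M) :
    c₁ * N / 3 * rr ^ T ≤ ∑ v : Fin T → Fin 2, min (D₁ * gw M l y v) (c₁ * N) := by
  have hphi0 : 0 < phi := phi_pos
  have hrr0 : 0 < rr := rr_pos
  have hD₁ : 0 < D₁ := lt_of_lt_of_le (by positivity) hD
  set S1 := ∑ v : Fin T → Fin 2, gw M l y v with hS1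
  set S2 := ∑ v : Fin T → Fin 2, gw M l y v ^ 2 with hS2
  have ht : ∀ i, 0 ≤ (y i : ℝ) / l ∧ (y i : ℝ) / l ≤ 11 / 5 := by
    intro i
    have h1 : (0 : ℝ) ≤ y i := by exact_mod_cast (hy i).1
    have h2 : (y i : ℝ) ≤ M := by exact_mod_cast (hy i).2.le
    constructor
    · positivity
    · rw [← hMl]; gcongr
  have hS1low : phi ^ T ≤ S1 := by
    rw [hS1, sum_gw]
    have e0 : phi ^ T = ∏ _i : Fin T, phi := by simp
    rw [e0]
    refine Finset.prod_le_prod (fun i _ => hphi0.le) fun i _ => ?_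
    have h6 := phi_min ((y i : ℝ) / l) (ht i).1 (ht i).2
    rw [← hMl, ← sub_div] at h6
    exact h6
  have hS2up : rr ^ T * S2 ≤ S1 ^ 2 := by
    rw [hS1, hS2, sum_gw, sum_gw_sq]
    have e0 : rr ^ T = ∏ _i : Fin T, rr := by simp
    rw [e0, ← Finset.prod_mul_distrib, ← Finset.prod_pow]
    refine Finset.prod_le_prod (fun i _ => by positivity) fun i _ => ?_
    have h6 := rr_ineq ((y i : ℝ) / l) (ht i).1 (ht i).2
    rw [← hMl, ← sub_div] at h6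
    exact h6
  have hS1pos : 0 < S1 := lt_of_lt_of_le (by positivity) hS1low
  have htr := trunc_sum Finset.univ (fun v : Fin T → Fin 2 => D₁ * gw M l y v) (c₁ * N) hc
    (fun v _ => mul_pos hD₁ (gw_pos _ _ _ _))
  have e1 : ∑ v : Fin T → Fin 2, D₁ * gw M l y v = D₁ * S1 := by
    rw [hS1, Finset.mul_sum]
  have e2 : ∑ v : Fin T → Fin 2, (D₁ * gw M l y v) ^ 2 = D₁ ^ 2 * S2 := by
    rw [hS2, Finset.mul_sum]
    exact Finset.sum_congr rfl fun v _ => by ring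
  rw [e1, e2] at htr
  set Sm := ∑ v : Fin T → Fin 2, min (D₁ * gw M l y v) (c₁ * N) with hSm
  have hSm0 : 0 ≤ Sm := Finset.sum_nonneg fun v _ =>
    (lt_min (mul_pos hD₁ (gw_pos _ _ _ _)) hc).le
  set R := c₁ * N * rr ^ T with hR
  have hR0 : 0 < R := by positivity
  set X := D₁ * S1 with hX
  have hX0 : 0 < X := by positivity
  have hXR : R / 2 ≤ X := by
    calc R / 2 = (c₁ * N * (rr / phi) ^ T / 2) * phi ^ T := by
          rw [hR, div_pow]; field_simp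
      _ ≤ D₁ * S1 := by gcongr
  have h3 : D₁ ^ 2 * S2 / (c₁ * N) ≤ X ^ 2 / R := by
    rw [div_le_div_iff₀ hc hR0, hX, hR]
    calc D₁ ^ 2 * S2 * (c₁ * N * rr ^ T) = D₁ ^ 2 * (c₁ * N) * (rr ^ T * S2) := by ring
      _ ≤ D₁ ^ 2 * (c₁ * N) * S1 ^ 2 := by gcongr
      _ = (D₁ * S1) ^ 2 * (c₁ * N) := by ring
  have h4 : X ^ 2 ≤ Sm * (X + X ^ 2 / R) := htr.trans (by gcongr)
  have h5 : X ≤ Sm * (1 + X / R) := by
    have : X * X ≤ X * (Sm * (1 + X / R)) := by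
      calc X * X = X ^ 2 := by ring
        _ ≤ Sm * (X + X ^ 2 / R) := h4
        _ = X * (Sm * (1 + X / R)) := by ring
    exact le_of_mul_le_mul_left this hX0
  have h6 : X * R ≤ Sm * (R + X) := by
    have := mul_le_mul_of_nonneg_right h5 hR0.le
    calc X * R ≤ Sm * (1 + X / R) * R := this
      _ = Sm * (R + X) := by field_simp
  -- conclude Sm ≥ R/3
  have h7 : Sm * (R + X) ≤ Sm * (3 * X) := by gcongr; linarith
  have h8 : X * R ≤ X * (3 * Sm) := by linarith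
  have h9 := le_of_mul_le_mul_left h8 hX0
  calc c₁ * N / 3 * rr ^ T = R / 3 := by rw [hR]; ring
    _ ≤ Sm := by linarith

end Vale.P230
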