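import Mathlib

/-!
# P230, module Simplex: affine position of a convex body.
-/

open MeasureTheory Set

namespace Vale.P230

/-- a set of positive volume contains `N+1` points with nonzero determinant -/
theorem exists_det_ne {N : ℕ} (A : Set (Fin N → ℝ)) (hA : Convex ℝ A)
    (hv : 0 < volume A) :
    ∃ v : Fin (N + 1) → Fin N → ℝ, (∀ i, v i ∈ A) ∧
      (Matrix.of (fun i : Fin N => v i.succ - v 0)).det ≠ 0 := by
  have hspan : affineSpan ℝ A = ⊤ := by
    by_contra hne
    have h0 := Measure.addHaar_affineSubspace (volume : Measure (Fin N → ℝ)) _ hne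
    have : volume A ≤ 0 := by
      rw [← h0]; exact measure_mono (subset_affineSpan ℝ A)
    exact absurd hv (not_lt.mpr this)
  have hint : (interior A).Nonempty := (hA.interior_nonempty_iff_affineSpan_eq_top).2 hspan
  obtain ⟨x, hx⟩ := hint
  obtain ⟨ε, hε, hball⟩ := Metric.isOpen_iff.1 isOpen_interior x hx
  refine ⟨Fin.cons x (fun i => x + Pi.single i (ε / 2)), ?_, ?_⟩
  · intro i
    refine Fin.cases ?_ ?_ i
    · simpa using interior_subset hx
    · intro i
      simp only [Fin.cons_succ]
      apply interior_subset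
      apply hball
      rw [Metric.mem_ball, dist_eq_norm, add_sub_cancel_left]
      rw [Pi.norm_single]
      rw [Real.norm_of_nonneg (by positivity)]
      linarith
  · have : Matrix.of (fun i : Fin N => (Fin.cons x (fun i => x + Pi.single i (ε / 2)) :
        Fin (N + 1) → Fin N → ℝ) i.succ - (Fin.cons x (fun i => x + Pi.single i (ε / 2)) :
        Fin (N + 1) → Fin N → ℝ) 0) = (ε / 2) • (1 : Matrix (Fin N) (Fin N) ℝ) := by
      ext i j
      simp [Matrix.one_apply, Pi.single_apply, eq_comm]
    rw [this, Matrix.det_smul, Matrix.det_one]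
    positivity

/-- MODULE Simplex (file Simplex.lean): affine position of a convex body. -/
theorem simplex_position {N : ℕ} (A : Set (Fin N → ℝ)) (hA : Convex ℝ A) (hc : IsCompact A)
    (hv : 0 < volume A) :
    ∃ (P : (Fin N → ℝ) ≃ₗ[ℝ] (Fin N → ℝ)) (b : Fin N → ℝ),
      (0 : Fin N → ℝ) ∈ (fun x => P x + b) '' A ∧
      (∀ i, (Pi.single i 1 : Fin N → ℝ) ∈ (fun x => P x + b) '' A) ∧
      (∀ x ∈ (fun x => P x + b) '' A, ∀ i, |x i| ≤ 1) := by
  obtain ⟨v₀, hv₀, hdet₀⟩ := exists_det_ne A hA hv
  -- maximise the determinant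
  set f : (Fin (N + 1) → Fin N → ℝ) → ℝ :=
    fun v => |(Matrix.of (fun i : Fin N => v i.succ - v 0)).det| with hf
  have hfc : Continuous f := by
    apply Continuous.abs
    apply Continuous.matrix_det
    refine continuous_pi fun i => continuous_pi fun j => ?_
    simp only [Matrix.of_apply, Pi.sub_apply]
    fun_prop
  have hcomp : IsCompact (Set.pi Set.univ (fun _ : Fin (N + 1) => A)) :=
    isCompact_univ_pi (fun _ => hc)
  obtain ⟨v, hvA, hmax⟩ := hcomp.exists_isMaxOn ⟨v₀, fun i _ => hv₀ i⟩ hfc.continuousOn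
  have hvA' : ∀ i, v i ∈ A := fun i => hvA i (mem_univ i)
  have hmax' : ∀ w : Fin (N + 1) → Fin N → ℝ, (∀ i, w i ∈ A) → f w ≤ f v :=
    fun w hw => hmax (fun i _ => hw i)
  set M : Matrix (Fin N) (Fin N) ℝ := Matrix.of (fun i : Fin N => v i.succ - v 0) with hM
  have hpos : 0 < |M.det| := lt_of_lt_of_le (abs_pos.2 hdet₀) (hmax' v₀ hv₀)
  have hdet : M.det ≠ 0 := abs_pos.1 hpos
  have hu : IsUnit M.transpose.det := by rw [Matrix.det_transpose]; exact hdet.isUnit
  -- the linear equivalence `c ↦ ∑ c_i (v_i - v_0)`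
  set L : (Fin N → ℝ) ≃ₗ[ℝ] (Fin N → ℝ) :=
    M.transpose.toLinearEquiv' (Matrix.invertibleOfIsUnitDet _ hu) with hL
  have hLapp : ∀ c : Fin N → ℝ, L c = ∑ k, c k • M k := by
    intro c
    have : L c = M.transpose.mulVec c := by
      rw [hL]; rfl
    rw [this, Matrix.mulVec_transpose, Matrix.vecMul_eq_sum]
  have hPM : ∀ i, L.symm (M i) = Pi.single i 1 := by
    intro i
    rw [LinearEquiv.symm_apply_eq, hLapp, Finset.sum_eq_single i]
    · simp
    · intro k _ hk
      rw [Pi.single_eq_of_ne hk, zero_smul]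
    · intro h; exact absurd (Finset.mem_univ i) h
  refine ⟨L.symm, -L.symm (v 0), ?_, ?_, ?_⟩
  · exact ⟨v 0, hvA' 0, by simp⟩
  · intro i
    refine ⟨v i.succ, hvA' _, ?_⟩
    have : L.symm (v i.succ) + -L.symm (v 0) = L.symm (M i) := by
      rw [← sub_eq_add_neg, ← map_sub]; rfl
    simp only [this, hPM]
  · rintro _ ⟨x, hx, rfl⟩ i
    set c := L.symm x + -L.symm (v 0) with hc
    have hLc : L c = x - v 0 := by
      rw [hc, ← sub_eq_add_neg, ← map_sub, LinearEquiv.apply_symm_apply]
    have hxc : x - v 0 = ∑ k, c k • M k := by rw [← hLc, hLapp]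
    have hw := hmax' (Function.update v i.succ x) (by
      intro j
      by_cases hj : j = i.succ
      · subst hj; simpa using hx
      · simpa [Function.update_of_ne hj] using hvA' j)
    have hmat : Matrix.of (fun k : Fin N => (Function.update v i.succ x) k.succ
        - (Function.update v i.succ x) 0) = M.updateRow i (∑ k, c k • M k) := by
      ext k j
      have h0 : (Function.update v i.succ x) 0 = v 0 :=
        Function.update_of_ne (Fin.succ_ne_zero i).symm _ _
      by_cases hk : k = i
      · subst hk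
        rw [Matrix.updateRow_self, ← hxc, Matrix.of_apply, h0, Function.update_self]
      · rw [Matrix.updateRow_ne hk, Matrix.of_apply, h0, Function.update_of_ne]
        · rfl
        · intro h; exact hk (Fin.succ_injective _ h)
    simp only [hf] at hw
    rw [hmat, Matrix.det_updateRow_sum, smul_eq_mul, abs_mul] at hw
    have : |c i| * |M.det| ≤ 1 * |M.det| := by rw [one_mul]; exact hw
    exact le_of_mul_le_mul_right this hpos

end Vale.P230
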