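import Vale.Agent.Lib.P230.Bonf

open MeasureTheory ProbabilityTheory Set
open scoped ENNReal Pointwise

namespace Vale.P230

theorem card_ordered {α : Type*} [DecidableEq α] (S : Finset α) (s : ℕ) (P : Finset α → Prop)
    [DecidablePred P] [DecidablePred
      (fun f : Fin s → α => Function.Injective f ∧ P (Finset.univ.image f))] :
    ((Fintype.piFinset (fun _ : Fin s => S)).filter
      (fun f => Function.Injective f ∧ P (Finset.univ.image f))).card
      = s.factorial * ((S.powersetCard s).filter P).card := by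
  rw [Finset.card_eq_sum_card_fiberwise (f := fun f => Finset.univ.image f)
    (t := (S.powersetCard s).filter P)]
  · rw [Finset.sum_const_nat (m := s.factorial)]
    · ring
    intro J hJ
    rw [Finset.mem_filter, Finset.mem_powersetCard] at hJ
    obtain ⟨⟨hJS, hJc⟩, hP⟩ := hJ
    have h1 : Fintype.card (Fin s ↪ J) = s.factorial := by
      rw [Fintype.card_embedding_eq, Fintype.card_coe, Fintype.card_fin, hJc,
        Nat.descFactorial_self]
    rw [← h1, ← Finset.card_univ]
    symm
    apply Finset.card_bij (fun (e : Fin s ↪ J) _ => fun i => (e i : α))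
    · intro e _
      have hinj : Function.Injective (fun i => (e i : α)) :=
        fun a b hab => e.injective (Subtype.ext hab)
      have him : Finset.univ.image (fun i => (e i : α)) = J := by
        apply Finset.eq_of_subset_of_card_le
        · intro x hx
          rw [Finset.mem_image] at hx
          obtain ⟨i, _, rfl⟩ := hx
          exact (e i).2
        · rw [Finset.card_image_of_injective _ hinj, hJc, Finset.card_univ, Fintype.card_fin]
      rw [Finset.mem_filter, Finset.mem_filter, Fintype.mem_piFinset]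
      refine ⟨⟨fun i => hJS (e i).2, hinj, ?_⟩, him⟩
      rw [him]; exact hP
    · intro e1 _ e2 _ h
      ext i
      exact congrFun h i
    · intro f hf
      rw [Finset.mem_filter, Finset.mem_filter] at hf
      obtain ⟨⟨_, hinj, _⟩, him⟩ := hf
      refine ⟨⟨fun i => ⟨f i, ?_⟩, ?_⟩, Finset.mem_univ _, ?_⟩
      · rw [← him]; exact Finset.mem_image_of_mem _ (Finset.mem_univ i)
      · intro a b hab
        exact hinj (congrArg Subtype.val hab)
      · rfl
  · intro f hf
    rw [Finset.mem_coe, Finset.mem_filter, Fintype.mem_piFinset] at hf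
    rw [Finset.mem_coe, Finset.mem_filter, Finset.mem_powersetCard]
    refine ⟨⟨?_, ?_⟩, hf.2.2⟩
    · intro x hx
      rw [Finset.mem_image] at hx
      obtain ⟨i, _, rfl⟩ := hx
      exact hf.1 i
    · rw [Finset.card_image_of_injective _ hf.2.1, Finset.card_univ, Fintype.card_fin]

theorem linIndep_image {α : Type*} {N p s : ℕ} (v : α → Fin N → ZMod p) (f : Fin s → α)
    (hf : Function.Injective f) [DecidableEq α] :
    Indep v (Finset.univ.image f) ↔ LinearIndependent (ZMod p) (fun i => lft v (f i)) := by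
  unfold Indep
  let e : Fin s ≃ (Finset.univ.image f : Finset α) :=
    Equiv.ofBijective (fun i => ⟨f i, Finset.mem_image_of_mem _ (Finset.mem_univ i)⟩)
      ⟨fun a b hab => hf (congrArg Subtype.val hab), fun ⟨x, hx⟩ => by
        rw [Finset.mem_image] at hx
        obtain ⟨i, _, hi⟩ := hx
        exact ⟨i, Subtype.ext hi⟩⟩
  exact (linearIndependent_equiv' e rfl).symm

open Classical in
theorem ext_le_bad {α : Type*} {N p : ℕ} (v : α → Fin N → ZMod p) (S : Finset α) (s : ℕ) :
    s.factorial * extCount v S s ≤ badTuples v S s := by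
  unfold extCount badTuples
  rw [← card_ordered]
  apply Finset.card_le_card
  intro f hf
  rw [Finset.mem_filter] at hf ⊢
  obtain ⟨hf0, hinj, _, z, hz, hzJ, hspan⟩ := hf
  refine ⟨hf0, z, hz, ?_, ?_⟩
  · intro i hi
    exact hzJ (hi ▸ Finset.mem_image_of_mem _ (Finset.mem_univ i))
  · have : (lft v) '' ((Finset.univ.image f : Finset α) : Set α)
        = Set.range (fun i => lft v (f i)) := by
      ext x
      simp only [Finset.coe_image, Finset.coe_univ, Set.image_univ, Set.mem_image, Set.mem_range,
        exists_exists_eq_and]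
    rwa [this] at hspan

open Classical in
/-- number of dependent `j`-tuples -/
noncomputable def depTuples {α : Type*} {N p : ℕ} (v : α → Fin N → ZMod p) (S : Finset α)
    (j : ℕ) : ℕ :=
  ((Fintype.piFinset (fun _ : Fin j => S)).filter
    (fun f => ¬ LinearIndependent (ZMod p) (fun i => lft v (f i)))).card

open Classical in
theorem indep_add_dep {α : Type*} {N p : ℕ} [Fact p.Prime] (v : α → Fin N → ZMod p) (S : Finset α)
    (j : ℕ) : j.factorial * indepCount v S j + depTuples v S j = S.card ^ j := by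
  have h1 : j.factorial * indepCount v S j = ((Fintype.piFinset (fun _ : Fin j => S)).filter
    (fun f => LinearIndependent (ZMod p) (fun i => lft v (f i)))).card := by
    unfold indepCount
    rw [← card_ordered]
    apply congrArg
    apply Finset.filter_congr
    intro f _
    constructor
    · rintro ⟨h1, h2⟩
      exact (linIndep_image v f h1).1 h2
    · intro h
      have hinj : Function.Injective f := by
        intro a b hab
        apply h.injective
        simp only [hab]
      exact ⟨hinj, (linIndep_image v f hinj).2 h⟩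
  rw [h1]
  unfold depTuples
  rw [Finset.card_filter_add_card_filter_not, Fintype.card_piFinset_const]


open Classical in
theorem dep_succ {α : Type*} {N p : ℕ} [Fact p.Prime] (v : α → Fin N → ZMod p) (S : Finset α)
    (j : ℕ) : depTuples v S (j + 1) ≤
      S.card * depTuples v S j + (j * S.card ^ j + S.card * badTuples v S j) := by
  have hsub : (((Fintype.piFinset (fun _ : Fin (j + 1) => S)).filter
      (fun f => ¬ LinearIndependent (ZMod p) (fun i => lft v (f i)))).image
        (fun f => (f 0, Fin.tail f))) ⊆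
      (S ×ˢ ((Fintype.piFinset (fun _ : Fin j => S)).filter
        (fun f => ¬ LinearIndependent (ZMod p) (fun i => lft v (f i))))) ∪
      (((Finset.univ ×ˢ Fintype.piFinset (fun _ : Fin j => S)).image
        (fun q : Fin j × (Fin j → α) => (q.2 q.1, q.2))) ∪
      (S ×ˢ ((Fintype.piFinset (fun _ : Fin j => S)).filter (fun f =>
    ∃ z ∈ S, (∀ i, z ≠ f i) ∧
      lft v z ∈ Submodule.span (ZMod p) (Set.range (fun i => lft v (f i))))))) := by
    intro x hx
    rw [Finset.mem_image] at hx
    obtain ⟨f, hf, rfl⟩ := hx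
    rw [Finset.mem_filter, Fintype.mem_piFinset] at hf
    obtain ⟨hfS, hdep⟩ := hf
    have htS : Fin.tail f ∈ Fintype.piFinset (fun _ : Fin j => S) := by
      rw [Fintype.mem_piFinset]; intro i; exact hfS i.succ
    have heq : (fun i => lft v (f i)) = (Fin.cons (lft v (f 0))
        (fun i => lft v (Fin.tail f i)) : Fin (j + 1) → (Fin N → ZMod p) × ZMod p) := by
      funext i
      refine Fin.cases ?_ (fun i => ?_) i
      · rfl
      · rfl
    rw [heq, linearIndependent_finCons] at hdep
    rw [Finset.mem_union, Finset.mem_union]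
    by_cases h1 : LinearIndependent (ZMod p) (fun i => lft v (Fin.tail f i))
    · right
      have h2 : lft v (f 0) ∈ Submodule.span (ZMod p)
          (Set.range (fun i => lft v (Fin.tail f i))) := by
        by_contra h3
        exact hdep ⟨h1, h3⟩
      by_cases h3 : ∃ i, f 0 = Fin.tail f i
      · left
        obtain ⟨i, hi⟩ := h3
        rw [Finset.mem_image]
        exact ⟨(i, Fin.tail f), Finset.mem_product.2 ⟨Finset.mem_univ _, htS⟩,
          Prod.ext hi.symm rfl⟩
      · right
        rw [Finset.mem_product, Finset.mem_filter]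
        refine ⟨hfS 0, htS, f 0, hfS 0, ?_, h2⟩
        intro i hi
        exact h3 ⟨i, hi⟩
    · left
      rw [Finset.mem_product, Finset.mem_filter]
      exact ⟨hfS 0, htS, h1⟩
  have hinj : Function.Injective (fun f : Fin (j + 1) → α => (f 0, Fin.tail f)) := by
    intro f g hfg
    rw [Prod.ext_iff] at hfg
    obtain ⟨h0, h1⟩ := hfg
    rw [← Fin.cons_self_tail f, ← Fin.cons_self_tail g]
    simp only at h0 h1
    rw [h0, h1]
  unfold depTuples badTuples
  rw [← Finset.card_image_of_injective _ hinj]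
  refine (Finset.card_le_card hsub).trans ?_
  refine (Finset.card_union_le _ _).trans ?_
  refine Nat.add_le_add (le_of_eq (Finset.card_product _ _)) ?_
  refine (Finset.card_union_le _ _).trans ?_
  refine Nat.add_le_add ?_ (le_of_eq (Finset.card_product _ _))
  refine Finset.card_image_le.trans ?_
  rw [Finset.card_product, Finset.card_univ, Fintype.card_fin, Fintype.card_piFinset_const]

theorem dep_bound {α : Type*} {N p m : ℕ} [Fact p.Prime] (v : α → Fin N → ZMod p)
    (S : Finset α) (hS : S.Nonempty) (b : ℝ)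
    (hbad : ∀ s < 2 * m, (badTuples v S s : ℝ) ≤ b * (S.card : ℝ) ^ s) (j : ℕ) (hj : j ≤ 2 * m) :
    (depTuples v S j : ℝ) ≤ (j * b + (j : ℝ) ^ 2 / S.card) * (S.card : ℝ) ^ j := by
  have hc : (0 : ℝ) < S.card := by exact_mod_cast hS.card_pos
  induction j with
  | zero =>
    have : depTuples v S 0 = 0 := by
      classical
      unfold depTuples
      rw [Finset.card_eq_zero, Finset.filter_eq_empty_iff]
      intro f _ h
      exact h linearIndependent_empty_type
    rw [this]; simp
  | succ j ih =>
    have h1 := ih (by omega)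
    have h2 : (depTuples v S (j + 1) : ℝ) ≤
      S.card * depTuples v S j + (j * (S.card : ℝ) ^ j + S.card * badTuples v S j) := by
      exact_mod_cast dep_succ v S j
    have h3 := hbad j (by omega)
    refine h2.trans ?_
    have h4 : (S.card : ℝ) * depTuples v S j ≤
        S.card * ((j * b + (j : ℝ) ^ 2 / S.card) * (S.card : ℝ) ^ j) :=
      mul_le_mul_of_nonneg_left h1 hc.le
    have h5 : (S.card : ℝ) * badTuples v S j ≤ S.card * (b * (S.card : ℝ) ^ j) :=
      mul_le_mul_of_nonneg_left h3 hc.le
    have h6 : (((j + 1 : ℕ) : ℝ) * b + ((j + 1 : ℕ) : ℝ) ^ 2 / S.card) * (S.card : ℝ) ^ (j + 1)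
        = S.card * ((j * b + (j : ℝ) ^ 2 / S.card) * (S.card : ℝ) ^ j) + (j * (S.card : ℝ) ^ j)
          + S.card * (b * (S.card : ℝ) ^ j) + (j + 1) * (S.card : ℝ) ^ j := by
      push_cast
      field_simp
      ring
    rw [h6]
    have h7 : 0 ≤ ((j : ℝ) + 1) * (S.card : ℝ) ^ j := by positivity
    linarith

theorem hasDeriv_alt (m : ℕ) (x : ℝ) :
    HasDerivAt (fun D : ℝ => (-1 : ℝ) ^ (m + 1) *
      ((∑ j ∈ Finset.range (m + 1 + 1), (-D) ^ j / (j.factorial : ℝ)) - Real.exp (-D)))
      ((-1) ^ m * ((∑ j ∈ Finset.range (m + 1), (-x) ^ j / (j.factorial : ℝ)) - Real.exp (-x))) x := by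
  have h1 : ∀ j : ℕ, HasDerivAt (fun D : ℝ => (-D) ^ j / (j.factorial : ℝ))
      ((j * (-x) ^ (j - 1) * (-1)) / (j.factorial : ℝ)) x := by
    intro j
    exact ((hasDerivAt_neg x).fun_pow j).div_const _
  have h2 := HasDerivAt.fun_sum (u := Finset.range (m + 1 + 1)) (fun j _ => h1 j)
  have h3 : HasDerivAt (fun D : ℝ => Real.exp (-D)) (Real.exp (-x) * (-1)) x :=
    (hasDerivAt_neg x).exp
  refine ((h2.sub h3).const_mul ((-1 : ℝ) ^ (m + 1))).congr_deriv ?_
  rw [Finset.sum_range_succ']
  have h4 : ∑ k ∈ Finset.range (m + 1), (((k + 1 : ℕ) : ℝ) * (-x) ^ (k + 1 - 1) * (-1)) /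
      ((k + 1).factorial : ℝ) = - ∑ k ∈ Finset.range (m + 1), (-x) ^ k / (k.factorial : ℝ) := by
    rw [← Finset.sum_neg_distrib]
    apply Finset.sum_congr rfl
    intro k _
    rw [Nat.factorial_succ, Nat.add_sub_cancel]
    have : (k.factorial : ℝ) ≠ 0 := by positivity
    push_cast
    field_simp
  rw [h4]
  simp only [Nat.cast_zero, zero_mul, zero_div, add_zero, pow_succ]
  ring

theorem le_of_deriv {f f' : ℝ → ℝ} (h : ∀ x, HasDerivAt f (f' x) x) (h0 : ∀ x, 0 ≤ x → 0 ≤ f' x)
    (D : ℝ) (hD : 0 ≤ D) : f 0 ≤ f D := by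
  have : MonotoneOn f (Set.Ici 0) := by
    apply monotoneOn_of_deriv_nonneg (convex_Ici 0)
    · exact fun x _ => (h x).continuousAt.continuousWithinAt
    · exact fun x _ => (h x).differentiableAt.differentiableWithinAt
    · intro x hx
      rw [(h x).deriv]
      exact h0 x (interior_subset hx)
  exact this Set.self_mem_Ici hD hD

theorem exp_alt (m : ℕ) : ∀ D : ℝ, 0 ≤ D →
    0 ≤ (-1) ^ m * ((∑ j ∈ Finset.range (m + 1), (-D) ^ j / (j.factorial : ℝ)) - Real.exp (-D)) ∧
    (-1) ^ m * ((∑ j ∈ Finset.range (m + 1), (-D) ^ j / (j.factorial : ℝ)) - Real.exp (-D))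
      ≤ D ^ (m + 1) / ((m + 1).factorial : ℝ) := by
  induction m with
  | zero =>
    intro D hD
    have h1 := Real.add_one_le_exp (-D)
    have h2 : Real.exp (-D) ≤ 1 := by
      rw [Real.exp_le_one_iff]; linarith
    simp only [pow_zero, zero_add, Finset.range_one, Finset.sum_singleton, Nat.factorial_zero,
      Nat.cast_one, div_one, one_mul, pow_one, Nat.factorial_one]
    constructor <;> linarith
  | succ m ih =>
    intro D hD
    have hz : (fun D : ℝ => (-1 : ℝ) ^ (m + 1) *
      ((∑ j ∈ Finset.range (m + 1 + 1), (-D) ^ j / (j.factorial : ℝ)) - Real.exp (-D))) 0 = 0 := by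
      simp only [neg_zero, Real.exp_zero]
      rw [Finset.sum_range_succ']
      simp
    simp only at hz
    constructor
    · have := le_of_deriv (hasDeriv_alt m) (fun x hx => (ih x hx).1) D hD
      rw [hz] at this
      exact this
    · have h1 : ∀ x : ℝ, HasDerivAt (fun x : ℝ => x ^ (m + 1 + 1) / ((m + 1 + 1).factorial : ℝ))
          (x ^ (m + 1) / ((m + 1).factorial : ℝ)) x := by
        intro x
        refine ((hasDerivAt_pow (m + 1 + 1) x).div_const _).congr_deriv ?_
        rw [Nat.factorial_succ (m + 1), Nat.add_sub_cancel]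
        have : ((m + 1).factorial : ℝ) ≠ 0 := by positivity
        push_cast
        field_simp
      have := le_of_deriv (fun x => (h1 x).sub (hasDeriv_alt m x))
        (fun x hx => sub_nonneg.2 (ih x hx).2) D hD
      simp only [Pi.sub_apply] at this
      have h0 : (0 : ℝ) ^ (m + 1 + 1) / ((m + 1 + 1).factorial : ℝ) = 0 := by simp
      rw [h0, hz] at this
      linarith

theorem alg1 (D P f dep : ℝ) (hP : P ≠ 0) (hf : f ≠ 0) (j : ℕ) :
    (-1 : ℝ) ^ j * (((D * P) ^ j - dep) / f) / P ^ j =
      (-D) ^ j / f + (-((-1 : ℝ) ^ j)) * (dep / (f * P ^ j)) := by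
  rw [mul_pow, neg_pow D]
  field_simp
  ring

theorem alg2 (D P f X : ℝ) (hf : f ≠ 0) (j : ℕ) :
    X * (D * P) ^ j = D ^ j / f * X * (f * P ^ j) := by
  rw [mul_pow]
  field_simp

theorem stepA_finite_of {α : Type*} {N d p m : ℕ} [Fact p.Prime] (v : α → Fin N → ZMod p)
    (S : Finset α) (hS : S.Nonempty) (hm : Even m) (hm0 : 0 < m)
    (b : ℝ) (hb : 0 ≤ b) (hbad : ∀ s < 2 * m, (badTuples v S s : ℝ) ≤ b * (S.card : ℝ) ^ s)
    (D : ℝ) (hD : D = (S.card : ℝ) / (p : ℝ) ^ d)
    (hbonf : (uncCount d v (S : Set α) : ℝ) / (p : ℝ) ^ (d * (N + 1)) ≤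
      ∑ j ∈ Finset.range (m + 1), (-1 : ℝ) ^ j * (indepCount v S j : ℝ) / (p : ℝ) ^ (d * j)
      + ∑ s ∈ Finset.range (2 * m), (2 : ℝ) ^ s * (extCount v S s : ℝ) / (p : ℝ) ^ (d * s)) :
    (uncCount d v (S : Set α) : ℝ) / (p : ℝ) ^ (d * (N + 1)) ≤
      Real.exp (-D) + D ^ (m + 1) / (m + 1).factorial
        + Real.exp D * (m * b + (m : ℝ) ^ 2 / S.card) + Real.exp (2 * D) * b := by
  have hp : (0 : ℝ) < p := by exact_mod_cast (Fact.out : p.Prime).pos
  have hc : (0 : ℝ) < S.card := by exact_mod_cast hS.card_pos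
  have hpd : (0 : ℝ) < (p : ℝ) ^ d := by positivity
  have hD0 : 0 ≤ D := by rw [hD]; positivity
  have hSD : (S.card : ℝ) = D * (p : ℝ) ^ d := by rw [hD]; field_simp
  clear hD
  -- second sum
  have h2 : ∑ s ∈ Finset.range (2 * m), (2 : ℝ) ^ s * (extCount v S s : ℝ) / (p : ℝ) ^ (d * s)
      ≤ Real.exp (2 * D) * b := by
    calc ∑ s ∈ Finset.range (2 * m), (2 : ℝ) ^ s * (extCount v S s : ℝ) / (p : ℝ) ^ (d * s)
        ≤ ∑ s ∈ Finset.range (2 * m), (2 * D) ^ s / (s.factorial : ℝ) * b := by
          apply Finset.sum_le_sum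
          intro s hs
          have h3 : ((s.factorial : ℕ) : ℝ) * extCount v S s ≤ b * (S.card : ℝ) ^ s :=
            le_trans (by exact_mod_cast ext_le_bad v S s) (hbad s (Finset.mem_range.1 hs))
          have hf : (0 : ℝ) < s.factorial := by positivity
          have h4 : (extCount v S s : ℝ) ≤ b * (S.card : ℝ) ^ s / s.factorial := by
            rw [le_div_iff₀ hf]; linarith
          rw [pow_mul, div_le_iff₀ (by positivity)]
          calc (2 : ℝ) ^ s * (extCount v S s : ℝ) ≤ 2 ^ s * (b * (S.card : ℝ) ^ s / s.factorial) :=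
                mul_le_mul_of_nonneg_left h4 (by positivity)
            _ = (2 * D) ^ s / s.factorial * b * ((p : ℝ) ^ d) ^ s := by
                rw [hSD, mul_pow, mul_pow]; ring
      _ = (∑ s ∈ Finset.range (2 * m), (2 * D) ^ s / (s.factorial : ℝ)) * b := by
          rw [Finset.sum_mul]
      _ ≤ Real.exp (2 * D) * b :=
          mul_le_mul_of_nonneg_right (Real.sum_le_exp_of_nonneg (by positivity) _) hb
  -- first sum
  have h1 : ∑ j ∈ Finset.range (m + 1), (-1 : ℝ) ^ j * (indepCount v S j : ℝ) / (p : ℝ) ^ (d * j)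
      ≤ ∑ j ∈ Finset.range (m + 1), (-D) ^ j / (j.factorial : ℝ)
        + Real.exp D * (m * b + (m : ℝ) ^ 2 / S.card) := by
    calc ∑ j ∈ Finset.range (m + 1), (-1 : ℝ) ^ j * (indepCount v S j : ℝ) / (p : ℝ) ^ (d * j)
        ≤ ∑ j ∈ Finset.range (m + 1), ((-D) ^ j / (j.factorial : ℝ)
          + D ^ j / (j.factorial : ℝ) * (m * b + (m : ℝ) ^ 2 / S.card)) := by
          apply Finset.sum_le_sum
          intro j hj
          have hjm : j ≤ m := by
            have := Finset.mem_range.1 hj
            omega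
          have hf : (0 : ℝ) < j.factorial := by positivity
          have h3 : (j.factorial : ℝ) * indepCount v S j + depTuples v S j = (S.card : ℝ) ^ j := by
            exact_mod_cast indep_add_dep v S j
          have h4 := dep_bound v S hS b hbad j (by omega)
          have h5 : (j * b + (j : ℝ) ^ 2 / S.card) * (S.card : ℝ) ^ j ≤
              (m * b + (m : ℝ) ^ 2 / S.card) * (S.card : ℝ) ^ j := by
            have : (j : ℝ) ≤ m := by exact_mod_cast hjm
            gcongr
          have h6 : (indepCount v S j : ℝ) = ((S.card : ℝ) ^ j - depTuples v S j) / j.factorial := by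
            rw [eq_div_iff hf.ne']; linarith
          have h7 : (-1 : ℝ) ^ j * (indepCount v S j : ℝ) / (p : ℝ) ^ (d * j) =
              (-D) ^ j / (j.factorial : ℝ) +
                (-((-1 : ℝ) ^ j)) * (depTuples v S j / (j.factorial * ((p : ℝ) ^ d) ^ j)) := by
            rw [h6, pow_mul, hSD]
            exact alg1 D _ _ _ hpd.ne' hf.ne' j
          rw [h7]
          apply add_le_add le_rfl
          have h8 : (-((-1 : ℝ) ^ j)) * (depTuples v S j / (j.factorial * ((p : ℝ) ^ d) ^ j)) ≤
              depTuples v S j / (j.factorial * ((p : ℝ) ^ d) ^ j) := by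
            have h9 : 0 ≤ (depTuples v S j : ℝ) / (j.factorial * ((p : ℝ) ^ d) ^ j) := by positivity
            rcases neg_one_pow_eq_or ℝ j with h | h
            · rw [h]; linarith
            · rw [h]; linarith
          refine h8.trans ?_
          rw [div_le_iff₀ (by positivity)]
          refine (h4.trans h5).trans (le_of_eq ?_)
          have : (S.card : ℝ) ^ j = (D * (p : ℝ) ^ d) ^ j := by rw [← hSD]
          rw [this]
          exact alg2 D _ _ _ hf.ne' j
      _ = ∑ j ∈ Finset.range (m + 1), (-D) ^ j / (j.factorial : ℝ)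
          + (∑ j ∈ Finset.range (m + 1), D ^ j / (j.factorial : ℝ))
            * (m * b + (m : ℝ) ^ 2 / S.card) := by
          rw [Finset.sum_add_distrib, Finset.sum_mul]
      _ ≤ _ := by
          apply add_le_add le_rfl
          apply mul_le_mul_of_nonneg_right (Real.sum_le_exp_of_nonneg hD0 _)
          positivity
  have h3 := (exp_alt m D hD0).2
  rw [hm.neg_one_pow, one_mul] at h3
  linarith

/-- MODULE StepFin: Step A, finite form. -/
theorem stepA_finite {α : Type*} {N d p m : ℕ} [Fact p.Prime] (v : α → Fin N → ZMod p)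
    (S : Finset α) (hS : S.Nonempty) (_hinj : Set.InjOn v (S : Set α)) (hm : Even m) (hm0 : 0 < m)
    (b : ℝ) (hb : 0 ≤ b) (hbad : ∀ s < 2 * m, (badTuples v S s : ℝ) ≤ b * (S.card : ℝ) ^ s)
    (D : ℝ) (hD : D = (S.card : ℝ) / (p : ℝ) ^ d) :
    (uncCount d v (S : Set α) : ℝ) / (p : ℝ) ^ (d * (N + 1)) ≤
      Real.exp (-D) + D ^ (m + 1) / (m + 1).factorial
        + Real.exp D * (m * b + (m : ℝ) ^ 2 / S.card) + Real.exp (2 * D) * b :=
  stepA_finite_of v S hS hm hm0 b hb hbad D hD (bonf v S hm hm0)

end Vale.P230
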