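import Vale.Agent.Lib.P230.Defs

/-!
# P230, module UNION
-/

open MeasureTheory ProbabilityTheory Set
open scoped ENNReal Pointwise

namespace Vale.P230

namespace UnionAux

section Thue

variable {p : ℕ} [Fact p.Prime]

/-- `t` bounds a fraction representing `lam` -/
def HtLe (p : ℕ) (lam : ZMod p) (t : ℕ) : Prop :=
  ∃ u v : ℤ, |u| ≤ t ∧ |v| ≤ t ∧ ((v : ZMod p)) ≠ 0 ∧ (v : ZMod p) * lam = u

theorem zero_of_small {a : ℤ} (h : (a : ZMod p) = 0) (ha : |a| < p) : a = 0 := by
  have h1 : (p : ℤ) ∣ a := (ZMod.intCast_zmod_eq_zero_iff_dvd a p).1 h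
  exact Int.eq_zero_of_abs_lt_dvd h1 ha

theorem thue (lam : ZMod p) : HtLe p lam (Nat.sqrt p) := by
  classical
  have hp : p.Prime := Fact.out
  have hmp : Nat.sqrt p < p := Nat.sqrt_lt_self hp.one_lt
  have hcard : (Finset.univ : Finset (ZMod p)).card <
      ((Finset.range (Nat.sqrt p + 1)) ×ˢ (Finset.range (Nat.sqrt p + 1))).card := by
    rw [Finset.card_univ, ZMod.card, Finset.card_product, Finset.card_range]
    exact Nat.lt_succ_sqrt p
  obtain ⟨q, hq, q', hq', hne, heq⟩ := Finset.exists_ne_map_eq_of_card_lt_of_maps_to hcard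
    (f := fun q : ℕ × ℕ => (q.1 : ZMod p) - (q.2 : ZMod p) * lam) (fun _ _ => Finset.mem_univ _)
  simp only [Finset.mem_product, Finset.mem_range] at hq hq'
  have e1 : (((q.2 : ℤ) - q'.2 : ℤ) : ZMod p) * lam = (((q.1 : ℤ) - q'.1 : ℤ) : ZMod p) := by
    push_cast
    have := heq
    linear_combination -this
  have a1 : |(q.1 : ℤ) - q'.1| ≤ (Nat.sqrt p : ℕ) := by
    rw [abs_le]
    constructor <;> omega
  have a2 : |(q.2 : ℤ) - q'.2| ≤ (Nat.sqrt p : ℕ) := by
    rw [abs_le]
    constructor <;> omega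
  refine ⟨(q.1 : ℤ) - q'.1, (q.2 : ℤ) - q'.2, a1, a2, ?_, e1⟩
  intro h0
  have hv : (q.2 : ℤ) - q'.2 = 0 := zero_of_small h0 (lt_of_le_of_lt a2 (by exact_mod_cast hmp))
  rw [hv] at e1
  simp only [Int.cast_zero, zero_mul] at e1
  have hu : (q.1 : ℤ) - q'.1 = 0 :=
    zero_of_small e1.symm (lt_of_le_of_lt a1 (by exact_mod_cast hmp))
  apply hne
  ext <;> omega

/-- the height -/
noncomputable def ht (lam : ZMod p) : ℕ := sInf {t : ℕ | HtLe p lam t}

theorem ht_spec (lam : ZMod p) : HtLe p lam (ht lam) :=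
  Nat.sInf_mem (s := {t : ℕ | HtLe p lam t}) ⟨_, thue lam⟩

omit [Fact p.Prime] in
theorem ht_le {lam : ZMod p} {t : ℕ} (h : HtLe p lam t) : ht lam ≤ t := Nat.sInf_le h

theorem ht_sq (lam : ZMod p) : ht lam * ht lam ≤ p :=
  (Nat.mul_le_mul (ht_le (thue lam)) (ht_le (thue lam))).trans (Nat.sqrt_le p)

omit [Fact p.Prime] in
theorem HtLe.mono {lam : ZMod p} {t t' : ℕ} (h : HtLe p lam t) (htt : t ≤ t') : HtLe p lam t' := by
  obtain ⟨u, v, h1, h2, h3, h4⟩ := h
  exact ⟨u, v, h1.trans (by exact_mod_cast htt), h2.trans (by exact_mod_cast htt), h3, h4⟩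

theorem rep (lam : ZMod p) : ∃ u v : ℤ, |u| ≤ ht lam ∧ |v| ≤ ht lam ∧ (|u| = ht lam ∨ |v| = ht lam) ∧
    IsCoprime u v ∧ ((v : ZMod p)) ≠ 0 ∧ (v : ZMod p) * lam = u := by
  obtain ⟨u, v, h1, h2, h3, h4⟩ := ht_spec lam
  have hv0 : v ≠ 0 := by
    rintro rfl
    simp at h3
  have hg : 0 < Int.gcd u v := Int.gcd_pos_of_ne_zero_right _ hv0
  obtain ⟨u', v', hco, hu, hv⟩ := Int.exists_gcd_one hg
  set g : ℤ := (Int.gcd u v : ℤ) with hgdef
  have hg1 : (1 : ℤ) ≤ g := by
    rw [hgdef]
    exact_mod_cast hg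
  have hu' : |u'| ≤ ht lam := by
    refine le_trans ?_ h1
    rw [hu, abs_mul, abs_of_pos (by omega : 0 < g)]
    nlinarith [abs_nonneg u']
  have hv' : |v'| ≤ ht lam := by
    refine le_trans ?_ h2
    rw [hv, abs_mul, abs_of_pos (by omega : 0 < g)]
    nlinarith [abs_nonneg v']
  have hgz : ((g : ℤ) : ZMod p) ≠ 0 := by
    intro h
    apply h3
    rw [hv, Int.cast_mul, h, mul_zero]
  have hv'z : ((v' : ℤ) : ZMod p) ≠ 0 := by
    intro h
    apply h3
    rw [hv, Int.cast_mul, h, zero_mul]
  have h4' : ((v' : ℤ) : ZMod p) * lam = ((u' : ℤ) : ZMod p) := by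
    have h5 : ((g : ℤ) : ZMod p) * (((v' : ℤ) : ZMod p) * lam - ((u' : ℤ) : ZMod p)) = 0 := by
      have : ((v' * g : ℤ) : ZMod p) * lam = ((u' * g : ℤ) : ZMod p) := by
        rw [← hv, ← hu]
        exact h4
      push_cast at this
      linear_combination this
    rcases mul_eq_zero.1 h5 with h6 | h6
    · exact absurd h6 hgz
    · exact sub_eq_zero.1 h6
  refine ⟨u', v', hu', hv', ?_, Int.isCoprime_iff_gcd_eq_one.2 hco, hv'z, h4'⟩
  by_contra hcon
  push Not at hcon
  have l1 : |u'| ≤ ((ht lam - 1 : ℕ) : ℤ) := by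
    have := lt_of_le_of_ne hu' hcon.1
    omega
  have l2 : |v'| ≤ ((ht lam - 1 : ℕ) : ℤ) := by
    have := lt_of_le_of_ne hv' hcon.2
    omega
  have l3 := ht_le (⟨u', v', l1, l2, hv'z, h4'⟩ : HtLe p lam (ht lam - 1))
  have l4 : 0 ≤ |u'| := abs_nonneg _
  have l5 := lt_of_le_of_ne hu' hcon.1
  omega

theorem card_ht_le (t : ℕ) :
    ((Finset.univ : Finset (ZMod p)).filter (fun lam => ht lam ≤ t)).card ≤ (2 * t + 1) ^ 2 := by
  classical
  have hsub : ((Finset.univ : Finset (ZMod p)).filter (fun lam => ht lam ≤ t)) ⊆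
      ((Finset.Icc (-(t : ℤ)) t) ×ˢ (Finset.Icc (-(t : ℤ)) t)).image
        (fun q : ℤ × ℤ => (q.1 : ZMod p) * (q.2 : ZMod p)⁻¹) := by
    intro lam hl
    simp only [Finset.mem_filter, Finset.mem_univ, true_and] at hl
    obtain ⟨u, v, h1, h2, h3, h4⟩ := HtLe.mono (ht_spec lam) hl
    simp only [Finset.mem_image, Finset.mem_product, Finset.mem_Icc, Prod.exists]
    refine ⟨u, v, ⟨abs_le.1 h1, abs_le.1 h2⟩, ?_⟩
    rw [← h4]
    field_simp
  refine (Finset.card_le_card hsub).trans (Finset.card_image_le.trans ?_)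
  rw [Finset.card_product, Int.card_Icc]
  have : ((t : ℤ) + 1 - -(t : ℤ)).toNat = 2 * t + 1 := by omega
  rw [this, sq]

theorem of_ht_le_one {lam : ZMod p} (h : ht lam ≤ 1) : lam = 0 ∨ lam = 1 ∨ lam = -1 := by
  obtain ⟨u, v, h1, h2, h3, h4⟩ := HtLe.mono (ht_spec lam) h
  have hu := abs_le.1 h1
  have hv := abs_le.1 h2
  have hv0 : v ≠ 0 := by
    rintro rfl
    simp at h3
  have hv1 : v = 1 ∨ v = -1 := by
    simp only [Nat.cast_one] at hv
    omega
  have hu1 : u = 0 ∨ u = 1 ∨ u = -1 := by
    simp only [Nat.cast_one] at hu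
    omega
  rcases hv1 with rfl | rfl
  · have h5 : lam = (u : ZMod p) := by simpa using h4
    rcases hu1 with rfl | rfl | rfl
    · left
      simpa using h5
    · right; left
      simpa using h5
    · right; right
      simpa using h5
  · have h5 : lam = -(u : ZMod p) := by
      have := h4
      push_cast at this
      linear_combination -this
    rcases hu1 with rfl | rfl | rfl
    · left
      simpa using h5
    · right; right
      simpa using h5
    · right; left
      simpa using h5

end Thue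

section Count

variable {N p t₀ : ℕ} [Fact p.Prime] {ρ : ℝ} {S : Finset (Fin N → ℤ)}

theorem small_of_sq {a : ℤ} {p : ℕ} (hp : 2 ≤ p) (h : 16 * a ^ 2 < p) : |a| < p := by
  rw [abs_lt]
  constructor <;> nlinarith [sq_nonneg a]

theorem red_inj (hS : GoodSet N S p t₀ ρ) {z z' : Fin N → ℤ} (hz : z ∈ S) (hz' : z' ∈ S)
    (h : red p z = red p z') : z = z' := by
  have hp : p.Prime := Fact.out
  funext i
  have h1 : ((z i - z' i : ℤ) : ZMod p) = 0 := by
    have := congrFun h i
    simp only [red] at this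
    push_cast
    rw [this, sub_self]
  have := zero_of_small h1 (small_of_sq hp.two_le (hS.diam z hz z' hz' i))
  omega

/-- products of a multiplier of size at most `√p` and a coordinate difference are small -/
theorem prod_small {u a : ℤ} {t : ℕ} (hu : |u| ≤ t) (ht : t * t ≤ p) (ha : 16 * a ^ 2 < p) :
    4 * |u * a| < p := by
  have h1 : (16 * (u * a) ^ 2 : ℤ) < (p : ℤ) ^ 2 := by
    have h2 : u ^ 2 ≤ (p : ℤ) := by
      have h3 : |u| ^ 2 ≤ (t : ℤ) ^ 2 := pow_le_pow_left₀ (abs_nonneg u) hu 2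
      rw [sq_abs] at h3
      have h4 : ((t * t : ℕ) : ℤ) ≤ (p : ℤ) := by exact_mod_cast ht
      push_cast at h4
      nlinarith
    have hp0 : (0 : ℤ) < p := by
      have hp : p.Prime := Fact.out
      exact_mod_cast hp.pos
    have h5 : 0 ≤ a ^ 2 := sq_nonneg a
    have h6 : 0 ≤ u ^ 2 := sq_nonneg u
    calc (16 * (u * a) ^ 2 : ℤ) = u ^ 2 * (16 * a ^ 2) := by ring
      _ ≤ p * (16 * a ^ 2) := by gcongr
      _ < p * p := by
        apply mul_lt_mul_of_pos_left ha hp0
      _ = (p : ℤ) ^ 2 := by ring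
  have h7 : (4 * |u * a|) ^ 2 < (p : ℤ) ^ 2 := by
    rw [mul_pow, sq_abs]
    linarith
  exact lt_of_pow_lt_pow_left₀ 2 (by positivity) h7

open Classical in
theorem dilate (hS : GoodSet N S p t₀ ρ) (lam : ZMod p) (hlam : 2 ≤ ht lam)
    (b : Fin N → ZMod p) :
    ((S.filter (fun z => ∃ z' ∈ S, lam • red p z + b = red p z')).card : ℝ) *
      ((min (ht lam) t₀ : ℕ) : ℝ) ^ N ≤ 8 * S.card := by
  rcases (S.filter (fun z => ∃ z' ∈ S, lam • red p z + b = red p z')).eq_empty_or_nonempty with
    he | ⟨z0, hz0⟩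
  · rw [he]
    simp
  obtain ⟨hz0S, z0', hz0'S, hz0e⟩ := Finset.mem_filter.1 hz0
  obtain ⟨u, v, hu, hv, huv, hco, hv0, hvl⟩ := rep lam
  have key : ∀ z ∈ S, ∀ z' ∈ S, lam • red p z + b = red p z' → ∀ i,
      u * (z i - z0 i) = v * (z' i - z0' i) := by
    intro z hz z' hz' he i
    have e1 := congrFun he i
    have e2 := congrFun hz0e i
    simp only [Pi.add_apply, Pi.smul_apply, red, smul_eq_mul] at e1 e2
    have e3 : ((u * (z i - z0 i) - v * (z' i - z0' i) : ℤ) : ZMod p) = 0 := by
      push_cast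
      rw [← hvl]
      linear_combination (v : ZMod p) * e1 - (v : ZMod p) * e2
    have s1 := prod_small (p := p) hu (ht_sq lam) (hS.diam z hz z0 hz0S i)
    have s2 := prod_small (p := p) hv (ht_sq lam) (hS.diam z' hz' z0' hz0'S i)
    have s3 : |u * (z i - z0 i) - v * (z' i - z0' i)| < p := by
      have := abs_sub (u * (z i - z0 i)) (v * (z' i - z0' i))
      linarith
    have := zero_of_small e3 s3
    linarith
  rcases huv with hu1 | hv1
  · -- count the images
    have hex : ∀ z ∈ S.filter (fun z => ∃ z' ∈ S, lam • red p z + b = red p z'),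
        ∃ z' ∈ S, lam • red p z + b = red p z' := fun z hz => (Finset.mem_filter.1 hz).2
    choose! g hgS hge using hex
    have hlam0 : lam ≠ 0 := by
      rintro rfl
      have : ht (0 : ZMod p) ≤ 1 := ht_le ⟨0, 1, by simp, by simp, by simp, by simp⟩
      omega
    have hcard : (S.filter (fun z => ∃ z' ∈ S, lam • red p z + b = red p z')).card ≤
        (S.filter (fun z => ∀ i, z i ≡ z0' i [ZMOD (ht lam : ℕ)])).card := by
      apply Finset.card_le_card_of_injOn g
      · intro z hz
        have hz' := Finset.mem_coe.1 hz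
        rw [Finset.mem_coe, Finset.mem_filter]
        refine ⟨hgS z hz', fun i => ?_⟩
        have h1 := key z (Finset.mem_filter.1 hz').1 (g z) (hgS z hz') (hge z hz') i
        have h2 : u ∣ v * (g z i - z0' i) := ⟨z i - z0 i, h1.symm⟩
        have h3 : u ∣ g z i - z0' i := hco.dvd_of_dvd_mul_left h2
        rw [Int.modEq_iff_dvd, ← hu1, abs_dvd]
        have h4 := (dvd_neg (a := u)).2 h3
        rwa [neg_sub] at h4
      · intro z1 hz1 z2 hz2 h12
        have hz1' := Finset.mem_coe.1 hz1
        have hz2' := Finset.mem_coe.1 hz2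
        have e1 := hge z1 hz1'
        have e2 := hge z2 hz2'
        rw [← h12] at e2
        have e3 : lam • red p z1 = lam • red p z2 := by
          have := e1.trans e2.symm
          exact add_right_cancel this
        have e4 : red p z1 = red p z2 := smul_right_injective _ hlam0 e3
        exact red_inj hS (Finset.mem_filter.1 hz1').1 (Finset.mem_filter.1 hz2').1 e4
    have h5 := hS.cls (ht lam) hlam z0'
    calc _ ≤ ((S.filter (fun z => ∀ i, z i ≡ z0' i [ZMOD (ht lam : ℕ)])).card : ℝ) *
          ((min (ht lam) t₀ : ℕ) : ℝ) ^ N := by gcongr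
      _ ≤ 8 * S.card := by
        convert h5 using 4
  · have hcard : (S.filter (fun z => ∃ z' ∈ S, lam • red p z + b = red p z')).card ≤
        (S.filter (fun z => ∀ i, z i ≡ z0 i [ZMOD (ht lam : ℕ)])).card := by
      apply Finset.card_le_card
      intro z hz
      obtain ⟨hzS, z', hz'S, he⟩ := Finset.mem_filter.1 hz
      rw [Finset.mem_filter]
      refine ⟨hzS, fun i => ?_⟩
      have h1 := key z hzS z' hz'S he i
      have h2 : v ∣ u * (z i - z0 i) := ⟨z' i - z0' i, h1⟩
      have h3 : v ∣ z i - z0 i := hco.symm.dvd_of_dvd_mul_left h2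
      rw [Int.modEq_iff_dvd, ← hv1, abs_dvd]
      have h4 := (dvd_neg (a := v)).2 h3
      rwa [neg_sub] at h4
    have h5 := hS.cls (ht lam) hlam z0
    calc _ ≤ ((S.filter (fun z => ∀ i, z i ≡ z0 i [ZMOD (ht lam : ℕ)])).card : ℝ) *
          ((min (ht lam) t₀ : ℕ) : ℝ) ^ N := by gcongr
      _ ≤ 8 * S.card := by
        convert h5 using 4

open Classical in
theorem pairs (hS : GoodSet N S p t₀ ρ) (b : Fin N → ZMod p) :
    (((S ×ˢ S).filter (fun q => ∃ z ∈ S, red p q.1 + red p q.2 + b = red p z)).card : ℝ) ≤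
      8 * ρ ^ N * (S.card : ℝ) ^ 2 := by
  rcases ((S ×ˢ S).filter (fun q => ∃ z ∈ S, red p q.1 + red p q.2 + b = red p z)).eq_empty_or_nonempty
    with he | ⟨q0, hq0⟩
  · rw [he]
    have := hS.pair 0
    have h0 : (0 : ℝ) ≤ 8 * ρ ^ N * (S.card : ℝ) ^ 2 := le_trans (by positivity) this
    simpa using h0
  obtain ⟨hq0S, z0, hz0S, hz0e⟩ := Finset.mem_filter.1 hq0
  obtain ⟨hq1, hq2⟩ := Finset.mem_product.1 hq0S
  have h5 := hS.pair (z0 - q0.1 - q0.2)
  refine le_trans ?_ h5
  have : ((S ×ˢ S).filter (fun q => ∃ z ∈ S, red p q.1 + red p q.2 + b = red p z)).card ≤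
      ((S ×ˢ S).filter (fun q => q.1 + q.2 + (z0 - q0.1 - q0.2) ∈ S)).card := by
    apply Finset.card_le_card
    intro q hq
    obtain ⟨hqS, z, hzS, he⟩ := Finset.mem_filter.1 hq
    obtain ⟨hq1', hq2'⟩ := Finset.mem_product.1 hqS
    rw [Finset.mem_filter]
    refine ⟨hqS, ?_⟩
    have : q.1 + q.2 + (z0 - q0.1 - q0.2) = z := by
      funext i
      have e1 := congrFun he i
      have e2 := congrFun hz0e i
      simp only [Pi.add_apply, red] at e1 e2
      have e3 : (((q.1 i - q0.1 i) + (q.2 i - q0.2 i) - (z i - z0 i) : ℤ) : ZMod p) = 0 := by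
        push_cast
        linear_combination e1 - e2
      have s1 := hS.diam q.1 hq1' q0.1 hq1 i
      have s2 := hS.diam q.2 hq2' q0.2 hq2 i
      have s3 := hS.diam z hzS z0 hz0S i
      have hp : p.Prime := Fact.out
      have hp2 : (2 : ℤ) ≤ p := by exact_mod_cast hp.two_le
      have s4 : |(q.1 i - q0.1 i) + (q.2 i - q0.2 i) - (z i - z0 i)| < p := by
        have t1 : ∀ a : ℤ, 16 * a ^ 2 < p → 4 * |a| < p := by
          intro a ha
          have : (4 * |a|) ^ 2 < (p : ℤ) ^ 2 := by
            rw [mul_pow, sq_abs]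
            nlinarith
          exact lt_of_pow_lt_pow_left₀ 2 (by positivity) this
        have u1 := t1 _ s1
        have u2 := t1 _ s2
        have u3 := t1 _ s3
        have w1 := abs_sub ((q.1 i - q0.1 i) + (q.2 i - q0.2 i)) (z i - z0 i)
        have w2 := abs_add_le (q.1 i - q0.1 i) (q.2 i - q0.2 i)
        linarith
      have := zero_of_small e3 s4
      simp only [Pi.add_apply, Pi.sub_apply]
      linarith
    rw [this]
    exact hzS
  exact_mod_cast this

end Count

theorem fiber_bound {α β : Type*} [DecidableEq β] (A : Finset α) (g : α → β) (B : Finset β)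
    (hg : ∀ a ∈ A, g a ∈ B) (K : ℝ) (hK : ∀ b ∈ B, ((A.filter (fun a => g a = b)).card : ℝ) ≤ K) :
    (A.card : ℝ) ≤ B.card * K := by
  rw [Finset.card_eq_sum_card_fiberwise (f := g) (t := B) hg]
  push_cast
  calc ∑ b ∈ B, ((A.filter (fun a => g a = b)).card : ℝ) ≤ ∑ _b ∈ B, K :=
        Finset.sum_le_sum hK
    _ = B.card * K := by rw [Finset.sum_const, nsmul_eq_mul]

section Sol

variable {N p t₀ s : ℕ} [Fact p.Prime] {ρ : ℝ} {S : Finset (Fin N → ℤ)}

open Classical in
/-- tuples satisfying a prescribed relation -/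
noncomputable def Sol (S : Finset (Fin N → ℤ)) (n : Fin s → ZMod p) :
    Finset (Fin s → Fin N → ℤ) :=
  (Fintype.piFinset (fun _ : Fin s => S)).filter
    (fun f => ∃ z ∈ S, ∑ i, n i • red p (f i) = red p z)

theorem sol_one (hS : GoodSet N S p t₀ ρ) (ht₀ : 2 ≤ t₀) (n : Fin s → ZMod p) (i0 : Fin s)
    (hi0 : 2 ≤ ht (n i0)) :
    ((Sol S n).card : ℝ) ≤ 8 / ((min (ht (n i0)) t₀ : ℕ) : ℝ) ^ N * (S.card : ℝ) ^ s := by
  classical
  have hm : (0 : ℝ) < ((min (ht (n i0)) t₀ : ℕ) : ℝ) ^ N := by
    apply pow_pos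
    have : 0 < min (ht (n i0)) t₀ := by omega
    exact_mod_cast this
  have h1 := fiber_bound (Sol S n) (fun f (j : {j : Fin s // j ≠ i0}) => f j)
    (Fintype.piFinset (fun _ : {j : Fin s // j ≠ i0} => S))
    (by
      intro f hf
      rw [Fintype.mem_piFinset]
      intro j
      have := (Finset.mem_filter.1 hf).1
      exact Fintype.mem_piFinset.1 this j)
    (8 * S.card / ((min (ht (n i0)) t₀ : ℕ) : ℝ) ^ N)
    (by
      intro a ha
      rw [le_div_iff₀ hm]
      refine le_trans ?_ (dilate hS (n i0) hi0 (∑ j : {j : Fin s // j ≠ i0}, n j • red p (a j)))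
      gcongr
      apply Finset.card_le_card_of_injOn (fun f => f i0)
      · intro f hf
        obtain ⟨hf1, hf2⟩ := Finset.mem_filter.1 (Finset.mem_coe.1 hf)
        obtain ⟨hf3, z, hz, he⟩ := Finset.mem_filter.1 hf1
        rw [Finset.mem_coe, Finset.mem_filter]
        refine ⟨Fintype.mem_piFinset.1 hf3 i0, z, hz, ?_⟩
        rw [← he, Fintype.sum_eq_add_sum_subtype_ne (fun i => n i • red p (f i)) i0]
        congr 1
        apply Finset.sum_congr rfl
        intro j _
        rw [← hf2]
      · intro f hf g hg hfg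
        obtain ⟨hf1, hf2⟩ := Finset.mem_filter.1 (Finset.mem_coe.1 hf)
        obtain ⟨hg1, hg2⟩ := Finset.mem_filter.1 (Finset.mem_coe.1 hg)
        funext j
        by_cases hj : j = i0
        · rw [hj]
          exact hfg
        · have := congrFun (hf2.trans hg2.symm) ⟨j, hj⟩
          exact this)
  rw [Fintype.card_piFinset, Finset.prod_const, Finset.card_univ] at h1
  have hcard : Fintype.card {j : Fin s // j ≠ i0} = s - 1 := by
    rw [Fintype.card_subtype_compl, Fintype.card_fin, Fintype.card_subtype_eq]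
  rw [hcard] at h1
  have hs1 : s = (s - 1) + 1 := by
    have := i0.isLt
    omega
  refine h1.trans (le_of_eq ?_)
  conv_rhs => rw [hs1, pow_succ]
  push_cast
  ring

theorem sol_pair (hS : GoodSet N S p t₀ ρ) (n : Fin s → ZMod p) (i0 j0 : Fin s) (hij : i0 ≠ j0)
    (hi0 : n i0 = 1) (hj0 : n j0 = 1) :
    ((Sol S n).card : ℝ) ≤ 8 * ρ ^ N * (S.card : ℝ) ^ s := by
  classical
  have h1 := fiber_bound (Sol S n) (fun f (j : {j : Fin s // j ∉ ({i0, j0} : Finset (Fin s))}) => f j)
    (Fintype.piFinset (fun _ : {j : Fin s // j ∉ ({i0, j0} : Finset (Fin s))} => S))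
    (by
      intro f hf
      rw [Fintype.mem_piFinset]
      intro j
      have := (Finset.mem_filter.1 hf).1
      exact Fintype.mem_piFinset.1 this j)
    (8 * ρ ^ N * (S.card : ℝ) ^ 2)
    (by
      intro a ha
      refine le_trans ?_ (pairs hS
        (∑ j : {j : Fin s // j ∉ ({i0, j0} : Finset (Fin s))}, n j • red p (a j)))
      have : ((Sol S n).filter (fun f => (fun (j : {j : Fin s // j ∉ ({i0, j0} : Finset (Fin s))}) =>
          f j) = a)).card ≤ ((S ×ˢ S).filter (fun q => ∃ z ∈ S, red p q.1 + red p q.2 +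
          (∑ j : {j : Fin s // j ∉ ({i0, j0} : Finset (Fin s))}, n j • red p (a j)) =
          red p z)).card := by
        apply Finset.card_le_card_of_injOn (fun f => (f i0, f j0))
        · intro f hf
          obtain ⟨hf1, hf2⟩ := Finset.mem_filter.1 (Finset.mem_coe.1 hf)
          obtain ⟨hf3, z, hz, he⟩ := Finset.mem_filter.1 hf1
          rw [Finset.mem_coe, Finset.mem_filter]
          refine ⟨Finset.mem_product.2 ⟨Fintype.mem_piFinset.1 hf3 i0,
            Fintype.mem_piFinset.1 hf3 j0⟩, z, hz, ?_⟩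
          rw [← he, ← Finset.sum_add_sum_compl ({i0, j0} : Finset (Fin s))
            (fun i => n i • red p (f i)), Finset.sum_pair hij, hi0, hj0, one_smul, one_smul]
          congr 1
          rw [Finset.sum_subtype (F := inferInstance) ({i0, j0} : Finset (Fin s))ᶜ
            (p := fun j => j ∉ ({i0, j0} : Finset (Fin s))) (by simp)]
          apply Finset.sum_congr rfl
          intro j _
          rw [← hf2]
        · intro f hf g hg hfg
          obtain ⟨hf1, hf2⟩ := Finset.mem_filter.1 (Finset.mem_coe.1 hf)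
          obtain ⟨hg1, hg2⟩ := Finset.mem_filter.1 (Finset.mem_coe.1 hg)
          simp only [Prod.mk.injEq] at hfg
          funext j
          by_cases hj : j ∈ ({i0, j0} : Finset (Fin s))
          · rcases Finset.mem_insert.1 hj with h | h
            · rw [h]
              exact hfg.1
            · rw [Finset.mem_singleton.1 h]
              exact hfg.2
          · have := congrFun (hf2.trans hg2.symm) ⟨j, hj⟩
            exact this
      exact_mod_cast this)
  rw [Fintype.card_piFinset, Finset.prod_const, Finset.card_univ] at h1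
  have hcard : Fintype.card {j : Fin s // j ∉ ({i0, j0} : Finset (Fin s))} = s - 2 := by
    rw [Fintype.card_subtype_compl, Fintype.card_fin, Fintype.card_coe, Finset.card_pair hij]
  rw [hcard] at h1
  have hs1 : s = (s - 2) + 2 := by
    have h2 := Finset.card_le_univ ({i0, j0} : Finset (Fin s))
    rw [Finset.card_pair hij, Fintype.card_fin] at h2
    omega
  refine h1.trans (le_of_eq ?_)
  conv_rhs => rw [hs1, pow_add]
  push_cast
  ring

end Sol

section Final

variable {N p t₀ s : ℕ} [Fact p.Prime] {ρ : ℝ} {S : Finset (Fin N → ℤ)}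

/-- the largest height of a coefficient -/
noncomputable def HH (n : Fin s → ZMod p) : ℕ := Finset.univ.sup (fun i => ht (n i))

open Classical in
/-- relations that matter -/
noncomputable def NN (p s : ℕ) [Fact p.Prime] : Finset (Fin s → ZMod p) :=
  Finset.univ.filter (fun n => ∑ i, n i = 1 ∧ ∀ j, n ≠ Pi.single j 1)

theorem bad_le (hS : GoodSet N S p t₀ ρ) :
    (badTuples (red p) S s : ℝ) ≤ ∑ n ∈ NN p s, ((Sol S n).card : ℝ) := by
  classical
  have hsub : ((Fintype.piFinset (fun _ : Fin s => S)).filter (fun f =>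
    ∃ z ∈ S, (∀ i, z ≠ f i) ∧
      lft (red p) z ∈ Submodule.span (ZMod p) (Set.range (fun i => lft (red p) (f i))))) ⊆
      (NN p s).biUnion (fun n => Sol S n) := by
    intro f hf
    obtain ⟨hf1, z, hz, hne, hsp⟩ := Finset.mem_filter.1 hf
    rw [Submodule.mem_span_range_iff_exists_fun] at hsp
    obtain ⟨n, hn⟩ := hsp
    have e1 : ∑ i, n i • red p (f i) = red p z := by
      have := congrArg Prod.fst hn
      simpa [lft, Prod.fst_sum] using this
    have e2 : ∑ i, n i = 1 := by
      have := congrArg Prod.snd hn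
      simpa [lft, Prod.snd_sum] using this
    rw [Finset.mem_biUnion]
    refine ⟨n, ?_, ?_⟩
    · rw [NN, Finset.mem_filter]
      refine ⟨Finset.mem_univ _, e2, ?_⟩
      rintro j rfl
      apply hne j
      have hfj := Fintype.mem_piFinset.1 hf1 j
      apply red_inj hS hz hfj
      rw [← e1, Finset.sum_eq_single j]
      · simp
      · intro i _ hi
        rw [Pi.single_eq_of_ne hi, zero_smul]
      · simp
    · rw [Sol, Finset.mem_filter]
      exact ⟨hf1, z, hz, e1⟩
  have h1 : badTuples (red p) S s ≤ ∑ n ∈ NN p s, (Sol S n).card := by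
    unfold badTuples
    refine le_trans (Finset.card_le_card ?_) Finset.card_biUnion_le
    convert hsub
  exact_mod_cast h1

theorem exists_two (hs : s + 1 < p) (n : Fin s → ZMod p) (hn : n ∈ NN p s) (hH : HH n ≤ 1) :
    ∃ i0 j0 : Fin s, i0 ≠ j0 ∧ n i0 = 1 ∧ n j0 = 1 := by
  classical
  obtain ⟨-, hsum, hns⟩ := Finset.mem_filter.1 hn
  have hp : p.Prime := Fact.out
  have hval : ∀ i, n i = 0 ∨ n i = 1 ∨ n i = -1 := fun i =>
    of_ht_le_one ((Finset.le_sup (f := fun i => ht (n i)) (Finset.mem_univ i)).trans hH)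
  by_contra hcon
  push Not at hcon
  -- integer lift
  set e : Fin s → ℤ := fun i => if n i = 1 then 1 else if n i = 0 then 0 else -1 with he
  have hcast : ∀ i, ((e i : ℤ) : ZMod p) = n i := by
    intro i
    simp only [he]
    rcases hval i with h | h | h
    · rw [h]
      simp
    · rw [h]
      simp
    · by_cases h1 : n i = 1
      · rw [if_pos h1, h1]
        simp
      · rw [if_neg h1]
        by_cases h0 : n i = 0
        · rw [if_pos h0, h0]
          simp
        · rw [if_neg h0, h]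
          simp
  have hle : ∀ i, |e i| ≤ 1 := by
    intro i
    simp only [he]
    split_ifs <;> simp
  have habs : |∑ i, e i| ≤ s := by
    calc |∑ i, e i| ≤ ∑ i, |e i| := Finset.abs_sum_le_sum_abs _ _
      _ ≤ ∑ _i : Fin s, (1 : ℤ) := Finset.sum_le_sum fun i _ => hle i
      _ = s := by simp
  have hsum' : ((∑ i, e i - 1 : ℤ) : ZMod p) = 0 := by
    push_cast
    simp_rw [hcast]
    rw [hsum, sub_self]
  have hs1 : ∑ i, e i = 1 := by
    have h2 : |∑ i, e i - 1| < p := by
      have h3 := abs_sub (∑ i, e i) 1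
      rw [abs_one] at h3
      have : ((s + 1 : ℕ) : ℤ) < p := by exact_mod_cast hs
      push_cast at this
      linarith
    have := zero_of_small hsum' h2
    linarith
  -- at most one coefficient is one
  by_cases hex : ∃ i0, n i0 = 1
  · obtain ⟨i0, hi0⟩ := hex
    have hother : ∀ j, j ≠ i0 → e j ≤ 0 := by
      intro j hj
      have h1 := hcon i0 j hj.symm hi0
      simp only [he]
      rw [if_neg h1]
      split_ifs <;> simp
    have hei0 : e i0 = 1 := by
      simp only [he]
      rw [if_pos hi0]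
    rw [← Finset.add_sum_erase _ _ (Finset.mem_univ i0), hei0] at hs1
    have hz : ∑ j ∈ Finset.univ.erase i0, e j = 0 := by linarith
    have hz' : ∀ j ∈ Finset.univ.erase i0, e j = 0 :=
      (Finset.sum_eq_zero_iff_of_nonpos (fun j hj => hother j (Finset.ne_of_mem_erase hj))).1 hz
    apply hns i0
    funext j
    by_cases hj : j = i0
    · rw [hj, Pi.single_eq_same, hi0]
    · rw [Pi.single_eq_of_ne hj, ← hcast j, hz' j (Finset.mem_erase.2 ⟨hj, Finset.mem_univ j⟩)]
      simp
  · push Not at hex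
    have hnp : ∀ j, e j ≤ 0 := by
      intro j
      simp only [he]
      rw [if_neg (hex j)]
      split_ifs <;> simp
    have := Finset.sum_nonpos (s := Finset.univ) (f := e) (fun j _ => hnp j)
    omega

theorem card_HH_le (t : ℕ) :
    ((Finset.univ : Finset (Fin s → ZMod p)).filter (fun n => HH n ≤ t)).card ≤
      ((2 * t + 1) ^ 2) ^ s := by
  classical
  have hsub : ((Finset.univ : Finset (Fin s → ZMod p)).filter (fun n => HH n ≤ t)) ⊆
      Fintype.piFinset (fun _ : Fin s =>
        (Finset.univ : Finset (ZMod p)).filter (fun lam => ht lam ≤ t)) := by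
    intro n hn
    rw [Fintype.mem_piFinset]
    intro i
    have := (Finset.mem_filter.1 hn).2
    rw [Finset.mem_filter]
    exact ⟨Finset.mem_univ _,
      (Finset.le_sup (f := fun i => ht (n i)) (Finset.mem_univ i)).trans this⟩
  refine (Finset.card_le_card hsub).trans ?_
  rw [Fintype.card_piFinset, Finset.prod_const, Finset.card_univ, Fintype.card_fin]
  exact Nat.pow_le_pow_left (card_ht_le t) s

theorem card_HH_one :
    ((Finset.univ : Finset (Fin s → ZMod p)).filter (fun n => HH n ≤ 1)).card ≤ 3 ^ s := by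
  classical
  have hsub : ((Finset.univ : Finset (Fin s → ZMod p)).filter (fun n => HH n ≤ 1)) ⊆
      Fintype.piFinset (fun _ : Fin s => ({0, 1, -1} : Finset (ZMod p))) := by
    intro n hn
    rw [Fintype.mem_piFinset]
    intro i
    have := (Finset.mem_filter.1 hn).2
    have h1 := of_ht_le_one ((Finset.le_sup (f := fun i => ht (n i)) (Finset.mem_univ i)).trans this)
    simpa using h1
  refine (Finset.card_le_card hsub).trans ?_
  rw [Fintype.card_piFinset, Finset.prod_const, Finset.card_univ, Fintype.card_fin]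
  exact Nat.pow_le_pow_left Finset.card_le_three s

theorem exists_HH (hs : 0 < s) (n : Fin s → ZMod p) : ∃ i0, ht (n i0) = HH n := by
  have : Nonempty (Fin s) := ⟨⟨0, hs⟩⟩
  obtain ⟨i, -, hi⟩ := Finset.exists_mem_eq_sup (Finset.univ : Finset (Fin s))
    Finset.univ_nonempty (fun i => ht (n i))
  exact ⟨i, hi.symm⟩

end Final

end UnionAux

/-- MODULE Union (file Union.lean) -/
theorem union_bound {N p t₀ : ℕ} [Fact p.Prime] {ρ : ℝ} (hρ : 0 < ρ) {S : Finset (Fin N → ℤ)}
    (hS : GoodSet N S p t₀ ρ) (ht₀ : 2 ≤ t₀) (s : ℕ) (hs : s + 1 < p) :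
    (badTuples (red p) S s : ℝ) ≤
      (3 ^ s * (8 * ρ ^ N)
        + ∑ t ∈ Finset.Icc 2 t₀, ((3 * (t : ℝ)) ^ (2 * s) * (8 / (t : ℝ) ^ N))
        + (p : ℝ) ^ s * (8 / (t₀ : ℝ) ^ N)) * (S.card : ℝ) ^ s := by
  classical
  refine (UnionAux.bad_le hS).trans ?_
  set X : ℝ := (S.card : ℝ) ^ s with hX
  have hX0 : 0 ≤ X := by positivity
  -- split
  have hsplit : ∑ n ∈ UnionAux.NN p s, ((UnionAux.Sol S n).card : ℝ) ≤
      ∑ n ∈ (UnionAux.NN p s).filter (fun n => UnionAux.HH n ≤ 1), ((UnionAux.Sol S n).card : ℝ)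
      + (∑ t ∈ Finset.Icc 2 t₀, ∑ n ∈ (UnionAux.NN p s).filter (fun n => UnionAux.HH n = t),
          ((UnionAux.Sol S n).card : ℝ))
      + ∑ n ∈ (UnionAux.NN p s).filter (fun n => t₀ < UnionAux.HH n),
          ((UnionAux.Sol S n).card : ℝ) := by
    rw [← Finset.sum_filter_add_sum_filter_not (UnionAux.NN p s) (fun n => UnionAux.HH n ≤ 1),
      add_assoc]
    gcongr
    rw [← Finset.sum_filter_add_sum_filter_not
      ((UnionAux.NN p s).filter (fun n => ¬ UnionAux.HH n ≤ 1)) (fun n => UnionAux.HH n ≤ t₀)]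
    apply add_le_add
    · rw [← Finset.sum_fiberwise_of_maps_to (s := ((UnionAux.NN p s).filter
        (fun n => ¬ UnionAux.HH n ≤ 1)).filter (fun n => UnionAux.HH n ≤ t₀))
        (t := Finset.Icc 2 t₀) (g := fun n => UnionAux.HH n)]
      · apply Finset.sum_le_sum
        intro t _
        apply Finset.sum_le_sum_of_subset_of_nonneg
        · intro n hn
          simp only [Finset.mem_filter] at hn ⊢
          exact ⟨hn.1.1.1, hn.2⟩
        · intro n _ _
          positivity
      · intro n hn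
        simp only [Finset.mem_filter] at hn
        rw [Finset.mem_Icc]
        omega
    · apply Finset.sum_le_sum_of_subset_of_nonneg
      · intro n hn
        simp only [Finset.mem_filter] at hn ⊢
        exact ⟨hn.1.1, by omega⟩
      · intro n _ _
        positivity
  refine hsplit.trans ?_
  rw [add_mul, add_mul]
  have hpos : ∀ n ∈ UnionAux.NN p s, 0 < s := by
    intro n hn
    rcases Nat.eq_zero_or_pos s with h | h
    · subst h
      have h1 := (Finset.mem_filter.1 hn).2.1
      simp at h1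
    · exact h
  apply add_le_add
  apply add_le_add
  · calc _ ≤ ∑ n ∈ (UnionAux.NN p s).filter (fun n => UnionAux.HH n ≤ 1), 8 * ρ ^ N * X := by
          apply Finset.sum_le_sum
          intro n hn
          obtain ⟨hn1, hn2⟩ := Finset.mem_filter.1 hn
          obtain ⟨i0, j0, hij, h1, h2⟩ := UnionAux.exists_two hs n hn1 hn2
          exact UnionAux.sol_pair hS n i0 j0 hij h1 h2
      _ = ((UnionAux.NN p s).filter (fun n => UnionAux.HH n ≤ 1)).card * (8 * ρ ^ N * X) := by
          rw [Finset.sum_const, nsmul_eq_mul]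
      _ ≤ (3 : ℝ) ^ s * (8 * ρ ^ N * X) := by
          have h3 : ((UnionAux.NN p s).filter (fun n => UnionAux.HH n ≤ 1)).card ≤ 3 ^ s := by
            refine le_trans (Finset.card_le_card ?_) UnionAux.card_HH_one
            intro n hn
            rw [Finset.mem_filter] at hn ⊢
            exact ⟨Finset.mem_univ _, hn.2⟩
          have h4 : (((UnionAux.NN p s).filter (fun n => UnionAux.HH n ≤ 1)).card : ℝ) ≤
              (3 : ℝ) ^ s := by exact_mod_cast h3
          gcongr
      _ = _ := by ring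
  · rw [Finset.sum_mul]
    apply Finset.sum_le_sum
    intro t ht
    obtain ⟨ht2, htt⟩ := Finset.mem_Icc.1 ht
    calc _ ≤ ∑ n ∈ (UnionAux.NN p s).filter (fun n => UnionAux.HH n = t),
            8 / (t : ℝ) ^ N * X := by
          apply Finset.sum_le_sum
          intro n hn
          obtain ⟨hn1, hn2⟩ := Finset.mem_filter.1 hn
          obtain ⟨i0, hi0⟩ := UnionAux.exists_HH (hpos n hn1) n
          have h5 := UnionAux.sol_one hS ht₀ n i0 (by omega)
          rw [hi0, hn2, min_eq_left htt] at h5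
          exact h5
      _ = ((UnionAux.NN p s).filter (fun n => UnionAux.HH n = t)).card * (8 / (t : ℝ) ^ N * X) := by
          rw [Finset.sum_const, nsmul_eq_mul]
      _ ≤ (3 * (t : ℝ)) ^ (2 * s) * (8 / (t : ℝ) ^ N * X) := by
          have h3 : ((UnionAux.NN p s).filter (fun n => UnionAux.HH n = t)).card ≤
              ((2 * t + 1) ^ 2) ^ s := by
            refine le_trans (Finset.card_le_card ?_) (UnionAux.card_HH_le t)
            intro n hn
            rw [Finset.mem_filter] at hn ⊢
            exact ⟨Finset.mem_univ _, hn.2.le⟩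
          have h4 : (((UnionAux.NN p s).filter (fun n => UnionAux.HH n = t)).card : ℝ) ≤
              (3 * (t : ℝ)) ^ (2 * s) := by
            calc (((UnionAux.NN p s).filter (fun n => UnionAux.HH n = t)).card : ℝ)
                ≤ ((((2 * t + 1) ^ 2) ^ s : ℕ) : ℝ) := by exact_mod_cast h3
              _ = (2 * (t : ℝ) + 1) ^ (2 * s) := by
                  push_cast
                  rw [pow_mul]
              _ ≤ (3 * (t : ℝ)) ^ (2 * s) := by
                  have : (2 : ℝ) ≤ t := by exact_mod_cast ht2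
                  gcongr
                  linarith
          gcongr
      _ = _ := by ring
  · calc _ ≤ ∑ n ∈ (UnionAux.NN p s).filter (fun n => t₀ < UnionAux.HH n),
            8 / (t₀ : ℝ) ^ N * X := by
          apply Finset.sum_le_sum
          intro n hn
          obtain ⟨hn1, hn2⟩ := Finset.mem_filter.1 hn
          obtain ⟨i0, hi0⟩ := UnionAux.exists_HH (hpos n hn1) n
          have h5 := UnionAux.sol_one hS ht₀ n i0 (by omega)
          rw [hi0, min_eq_right hn2.le] at h5
          exact h5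
      _ = ((UnionAux.NN p s).filter (fun n => t₀ < UnionAux.HH n)).card *
            (8 / (t₀ : ℝ) ^ N * X) := by
          rw [Finset.sum_const, nsmul_eq_mul]
      _ ≤ (p : ℝ) ^ s * (8 / (t₀ : ℝ) ^ N * X) := by
          have h3 : ((UnionAux.NN p s).filter (fun n => t₀ < UnionAux.HH n)).card ≤ p ^ s := by
            refine le_trans (Finset.card_le_univ _) ?_
            rw [Fintype.card_pi, Finset.prod_const, ZMod.card, Finset.card_univ, Fintype.card_fin]
          have h4 : (((UnionAux.NN p s).filter (fun n => t₀ < UnionAux.HH n)).card : ℝ) ≤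
              (p : ℝ) ^ s := by exact_mod_cast h3
          gcongr
      _ = _ := by ring

end Vale.P230
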