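import Vale.Agent.Lib.P230.StepFin
import Vale.Agent.Lib.P230.Union

open MeasureTheory ProbabilityTheory Set
open scoped ENNReal Pointwise

namespace Vale.P230

namespace SG

theorem exp_one_le : Real.exp 1 ≤ 3 := by
  have := Real.exp_one_lt_d9
  linarith

theorem exp_nat_le (m : ℕ) : Real.exp m ≤ 3 ^ m := by
  have : Real.exp (m : ℝ) = Real.exp 1 ^ m := by
    rw [← Real.exp_nat_mul, mul_one]
  rw [this]
  exact pow_le_pow_left₀ (Real.exp_pos _).le exp_one_le m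

theorem exp_two_nat_le (m : ℕ) : Real.exp (2 * m) ≤ 10 ^ m := by
  have h1 : Real.exp (2 * m) = Real.exp m * Real.exp m := by
    rw [← Real.exp_add]; ring_nf
  rw [h1]
  have h2 := exp_nat_le m
  calc Real.exp m * Real.exp m ≤ 3 ^ m * 3 ^ m :=
        mul_le_mul h2 h2 (Real.exp_pos _).le (by positivity)
    _ = 9 ^ m := by rw [← mul_pow]; norm_num
    _ ≤ 10 ^ m := pow_le_pow_left₀ (by norm_num) (by norm_num) m

/-- the remainder term -/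
theorem rem_le (m : ℕ) (D : ℝ) (hD0 : 0 ≤ D) (hDm : 10 * D ≤ m) :
    D ^ (m + 1) / ((m + 1).factorial : ℝ) ≤ Real.exp (-D) / 10 := by
  have h1 : (10 * D) ^ (m + 1) / ((m + 1).factorial : ℝ) ≤ Real.exp (10 * D) :=
    Real.pow_div_factorial_le_exp (10 * D) (by positivity) (m + 1)
  have h2 : D ^ (m + 1) / ((m + 1).factorial : ℝ) =
      ((10 * D) ^ (m + 1) / ((m + 1).factorial : ℝ)) / 10 ^ (m + 1) := by
    rw [mul_pow]; field_simp
  rw [h2]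
  calc ((10 * D) ^ (m + 1) / ((m + 1).factorial : ℝ)) / 10 ^ (m + 1)
      ≤ Real.exp (10 * D) / 10 ^ (m + 1) := by gcongr
    _ = Real.exp (-D) * Real.exp (11 * D) / 10 ^ (m + 1) := by
        rw [← Real.exp_add]; ring_nf
    _ ≤ Real.exp (-D) * 10 ^ m / 10 ^ (m + 1) := by
        have h3 : Real.exp (11 * D) ≤ 10 ^ m := by
          refine le_trans (Real.exp_le_exp.2 ?_) (exp_two_nat_le m)
          linarith
        gcongr
    _ = Real.exp (-D) / 10 := by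
        rw [pow_succ]; field_simp

theorem sum_sq_le (t₀ : ℕ) : ∑ t ∈ Finset.Icc 2 t₀, ((t : ℝ) ^ 2)⁻¹ ≤ 1 := by
  by_cases h : 1 ≤ t₀
  · have h1 := sum_Ioc_inv_sq_le_sub (α := ℝ) one_ne_zero h
    have h2 : Finset.Ioc 1 t₀ = Finset.Icc 2 t₀ := by
      ext x; simp only [Finset.mem_Ioc, Finset.mem_Icc]; omega
    rw [h2] at h1
    have h3 : (0 : ℝ) ≤ ((t₀ : ℕ) : ℝ)⁻¹ := by positivity
    simp only [Nat.cast_one, inv_one] at h1
    linarith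
  · have : Finset.Icc 2 t₀ = ∅ := by
      ext x; simp only [Finset.mem_Icc, Finset.notMem_empty, iff_false]; omega
    rw [this]; simp

theorem sum_t_le (t₀ m N : ℕ) (hN : 20 * m ≤ N) (hm : 1 ≤ m) :
    ∑ t ∈ Finset.Icc 2 t₀, ((3 * (t : ℝ)) ^ (4 * m) * (8 / (t : ℝ) ^ N)) ≤
      8 * (4 / 256 ^ m) := by
  have h1 : ∀ t ∈ Finset.Icc 2 t₀, ((3 * (t : ℝ)) ^ (4 * m) * (8 / (t : ℝ) ^ N)) ≤
      8 * (4 / 256 ^ m) * ((t : ℝ) ^ 2)⁻¹ := by
    intro t ht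
    rw [Finset.mem_Icc] at ht
    have ht2 : (2 : ℝ) ≤ t := by exact_mod_cast ht.1
    have ht0 : (0 : ℝ) < t := by linarith
    have h3 : 3 * (t : ℝ) ≤ (t : ℝ) ^ 3 := by
      have h30 : (4 : ℝ) ≤ (t : ℝ) ^ 2 := by nlinarith
      calc 3 * (t : ℝ) ≤ 4 * t := by linarith
        _ ≤ (t : ℝ) ^ 2 * t := mul_le_mul_of_nonneg_right h30 ht0.le
        _ = (t : ℝ) ^ 3 := by ring
    have h4 : (3 * (t : ℝ)) ^ (4 * m) ≤ (t : ℝ) ^ (12 * m) := by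
      calc (3 * (t : ℝ)) ^ (4 * m) ≤ ((t : ℝ) ^ 3) ^ (4 * m) :=
            pow_le_pow_left₀ (by positivity) h3 _
        _ = (t : ℝ) ^ (12 * m) := by rw [← pow_mul]; ring_nf
    obtain ⟨k, hk⟩ : ∃ k, N = 12 * m + (8 * m - 2) + 2 + k := ⟨N - 20 * m, by omega⟩
    calc ((3 * (t : ℝ)) ^ (4 * m) * (8 / (t : ℝ) ^ N))
        ≤ (t : ℝ) ^ (12 * m) * (8 / (t : ℝ) ^ N) := by gcongr
      _ = 8 * (1 / (t : ℝ) ^ (8 * m - 2)) * ((t : ℝ) ^ 2)⁻¹ * (1 / (t : ℝ) ^ k) := by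
          rw [hk, pow_add, pow_add, pow_add]; field_simp
      _ ≤ 8 * (1 / (2 : ℝ) ^ (8 * m - 2)) * ((t : ℝ) ^ 2)⁻¹ * 1 := by
          have h5 : 1 / (t : ℝ) ^ k ≤ 1 := by
            rw [div_le_one (by positivity)]
            exact one_le_pow₀ (by linarith)
          gcongr
      _ = 8 * (4 / 256 ^ m) * ((t : ℝ) ^ 2)⁻¹ := by
          have h6 : (2 : ℝ) ^ (8 * m - 2) * 4 = 256 ^ m := by
            have : (256 : ℝ) ^ m = 2 ^ (8 * m - 2 + 2) := by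
              rw [show (256 : ℝ) = 2 ^ 8 by norm_num, ← pow_mul]
              congr 1; omega
            rw [this, pow_add]; norm_num
          rw [← h6]
          field_simp
  calc ∑ t ∈ Finset.Icc 2 t₀, ((3 * (t : ℝ)) ^ (4 * m) * (8 / (t : ℝ) ^ N))
      ≤ ∑ t ∈ Finset.Icc 2 t₀, 8 * (4 / 256 ^ m) * ((t : ℝ) ^ 2)⁻¹ := Finset.sum_le_sum h1
    _ = 8 * (4 / 256 ^ m) * ∑ t ∈ Finset.Icc 2 t₀, ((t : ℝ) ^ 2)⁻¹ := by rw [Finset.mul_sum]
    _ ≤ 8 * (4 / 256 ^ m) * 1 := by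
        apply mul_le_mul_of_nonneg_left (sum_sq_le t₀) (by positivity)
    _ = _ := mul_one _

theorem small_pow (x : ℝ) (hx : 0 ≤ x) (c : ℝ) (hxc : x ≤ c) (hc : c ≤ 1) (m : ℕ) (hm : 2 ≤ m) :
    x ^ m ≤ c ^ 2 := by
  calc x ^ m ≤ c ^ m := pow_le_pow_left₀ hx hxc m
    _ ≤ c ^ 2 := pow_le_pow_of_le_one (hx.trans hxc) hc hm

theorem exists_m (M N : ℕ) (hM82 : 82 ≤ M) (hN : 4 * M ≤ N) :
    ∃ m : ℕ, Even m ∧ 4 ≤ m ∧ M * m ≤ N ∧ N ≤ 2 * M * m := by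
  have hq2 : 2 ≤ N / (2 * M) := by
    rw [Nat.le_div_iff_mul_le (by omega)]; omega
  have hqN : 2 * M * (N / (2 * M)) ≤ N := Nat.mul_div_le N (2 * M)
  have hNq : N < 2 * M * (N / (2 * M) + 1) := Nat.lt_mul_div_succ N (show 0 < 2 * M by omega)
  refine ⟨2 * (N / (2 * M)), even_two_mul _, by omega, ?_, ?_⟩
  · have : M * (2 * (N / (2 * M))) = 2 * M * (N / (2 * M)) := by ring
    omega
  · have : 2 * M * (N / (2 * M) + 1) ≤ 2 * M * (2 * (N / (2 * M))) :=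
      Nat.mul_le_mul_left _ (by omega)
    omega

theorem T1 {ρ : ℝ} (hρ0 : 0 < ρ) (hρ1 : ρ < 1) (M m N : ℕ) (hMρ : ρ ^ M ≤ 1 / 864)
    (hm : 4 ≤ m) (hMm : M * m ≤ N) :
    (6 : ℝ) ^ m * (3 ^ (2 * m) * (8 * ρ ^ N)) ≤ 1 / 10 := by
  have h1 : ρ ^ N ≤ (ρ ^ M) ^ m := by
    rw [← pow_mul]
    exact pow_le_pow_of_le_one hρ0.le hρ1.le hMm
  have h2 : (ρ ^ M) ^ m ≤ (1 / 864) ^ m := pow_le_pow_left₀ (by positivity) hMρ m
  have h3 : (1 / 16 : ℝ) ^ m = 6 ^ m * 9 ^ m * (1 / 864) ^ m := by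
    rw [← mul_pow, ← mul_pow]; norm_num
  have h4 : (3 : ℝ) ^ (2 * m) = 9 ^ m := by rw [pow_mul]; norm_num
  calc (6 : ℝ) ^ m * (3 ^ (2 * m) * (8 * ρ ^ N)) ≤ 6 ^ m * (3 ^ (2 * m) * (8 * (1 / 864) ^ m)) := by
        gcongr
        exact h1.trans h2
    _ = 8 * (1 / 16) ^ m := by
        rw [h3, h4]; ring
    _ ≤ 8 * (1 / 16) ^ 2 := by
        have := small_pow (1 / 16 : ℝ) (by norm_num) (1 / 16) le_rfl (by norm_num) m (by omega)
        linarith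
    _ ≤ 1 / 10 := by norm_num

theorem T2 (m N t₀ : ℕ) (hm : 4 ≤ m) (h82m : 82 * m ≤ N) :
    (6 : ℝ) ^ m * (∑ t ∈ Finset.Icc 2 t₀, ((3 * (t : ℝ)) ^ (4 * m) * (8 / (t : ℝ) ^ N)))
      ≤ 1 / 10 := by
  have h1 := sum_t_le t₀ m N (by omega) (by omega)
  calc (6 : ℝ) ^ m * (∑ t ∈ Finset.Icc 2 t₀, ((3 * (t : ℝ)) ^ (4 * m) * (8 / (t : ℝ) ^ N)))
      ≤ 6 ^ m * (8 * (4 / 256 ^ m)) := by gcongr
    _ = 32 * (6 / 256) ^ m := by rw [div_pow]; ring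
    _ ≤ 32 * (6 / 256) ^ 2 := by
        have := small_pow (6 / 256 : ℝ) (by norm_num) (6 / 256) le_rfl (by norm_num) m (by omega)
        linarith
    _ ≤ 1 / 10 := by norm_num

theorem T3 (m N t₀ p : ℕ) (hm : 4 ≤ m) (h82m : 82 * m ≤ N) (hp2 : p ≤ 2 * N ^ 40)
    (ht₀ : N ≤ t₀) : (6 : ℝ) ^ m * ((p : ℝ) ^ (2 * m) * (8 / (t₀ : ℝ) ^ N)) ≤ 1 / 10 := by
  have hNR : (328 : ℝ) ≤ N := by
    have : 328 ≤ N := by omega
    exact_mod_cast this
  have ht₀R : (N : ℝ) ≤ t₀ := by exact_mod_cast ht₀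
  have h1 : (p : ℝ) ≤ 2 * (N : ℝ) ^ 40 := by exact_mod_cast hp2
  have h2 : (p : ℝ) ^ (2 * m) ≤ (2 * (N : ℝ) ^ 40) ^ (2 * m) :=
    pow_le_pow_left₀ (Nat.cast_nonneg p) h1 _
  have hN0 : (0 : ℝ) < N := by linarith
  have h3 : (8 : ℝ) / (t₀ : ℝ) ^ N ≤ 8 / (N : ℝ) ^ (82 * m) := by
    apply div_le_div_of_nonneg_left (by norm_num) (by positivity)
    calc (N : ℝ) ^ (82 * m) ≤ (N : ℝ) ^ N := pow_le_pow_right₀ (by linarith) h82m
      _ ≤ (t₀ : ℝ) ^ N := pow_le_pow_left₀ hN0.le ht₀R N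
  calc (6 : ℝ) ^ m * ((p : ℝ) ^ (2 * m) * (8 / (t₀ : ℝ) ^ N))
      ≤ 6 ^ m * ((2 * (N : ℝ) ^ 40) ^ (2 * m) * (8 / (N : ℝ) ^ (82 * m))) := by gcongr
    _ = 8 * (24 / (N : ℝ) ^ 2) ^ m := by
        have e1 : (2 * (N : ℝ) ^ 40) ^ (2 * m) = 4 ^ m * ((N : ℝ) ^ 80) ^ m := by
          rw [pow_mul, ← mul_pow, mul_pow, ← pow_mul]; norm_num
        have e2 : (N : ℝ) ^ (82 * m) = ((N : ℝ) ^ 80) ^ m * ((N : ℝ) ^ 2) ^ m := by
          rw [← mul_pow, pow_mul, ← pow_add]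
        have e3 : (24 : ℝ) ^ m = 6 ^ m * 4 ^ m := by rw [← mul_pow]; norm_num
        rw [e1, e2, div_pow, e3]
        field_simp
    _ ≤ 8 * (1 / 10) ^ 2 := by
        have h4 : 24 / (N : ℝ) ^ 2 ≤ 1 / 10 := by
          rw [div_le_div_iff₀ (by positivity) (by norm_num)]
          nlinarith
        have := small_pow (24 / (N : ℝ) ^ 2) (by positivity) (1 / 10) h4 (by norm_num) m (by omega)
        linarith
    _ ≤ 1 / 10 := by norm_num

theorem T4 (m N : ℕ) (c : ℝ) (hm : 4 ≤ m) (h82m : 82 * m ≤ N) (hcard2 : (N : ℝ) ^ N ≤ c) :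
    Real.exp m * ((m : ℝ) ^ 2 / c) ≤ 1 / 10 := by
  have hNR : (328 : ℝ) ≤ N := by
    have : 328 ≤ N := by omega
    exact_mod_cast this
  have hem : Real.exp m ≤ 3 ^ m := exp_nat_le m
  have hm1 : ((m : ℝ) + 1) ≤ 2 ^ m := by
    have : m + 1 ≤ 2 ^ m := Nat.lt_two_pow_self
    exact_mod_cast this
  have h1 : (m : ℝ) ^ 2 ≤ 4 ^ m := by
    have : (m : ℝ) ≤ 2 ^ m := by linarith
    calc (m : ℝ) ^ 2 ≤ (2 ^ m) ^ 2 := pow_le_pow_left₀ (by positivity) this 2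
      _ = 4 ^ m := by rw [← pow_mul, mul_comm, pow_mul]; norm_num
  have h2 : (N : ℝ) ^ m ≤ c :=
    (pow_le_pow_right₀ (by linarith) (by omega)).trans hcard2
  have hN0 : (0 : ℝ) < N := by linarith
  have hc0 : 0 < c := lt_of_lt_of_le (by positivity) h2
  calc Real.exp m * ((m : ℝ) ^ 2 / c) ≤ 3 ^ m * (4 ^ m / (N : ℝ) ^ m) := by
        gcongr
    _ = (12 / (N : ℝ)) ^ m := by
        rw [div_pow, show (12 : ℝ) = 3 * 4 by norm_num, mul_pow]; ring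
    _ ≤ (1 / 10) ^ 2 := by
        apply small_pow _ (by positivity) _ _ (by norm_num) m (by omega)
        rw [div_le_div_iff₀ (by positivity) (by norm_num)]
        linarith
    _ ≤ 1 / 10 := by norm_num

theorem fin_num (m : ℕ) (D b c X : ℝ) (hD0 : 0 ≤ D) (hDm : 10 * D ≤ m) (hb0 : 0 ≤ b)
    (hc : 0 < c)
    (hb6 : (6 : ℝ) ^ m * b ≤ 3 / 10) (hT4 : Real.exp m * ((m : ℝ) ^ 2 / c) ≤ 1 / 10)
    (hmain : X ≤ Real.exp (-D) + D ^ (m + 1) / (m + 1).factorial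
        + Real.exp D * (m * b + (m : ℝ) ^ 2 / c) + Real.exp (2 * D) * b) :
    X ≤ 3 * Real.exp (-D) := by
  have hm1 : ((m : ℝ) + 1) ≤ 2 ^ m := by
    have : m + 1 ≤ 2 ^ m := Nat.lt_two_pow_self
    exact_mod_cast this
  have hem : Real.exp m ≤ 3 ^ m := exp_nat_le m
  have hA : (m + 1) * Real.exp m ≤ 6 ^ m := by
    calc (m + 1) * Real.exp m ≤ 2 ^ m * 3 ^ m := by gcongr
      _ = 6 ^ m := by rw [← mul_pow]; norm_num
  have hE2 : Real.exp D = Real.exp (-D) * Real.exp (2 * D) := by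
    rw [← Real.exp_add]; ring_nf
  have hE3 : Real.exp (2 * D) = Real.exp (-D) * Real.exp (3 * D) := by
    rw [← Real.exp_add]; ring_nf
  have hE4 : Real.exp (2 * D) ≤ Real.exp m := Real.exp_le_exp.2 (by linarith)
  have hE5 : Real.exp (3 * D) ≤ Real.exp m := Real.exp_le_exp.2 (by linarith)
  have hR := rem_le m D hD0 hDm
  have hfin1 : Real.exp D * (m * b + (m : ℝ) ^ 2 / c) + Real.exp (2 * D) * b ≤
      Real.exp (-D) * (4 / 10) := by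
    have h1 : Real.exp D * (m * b + (m : ℝ) ^ 2 / c) ≤
        Real.exp (-D) * (Real.exp m * (m * b) + Real.exp m * ((m : ℝ) ^ 2 / c)) := by
      calc Real.exp D * (m * b + (m : ℝ) ^ 2 / c)
          = Real.exp (-D) * (Real.exp (2 * D) * (m * b + (m : ℝ) ^ 2 / c)) := by
            rw [← mul_assoc, ← hE2]
        _ ≤ Real.exp (-D) * (Real.exp m * (m * b + (m : ℝ) ^ 2 / c)) := by gcongr
        _ = _ := by ring
    have h2 : Real.exp (2 * D) * b ≤ Real.exp (-D) * (Real.exp m * b) := by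
      rw [hE3, mul_assoc]
      gcongr
    have h3 : Real.exp m * (m * b) + Real.exp m * b ≤ 6 ^ m * b := by
      have : Real.exp m * (m * b) + Real.exp m * b = ((m + 1) * Real.exp m) * b := by ring
      rw [this]
      exact mul_le_mul_of_nonneg_right hA hb0
    have h4 : Real.exp (-D) * (Real.exp m * (m * b) + Real.exp m * ((m : ℝ) ^ 2 / c))
        + Real.exp (-D) * (Real.exp m * b) ≤ Real.exp (-D) * (4 / 10) := by
      rw [← mul_add]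
      apply mul_le_mul_of_nonneg_left _ (Real.exp_pos _).le
      linarith
    linarith
  have hpos := Real.exp_pos (-D)
  refine hmain.trans ?_
  linarith

end SG

open SG in
/-- MODULE StepGood: Step A for a good set (numerics). -/
theorem stepA_good {ρ : ℝ} (hρ0 : 0 < ρ) (hρ1 : ρ < 1) :
    ∃ c₁ : ℝ, 0 < c₁ ∧ ∃ N₀ : ℕ, ∀ (d N p t₀ : ℕ) [Fact p.Prime] (S : Finset (Fin N → ℤ)),
      N = 4 * d → N₀ ≤ N → N ^ 40 ≤ p → p ≤ 2 * N ^ 40 → N ≤ t₀ →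
      GoodSet N S p t₀ ρ → (S.card : ℝ) ≤ c₁ * N * (p : ℝ) ^ d → (N : ℝ) ^ N ≤ S.card →
      (uncCount d (red p) (S : Set (Fin N → ℤ)) : ℝ) / (p : ℝ) ^ (d * (N + 1))
        ≤ 3 * Real.exp (-((S.card : ℝ) / (p : ℝ) ^ d)) := by
  obtain ⟨M0, hM0⟩ := exists_pow_lt_of_lt_one (show (0 : ℝ) < 1 / 864 by norm_num) hρ1
  obtain ⟨M, hM82, hMρ⟩ : ∃ M : ℕ, 82 ≤ M ∧ ρ ^ M ≤ 1 / 864 :=
    ⟨max M0 82, le_max_right _ _,
      (pow_le_pow_of_le_one hρ0.le hρ1.le (le_max_left _ _)).trans hM0.le⟩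
  have hMpos : (0 : ℝ) < M := by
    have : 0 < M := by omega
    exact_mod_cast this
  refine ⟨1 / (20 * M), by positivity, 4 * M, ?_⟩
  intro d N p t₀ _ S hNd hN hp1 hp2 ht₀ hS hcard1 hcard2
  have hNpos : 0 < N := by omega
  obtain ⟨m, hme, hm4, hMm, hNm⟩ := exists_m M N hM82 hN
  have h82m : 82 * m ≤ N := (Nat.mul_le_mul_right m hM82).trans hMm
  have hppos : 0 < p := (Fact.out : p.Prime).pos
  have hNp : N ≤ p := by
    calc N = N ^ 1 := (pow_one N).symm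
      _ ≤ N ^ 40 := Nat.pow_le_pow_right hNpos (by norm_num)
      _ ≤ p := hp1
  have hpR : (0 : ℝ) < p := by exact_mod_cast hppos
  have hSc : (0 : ℝ) < S.card := by exact_mod_cast hS.ne.card_pos
  obtain ⟨D, hD⟩ : ∃ D : ℝ, D = (S.card : ℝ) / (p : ℝ) ^ d := ⟨_, rfl⟩
  have hD0 : 0 ≤ D := by rw [hD]; positivity
  have hDm : 10 * D ≤ m := by
    have h1 : D ≤ 1 / (20 * M) * N := by
      rw [hD, div_le_iff₀ (by positivity)]; exact hcard1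
    have h2 : (N : ℝ) ≤ 2 * M * m := by exact_mod_cast hNm
    have h3 : 1 / (20 * (M : ℝ)) * N ≤ m / 10 := by
      rw [div_mul_eq_mul_div, one_mul, div_le_div_iff₀ (by positivity) (by norm_num)]
      nlinarith
    linarith
  obtain ⟨b, hb⟩ : ∃ b : ℝ, b = 3 ^ (2 * m) * (8 * ρ ^ N)
    + ∑ t ∈ Finset.Icc 2 t₀, ((3 * (t : ℝ)) ^ (4 * m) * (8 / (t : ℝ) ^ N))
    + (p : ℝ) ^ (2 * m) * (8 / (t₀ : ℝ) ^ N) := ⟨_, rfl⟩
  have hb0 : 0 ≤ b := by rw [hb]; positivity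
  have hbad : ∀ s < 2 * m, (badTuples (red p) S s : ℝ) ≤ b * (S.card : ℝ) ^ s := by
    intro s hs
    refine (union_bound hρ0 hS (by omega) s (by omega)).trans ?_
    apply mul_le_mul_of_nonneg_right _ (by positivity)
    rw [hb]
    apply add_le_add (add_le_add _ _) _
    · apply mul_le_mul_of_nonneg_right _ (by positivity)
      exact pow_le_pow_right₀ (by norm_num) (by omega)
    · apply Finset.sum_le_sum
      intro t ht
      rw [Finset.mem_Icc] at ht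
      have ht2 : (2 : ℝ) ≤ t := by exact_mod_cast ht.1
      apply mul_le_mul_of_nonneg_right _ (by positivity)
      exact pow_le_pow_right₀ (by linarith) (by omega)
    · apply mul_le_mul_of_nonneg_right _ (by positivity)
      exact pow_le_pow_right₀ (by exact_mod_cast (Fact.out : p.Prime).one_lt.le) (by omega)
  have hmain := stepA_finite_of (d := d) (m := m) (red p) S hS.ne hme (by omega) b hb0
    hbad D hD (bonf (red p) S hme (by omega))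
  have hb6 : (6 : ℝ) ^ m * b ≤ 3 / 10 := by
    have h1 := T1 hρ0 hρ1 M m N hMρ hm4 hMm
    have h2 := T2 m N t₀ hm4 h82m
    have h3 := T3 m N t₀ p hm4 h82m hp2 ht₀
    rw [hb, mul_add, mul_add]; linarith
  rw [← hD]
  exact fin_num m D b S.card _ hD0 hDm hb0 hSc hb6 (T4 m N _ hm4 h82m hcard2) hmain

end Vale.P230
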